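import Mathlib

namespace Vale.Agent.P162

open Finset Equiv

section av
variable {α β M N : Type*} [Fintype α] [Fintype β] [AddCommGroup M] [Module ℝ M]
  [AddCommGroup N] [Module ℝ N]

/-- Uniform average. -/
noncomputable def av (f : α → M) : M := (Fintype.card α : ℝ)⁻¹ • ∑ a, f a

lemma av_const [Nonempty α] (c : M) : av (fun _ : α => c) = c := by
  have : (Fintype.card α : ℝ) ≠ 0 := by exact_mod_cast Fintype.card_ne_zero
  simp [av, ← Nat.cast_smul_eq_nsmul ℝ, smul_smul, this]

lemma av_map (L : M →ₗ[ℝ] N) (f : α → M) : L (av f) = av fun a => L (f a) := by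
  simp [av, map_sum]

lemma av_add (f g : α → M) : av (fun a => f a + g a) = av f + av g := by
  simp [av, sum_add_distrib]

lemma av_smul (c : ℝ) (f : α → M) : av (fun a => c • f a) = c • av f := by
  simp [av, ← smul_sum, smul_comm c]

lemma av_mul_left (c : ℝ) (f : α → ℝ) : av (fun a => c * f a) = c * av f := av_smul c f

lemma av_mul_right (c : ℝ) (f : α → ℝ) : av (fun a => f a * c) = av f * c := by
  simp only [mul_comm _ c, av_mul_left]

lemma av_sum {γ : Type*} (s : Finset γ) (f : γ → α → M) :
    av (fun a => ∑ c ∈ s, f c a) = ∑ c ∈ s, av (f c) := by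
  simp only [av, ← smul_sum]; rw [sum_comm]

lemma av_comm (f : α → β → M) :
    av (fun a => av fun b => f a b) = av fun b => av fun a => f a b := by
  simp only [av, ← smul_sum]; rw [sum_comm, smul_comm]

lemma av_le_av {f g : α → ℝ} (h : ∀ a, f a ≤ g a) : av f ≤ av g :=
  mul_le_mul_of_nonneg_left (sum_le_sum fun a _ => h a) (by positivity)

lemma av_nonneg {f : α → ℝ} (h : ∀ a, 0 ≤ f a) : 0 ≤ av f :=
  mul_nonneg (by positivity) (sum_nonneg fun a _ => h a)

lemma av_le_of_le [Nonempty α] {f : α → ℝ} {c : ℝ} (h : ∀ a, f a ≤ c) : av f ≤ c :=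
  (av_le_av h).trans (av_const c).le

lemma av_equiv (e : α ≃ β) (f : β → M) : av (fun a => f (e a)) = av f := by
  simp only [av, Fintype.card_congr e, e.sum_comp]

lemma av_prod (f : α × β → M) : av f = av fun a => av fun b => f (a, b) := by
  simp only [av, ← smul_sum, smul_smul, Fintype.card_prod, Fintype.sum_prod_type]
  push_cast; rw [mul_inv]

lemma av_resample [Nonempty β] (m : α → β → α) (r : α → β → β)
    (h1 : ∀ a b, m (m a b) (r a b) = a) (h2 : ∀ a b, r (m a b) (r a b) = b) (F : α → M) :
    av F = av fun a => av fun b => F (m a b) := by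
  have hi : Function.Involutive fun p : α × β => (m p.1 p.2, r p.1 p.2) := fun p => by
    simp [h1, h2]
  have := av_equiv hi.toPerm fun p => F p.1
  rw [av_prod, av_prod] at this
  simp only [av_const] at this
  exact this.symm

lemma av_mix {κ γ : Type*} [Fintype κ] [DecidableEq κ] [Fintype γ] [Nonempty γ] (c : κ → Prop)
    [DecidablePred c] (F : (κ → γ) → M) :
    av F = av fun ω : κ → γ => av fun ω' : κ → γ => F fun k => if c k then ω' k else ω k :=
  av_resample (fun ω ω' k => if c k then ω' k else ω k)
    (fun ω ω' k => if c k then ω k else ω' k)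
    (fun a b => by ext k; by_cases h : c k <;> simp [h])
    (fun a b => by ext k; by_cases h : c k <;> simp [h]) F

lemma av_update {κ γ : Type*} [Fintype κ] [DecidableEq κ] [Fintype γ] [Nonempty γ] (k : κ)
    (F : (κ → γ) → M) : av F = av fun ω => av fun s : γ => F (Function.update ω k s) :=
  av_resample _ (fun ω _ => ω k) (fun a b => by simp) (fun a b => by simp) F

lemma av_pi {κ γ : Type*} [Fintype κ] [DecidableEq κ] [Fintype γ] (f : κ → γ → ℝ) :
    av (fun ω : κ → γ => ∏ k, f k (ω k)) = ∏ k, av (f k) := by
  simp only [av, smul_eq_mul, prod_mul_distrib, prod_univ_sum, Fintype.piFinset_univ,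
    prod_const, card_univ, Fintype.card_pi]
  push_cast; rw [inv_pow]

lemma norm_av_le {E : Type*} [NormedAddCommGroup E] [NormedSpace ℝ E] (f : α → E) :
    ‖av f‖ ≤ av fun a => ‖f a‖ := by
  rw [av, norm_smul, Real.norm_of_nonneg (by positivity)]
  exact mul_le_mul_of_nonneg_left (norm_sum_le _ _) (by positivity)

end av

variable {ι : Type*} [DecidableEq ι]

/-- Flip of one coordinate. -/
def fl (a : ι) : Perm (ι → Bool) :=
  Function.Involutive.toPerm (fun p => Function.update p a (!p a)) fun p => by simp

lemma fl_apply (a : ι) (p : ι → Bool) : fl a p = Function.update p a (!p a) := rfl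

@[simp] lemma fl_fl (a : ι) (p : ι → Bool) : fl a (fl a p) = p := by simp [fl_apply]

@[simp] lemma fl_self (a : ι) (p : ι → Bool) : fl a p a = !p a := by simp [fl_apply]

lemma fl_ne {a b : ι} (h : b ≠ a) (p : ι → Bool) : fl a p b = p b := by simp [fl_apply, h]

/-- The representative of the switch of `p` in direction `a`. -/
def rp (a : ι) (p : ι → Bool) : ι → Bool := Function.update p a false

@[simp] lemma rp_fl (a : ι) (p : ι → Bool) : rp a (fl a p) = rp a p := by simp [rp, fl_apply]

@[simp] lemma rp_self (a : ι) (p : ι → Bool) : rp a p a = false := by simp [rp]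

lemma rp_ne {a b : ι} (h : b ≠ a) (p : ι → Bool) : rp a p b = p b := by simp [rp, h]

lemma rp_of_false {a : ι} {p : ι → Bool} (h : p a = false) : rp a p = p := by
  rw [rp, ← h, Function.update_eq_self]

lemma rp_eq_iff {a : ι} {p q : ι → Bool} : rp a p = rp a q ↔ q = p ∨ q = fl a p := by
  constructor
  · intro h
    have h' : ∀ b, b ≠ a → q b = p b := fun b hb => by
      rw [← rp_ne hb p, h, rp_ne hb]
    by_cases e : q a = p a
    · left; ext b; by_cases hb : b = a
      · rw [hb, e]
      · exact h' b hb
    · right; ext b; by_cases hb : b = a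
      · rw [hb, fl_self]; revert e; cases q a <;> cases p a <;> simp
      · rw [fl_ne hb, h' b hb]
  · rintro (rfl | rfl) <;> simp

lemma fl_comm (a b : ι) (p : ι → Bool) : fl a (fl b p) = fl b (fl a p) := by
  by_cases h : a = b
  · rw [h]
  · simp only [fl_apply, Function.update_of_ne h, Function.update_of_ne (Ne.symm h)]
    exact Function.update_comm (Ne.symm h) _ _ _

lemma rp_fl_ne {a b : ι} (h : a ≠ b) (p : ι → Bool) : rp a (fl b p) = fl b (rp a p) := by
  simp only [fl_apply, rp, Function.update_of_ne h.symm]
  exact Function.update_comm h.symm _ _ _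

/-- A layer of switches in direction `a`. -/
def lay (a : ι) (s : (ι → Bool) → Bool) : Perm (ι → Bool) :=
  Function.Involutive.toPerm (fun p => if s (rp a p) then fl a p else p) fun p => by
    by_cases h : s (rp a p) = true <;> simp [h]

lemma lay_apply (a : ι) (s : (ι → Bool) → Bool) (p : ι → Bool) :
    lay a s p = if s (rp a p) then fl a p else p := rfl

@[simp] lemma rp_lay (a : ι) (s : (ι → Bool) → Bool) (p : ι → Bool) :
    rp a (lay a s p) = rp a p := by rw [lay_apply]; split_ifs <;> simp

lemma lay_mul (a : ι) (s t : (ι → Bool) → Bool) :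
    lay a s * lay a t = lay a fun p => xor (s p) (t p) := by
  refine Equiv.ext fun p => ?_
  rw [Perm.mul_apply, lay_apply a s, rp_lay, lay_apply, lay_apply]
  cases s (rp a p) <;> cases t (rp a p) <;> simp

@[simp] lemma lay_lay (a : ι) (s : (ι → Bool) → Bool) (p : ι → Bool) :
    lay a s (lay a s p) = p := by
  rw [lay_apply a s, rp_lay, lay_apply]; split_ifs <;> simp

@[simp] lemma lay_inv (a : ι) (s : (ι → Bool) → Bool) : (lay a s)⁻¹ = lay a s :=
  inv_eq_of_mul_eq_one_left (Equiv.ext fun p => lay_lay a s p)

lemma lay_fl (a : ι) (s : (ι → Bool) → Bool) (p : ι → Bool) :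
    lay a s (fl a p) = fl a (lay a s p) := by
  rw [lay_apply, rp_fl, lay_apply]; split_ifs <;> simp

lemma lay_ne {a b : ι} (h : b ≠ a) (s : (ι → Bool) → Bool) (p : ι → Bool) :
    lay a s p b = p b := by rw [lay_apply]; split_ifs <;> simp [fl_ne h]

lemma lay_self (a : ι) (s : (ι → Bool) → Bool) (p : ι → Bool) :
    lay a s p a = xor (s (rp a p)) (p a) := by
  rw [lay_apply]; cases s (rp a p) <;> simp

/-- Settings of all layers. -/
abbrev St (ι : Type*) := ι → (ι → Bool) → Bool

/-- A network of layers, the head of the list acting first. -/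
def net : List ι → St ι → Perm (ι → Bool)
  | [], _ => 1
  | a :: l, ω => net l ω * lay a (ω a)

lemma net_append (l l' : List ι) (ω : St ι) : net (l ++ l') ω = net l' ω * net l ω := by
  induction l with
  | nil => simp [net]
  | cons a l ih => simp [net, ih, mul_assoc]

lemma net_inv (l : List ι) (ω : St ι) : (net l ω)⁻¹ = net l.reverse ω := by
  induction l with
  | nil => simp [net]
  | cons a l ih => simp [net, ih, net_append]

lemma net_congr {l : List ι} {ω ω' : St ι} (h : ∀ a ∈ l, ω a = ω' a) : net l ω = net l ω' := by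
  induction l with
  | nil => rfl
  | cons a l ih =>
    simp only [net, h a (by simp), ih fun b hb => h b (by simp [hb])]

lemma net_bit {l : List ι} {a : ι} (h : a ∉ l) (ω : St ι) (p : ι → Bool) : net l ω p a = p a := by
  induction l generalizing p with
  | nil => rfl
  | cons b l ih =>
    simp only [List.mem_cons, not_or] at h
    rw [net, Perm.mul_apply, ih h.2, lay_ne h.1]

lemma net_inv_bit {l : List ι} {a : ι} (h : a ∉ l) (ω : St ι) (p : ι → Bool) :
    (net l ω)⁻¹ p a = p a := by rw [net_inv, net_bit (by simpa using h)]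

/-- The network on one side of a direction only sees the settings on that side. -/
lemma net_mix {l : List ι} {a : ι} (h : a ∉ l) (ω ω' : St ι) (p : ι → Bool) :
    net l (fun b q => if q a then ω' b q else ω b q) p = if p a then net l ω' p else net l ω p := by
  induction l generalizing p with
  | nil => simp [net]
  | cons b l ih =>
    simp only [List.mem_cons, not_or] at h
    simp only [net, Perm.mul_apply, ih h.2, lay_ne h.1]
    simp only [lay_apply, rp_ne h.1]
    split_ifs <;> rfl

lemma net_fl {l : List ι} {a : ι} (h : a ∉ l) (ω : St ι) (p : ι → Bool) :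
    net l ω (fl a p) = fl a (net l (fun b q => ω b (fl a q)) p) := by
  induction l generalizing p with
  | nil => simp [net]
  | cons b l ih =>
    simp only [List.mem_cons, not_or] at h
    simp only [net, Perm.mul_apply, ← ih h.2]
    simp only [lay_apply, rp_fl_ne (Ne.symm h.1)]
    split_ifs <;> simp [fl_comm]

variable [Fintype ι] {M : Type*} [AddCommGroup M] [Module ℝ M]

lemma av_net_cons {a : ι} {l : List ι} (h : a ∉ l) (F : Perm (ι → Bool) → M) :
    av (fun ω => F (net (a :: l) ω)) = av fun s => av fun ω => F (net l ω * lay a s) := by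
  rw [av_update a, av_comm]
  congr 1; ext s; congr 1; ext ω
  rw [net, Function.update_self, net_congr (ω' := ω) fun b hb =>
    Function.update_of_ne (by rintro rfl; exact h hb) _ _]

lemma av_St_mix (c : ι → (ι → Bool) → Prop) [∀ b, DecidablePred (c b)] (F : St ι → M) :
    av F = av fun ω : St ι => av fun ω' : St ι => F fun b q => if c b q then ω' b q else ω b q :=
  av_resample (fun ω ω' b q => if c b q then ω' b q else ω b q)
    (fun ω ω' b q => if c b q then ω b q else ω' b q)
    (fun a b => by ext k q; by_cases h : c k q <;> simp [h])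
    (fun a b => by ext k q; by_cases h : c k q <;> simp [h]) F

lemma av_St_fl (a : ι) (F : St ι → M) : av (fun ω : St ι => F fun b q => ω b (fl a q)) = av F :=
  av_equiv (Function.Involutive.toPerm (fun (ω : St ι) b q => ω b (fl a q)) fun ω => by simp) F

lemma av_xor {κ : Type*} [Fintype κ] [DecidableEq κ] (t : κ → Bool) (F : (κ → Bool) → M) :
    av (fun s : κ → Bool => F fun p => xor (s p) (t p)) = av F :=
  av_equiv (Function.Involutive.toPerm (fun (s : κ → Bool) p => xor (s p) (t p))
    fun s => by ext p; simp) F

end Vale.Agent.P162
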