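import Vale.Agent.P162.Krec

namespace Vale.Agent.P162

open Finset Equiv Classical

/-- Sign of a bit. -/
def sg (b : Bool) : ℝ := if b then -1 else 1

lemma abs_sg (b : Bool) : |sg b| = 1 := by cases b <;> simp [sg]
lemma sg_xor (b c : Bool) : sg (xor b c) = sg b * sg c := by cases b <;> cases c <;> simp [sg]

variable {ι : Type*} [DecidableEq ι] [Fintype ι]

lemma sign_av (a : ι) (D : Finset (ι → Bool)) :
    |av fun s => ∏ p ∈ D, sg (lay a s p a)| ≤ ind (∀ p ∈ D, fl a p ∈ D) := by
  by_cases h : ∀ p ∈ D, fl a p ∈ D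
  · rw [ind_pos h, ← Real.norm_eq_abs]
    exact (norm_av_le _).trans (av_le_of_le fun s => by simp [abs_sg])
  · rw [ind_neg h]
    push Not at h
    obtain ⟨q, hq, hq'⟩ := h
    have := av_xor (fun r => decide (r = rp a q)) fun s => ∏ p ∈ D, sg (lay a s p a)
    have e : ∀ s : (ι → Bool) → Bool,
        ∏ p ∈ D, sg (lay a (fun r => xor (s r) (decide (r = rp a q))) p a) =
          (-1) * ∏ p ∈ D, sg (lay a s p a) := fun s => by
      rw [← mul_prod_erase D _ hq, ← mul_prod_erase D _ hq, ← mul_assoc]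
      congr 1
      · simp only [lay_self, decide_true]
        cases s (rp a q) <;> cases q a <;> simp [sg]
      · refine prod_congr rfl fun p hp => ?_
        rw [mem_erase] at hp
        have : rp a p ≠ rp a q := fun e =>
          (rp_eq_iff.1 e.symm).elim hp.1 fun e' => hq' (e' ▸ hp.2)
        simp [lay_self, this]
    simp only [e, av_mul_left] at this
    rw [abs_nonpos_iff]; linarith

lemma vv_le (a : ι) (X : Finset (ι → Bool)) (y : Perm (ι → Bool)) :
    2 ^ X.card * vv a X y ≤ (X.powerset.filter fun D =>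
      (∀ p ∈ D, fl a p ∈ D) ∧ ∀ p ∈ D.image y, fl a p ∈ D.image y).card := by
  have e : ∀ s s', 2 ^ X.card * ind (∀ x ∈ X, lay a s (y x) a = lay a s' x a) =
      ∑ D ∈ X.powerset, (∏ p ∈ D, sg (lay a s' p a)) * ∏ p ∈ D.image y, sg (lay a s p a) := by
    intro s s'
    simp only [prod_image y.injective.injOn, ← prod_mul_distrib]
    rw [← prod_one_add]
    by_cases h : ∀ x ∈ X, lay a s (y x) a = lay a s' x a
    · rw [ind_pos h, mul_one, ← prod_const]
      refine prod_congr rfl fun x hx => ?_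
      rw [h x hx]; cases lay a s' x a <;> norm_num [sg]
    · rw [ind_neg h, mul_zero]
      push Not at h
      obtain ⟨x, hx, h⟩ := h
      refine (prod_eq_zero hx ?_).symm
      revert h; cases lay a s' x a <;> cases lay a s (y x) a <;> simp [sg]
  simp only [vv, ← av_mul_left, e, av_sum]
  simp only [av_mul_left, av_mul_right]
  rw [← sum_ind]
  refine sum_le_sum fun D _ => (le_abs_self _).trans ?_
  rw [abs_mul, ind_and]
  exact mul_le_mul (sign_av a D) (sign_av a _) (abs_nonneg _) (ind_nonneg _)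

/-- Number of colourings constant along alternating cycles. -/
noncomputable def cl (β : Type*) [Fintype β] [AddCommGroup β] (a : ι) (I : Finset (ι → Bool))
    (g : Perm (ι → Bool)) : ℝ :=
  ∑ φ ∈ Col β I, ind (φ ∘ fl a = φ ∧ (φ ∘ g.symm) ∘ fl a = φ ∘ g.symm)

omit [Fintype ι] in
lemma comp_lay {β : Type*} {a : ι} {φ : (ι → Bool) → β} (h : φ ∘ fl a = φ) (s) (p : ι → Bool) :
    φ (lay a s p) = φ p := by
  rw [lay_apply]; split_ifs
  · exact congrFun h p
  · rfl

lemma vv_pow (a : ι) (X : Finset (ι → Bool)) (g : Perm (ι → Bool)) (s s') (e : ℕ) :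
    (2 ^ X.card * vv a X (lay a s * g * lay a s')) ^ e ≤
      cl (Fin e → ZMod 2) a (X.filter fun p => fl a p ∈ X) g := by
  refine (pow_le_pow_left₀ (mul_nonneg (by positivity) (vv_nonneg _ _ _)) (vv_le _ _ _) e).trans ?_
  set y := lay a s * g * lay a s' with hy
  set A := X.powerset.filter fun D =>
      (∀ p ∈ D, fl a p ∈ D) ∧ ∀ p ∈ D.image y, fl a p ∈ D.image y
  have : A.card ^ e = (Fintype.piFinset fun _ : Fin e => A).card := by
    simp [Fintype.card_piFinset]
  rw [cl, sum_ind, ← Nat.cast_pow, this, Nat.cast_le]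
  refine card_le_card_of_injOn (fun D p i => if p ∈ D i then 1 else 0) (fun D hD => ?_)
    fun D _ D' _ h => ?_
  · simp only [A, coe_filter, Set.mem_ofPred_eq, mem_coe, Fintype.mem_piFinset, mem_filter,
      mem_powerset, mem_Col] at hD ⊢
    have cls : ∀ E : Finset (ι → Bool), (∀ p ∈ E, fl a p ∈ E) → ∀ p, fl a p ∈ E ↔ p ∈ E :=
      fun E hE p => ⟨fun h => by simpa using hE _ h, hE p⟩
    have h1 : (fun p i => if p ∈ D i then (1 : ZMod 2) else 0) ∘ fl a =
        fun p i => if p ∈ D i then (1 : ZMod 2) else 0 := by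
      ext p i; simp [cls _ (hD i).2.1]
    have h2 : (fun p i => if p ∈ (D i).image y then (1 : ZMod 2) else 0) ∘ fl a =
        fun p i => if p ∈ (D i).image y then (1 : ZMod 2) else 0 := by
      ext p i; simp only [Function.comp_apply, cls _ (hD i).2.2]
    have h3 : (fun p i => if p ∈ D i then (1 : ZMod 2) else 0) ∘ g.symm =
        fun p i => if p ∈ (D i).image y then (1 : ZMod 2) else 0 := by
      ext p : 1
      obtain ⟨p, rfl⟩ := g.surjective p
      rw [← comp_lay h2 s, Function.comp_apply, symm_apply_apply, ← comp_lay h1 s']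
      have : lay a s (g p) = y (lay a s' p) := by simp [hy]
      simp only [this, y.injective.mem_finset_image]
    refine ⟨fun p hp => funext fun i => if_neg fun h => hp ⟨(hD i).1 h, (hD i).1 ((hD i).2.1 p h)⟩,
      h1, ?_⟩
    rw [h3, h2]
  · ext i p
    have := congrFun (congrFun h p) i
    by_cases h1 : p ∈ D i <;> by_cases h2 : p ∈ D' i <;> simp_all

lemma av_cl {β : Type*} [Fintype β] [AddCommGroup β] {a : ι} {l : List ι} (hl : l.Nodup)
    (ha : a ∉ l) (γ : Perm (ι → Bool)) (hγ : ∀ p, γ p a = p a) (I : Finset (ι → Bool)) :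
    av (fun ω => cl β a I ((net l ω)⁻¹ * γ)) ≤
      (1 + (Fintype.card β - 1) * (3 / 4 : ℝ) ^ l.length) ^ I.card := by
  have hγ' : ∀ p, γ.symm p a = p a := fun p => by rw [← hγ (γ.symm p), apply_symm_apply]
  set s := (Col β I).filter fun φ => φ ∘ fl a = φ with hs
  have h1 : ∀ φ : (ι → Bool) → β, av (fun ω => ind ((φ ∘ ((net l ω)⁻¹ * γ).symm) ∘ fl a =
      φ ∘ ((net l ω)⁻¹ * γ).symm)) ≤ pr l.reverse (rs a (φ ∘ γ.symm))
        (rs a (φ ∘ γ.symm ∘ fl a)) := fun φ => by
    rw [av_St_mix fun _ q => q a, pr, ← av_St_fl a fun ω => av fun ω' =>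
      ind (rs a (φ ∘ γ.symm ∘ fl a) ∘ ben l.reverse ω ω' = rs a (φ ∘ γ.symm))]
    refine av_le_av fun ω => av_le_av fun ω' => ind_mono fun h => funext fun p => ?_
    obtain ⟨p, rfl⟩ := (net l ω').surjective p
    have e1 : ∀ τ, net l.reverse τ = (net l τ)⁻¹ := fun τ => (net_inv l τ).symm
    simp only [Function.comp_apply, rs_apply, ben, e1, inv_inv, Perm.mul_apply, Perm.coe_inv,
      symm_apply_apply, net_bit ha]
    split_ifs with hp
    · have := congrFun h p
      simp only [Function.comp_apply, ← Perm.inv_def, mul_inv_rev, inv_inv, Perm.mul_apply,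
        net_mix ha, fl_self, hp] at this
      simpa [net_fl ha] using this
    · rfl
  have T := fun J => Tc_le (β := β) (List.nodup_reverse.2 hl) J
  have fib : ∀ (g : Perm (ι → Bool)), (∀ p, ∃ q, q a = true ∧ (g q = p ∨ g q = fl a p)) →
      ∑ φ ∈ s, pr l.reverse (rs a (φ ∘ g)) (rs a (φ ∘ g)) ≤
        (1 + (Fintype.card β - 1) * (3 / 4 : ℝ) ^ l.length) ^ I.card := fun g hg => by
    have := fiber_sum s (Col β (I.image g.symm)) {0}
      ((rs a).comp (AddMonoidHom.mk' (fun φ => φ ∘ g) fun _ _ => rfl)) id Function.injective_id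
      (fun x hx y hy => by
        simp only [hs, mem_filter, mem_Col] at hx hy ⊢
        exact ⟨fun p hp => by simp [hx.1 p hp, hy.1 p hp], funext fun p => by
          simpa using congrArg₂ (· - ·) (congrFun hx.2 p) (congrFun hy.2 p)⟩)
      (fun x hx => mem_Col.2 fun p hp => by
        change (if p a then x (g p) else 0) = 0
        rw [mem_Col.1 (mem_filter.1 hx).1 _ fun h => hp (mem_image.2 ⟨_, h, by simp⟩), ite_self])
      (fun x hx h0 => mem_singleton.2 (funext fun p => by
        obtain ⟨q, hq, h⟩ := hg p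
        have h1 : x (g q) = 0 := by simpa [rs_apply, hq] using congrFun h0 q
        rcases h with h | h
        · exact h ▸ h1
        · exact (congrFun (mem_filter.1 hx).2 p).symm.trans (h ▸ h1 : x (fl a p) = 0)))
      (fun b => pr l.reverse b b) fun b => pr_nonneg _ b b
    have t := T (I.image g.symm)
    rw [card_image_of_injective _ g.symm.injective, List.length_reverse] at t
    rw [card_singleton, Nat.cast_one, one_mul] at this
    exact this.trans t
  have f1 := fib γ.symm fun p => by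
    cases hp : p a
    · exact ⟨γ (fl a p), by simp [hγ, hp], Or.inr (by simp)⟩
    · exact ⟨γ p, by simp [hγ, hp], Or.inl (by simp)⟩
  have f2 := fib (γ⁻¹ * fl a) fun p => by
    cases hp : p a
    · exact ⟨fl a (γ p), by simp [hγ, hp], Or.inl (by simp)⟩
    · exact ⟨fl a (γ (fl a p)), by simp [hγ, hp], Or.inr (by simp)⟩
  simp only [cl, ind_and, av_sum, av_mul_left]
  calc _ ≤ ∑ φ ∈ s, (pr l.reverse (rs a (φ ∘ ⇑(γ⁻¹ * fl a))) (rs a (φ ∘ ⇑(γ⁻¹ * fl a))) +
        pr l.reverse (rs a (φ ∘ γ.symm)) (rs a (φ ∘ γ.symm))) / 2 := by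
        rw [hs, sum_filter]
        refine sum_le_sum fun φ _ => ?_
        split_ifs with h
        · rw [ind_pos h, one_mul]; exact (h1 φ).trans (pr_le _ _ _)
        · rw [ind_neg h, zero_mul]
    _ ≤ _ := by rw [← sum_div, sum_add_distrib]; linarith

end Vale.Agent.P162
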