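import Mathlib

namespace Vale.Agent.P162

open Finset Equiv

/-- New position (numbered from `0`) of the card in position `x` of a deck of `2 * m` cards:
the cards in positions `i` and `m + i` go to positions `2 i` and `2 i + 1`, in this order if the
coin `c i` is `false` and in the opposite order if it is `true`. -/
def thorpFun (m : ℕ) (c : Fin m → Bool) (x : Fin (2 * m)) : Fin (2 * m) :=
  if h : x.1 < m then ⟨if c ⟨x.1, h⟩ then 2 * x.1 + 1 else 2 * x.1, by split_ifs <;> omega⟩
  else ⟨if c ⟨x.1 - m, by omega⟩ then 2 * (x.1 - m) else 2 * (x.1 - m) + 1, by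
    split_ifs <;> omega⟩

lemma thorpFun_injective (m : ℕ) (c : Fin m → Bool) : Function.Injective (thorpFun m c) := by
  intro x y h
  have h := congrArg Fin.val h
  unfold thorpFun at h
  ext
  by_cases hx : x.1 < m <;> by_cases hy : y.1 < m <;> simp only [hx, hy, dite_true, dite_false] at h
  · split_ifs at h <;> omega
  · have e : (⟨y.1 - m, by omega⟩ : Fin m) = ⟨x.1, hx⟩ := by ext; split_ifs at h <;> simp <;> omega
    rw [e] at h; split_ifs at h <;> omega
  · have e : (⟨x.1 - m, by omega⟩ : Fin m) = ⟨y.1, hy⟩ := by ext; split_ifs at h <;> simp <;> omega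
    rw [e] at h; split_ifs at h <;> omega
  · split_ifs at h <;> omega

/-- The permutation of positions made by one Thorp shuffle with coins `c`. -/
noncomputable def thorp (m : ℕ) (c : Fin m → Bool) : Perm (Fin (2 * m)) :=
  Equiv.ofBijective (thorpFun m c) (thorpFun_injective m c).bijective_of_finite

/-- The law `q_n` of one Thorp shuffle, `n = 2 m`. -/
noncomputable def law (m : ℕ) (g : Perm (Fin (2 * m))) : ℝ :=
  ((univ.filter fun c : Fin m → Bool => thorp m c = g).card : ℝ) / 2 ^ m

/-- The convolution powers `q_n^{*t}`. -/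
noncomputable def lawPow (m : ℕ) : ℕ → Perm (Fin (2 * m)) → ℝ
  | 0, g => if g = 1 then 1 else 0
  | t + 1, g => ∑ h, law m h * lawPow m t (h⁻¹ * g)

/-- Total variation distance of `q_n^{*t}` from the uniform law. -/
noncomputable def tvDist (m t : ℕ) : ℝ :=
  (1 / 2) * ∑ g, |lawPow m t g - 1 / ((2 * m).factorial : ℝ)|

/-- The mixing time of the Thorp shuffle of `2 m` cards. -/
noncomputable def tmix (m : ℕ) : ℕ := sInf {t | tvDist m t ≤ 1 / 4}

end Vale.Agent.P162
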