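import Vale.Agent.P162.Exp

namespace Vale.Agent.P162

open Finset Equiv RealInnerProductSpace NormedSpace

variable {E : Type*} [NormedAddCommGroup E] [InnerProductSpace ℝ E]
  {ι : Type*} [DecidableEq ι] [Fintype ι] (ρ : Perm (ι → Bool) →* (E →L[ℝ] E))

/-- Operators generated by the permutations supported in `T`. -/
def Gen (T : Finset (ι → Bool)) : Subalgebra ℝ (E →L[ℝ] E) :=
  Subalgebra.centralizer ℝ (Set.centralizer (ρ '' {g | ∀ p ∉ T, g p = p}))

/-- One averaged layer inside `T`. -/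
noncomputable def Pop (a : ι) (T : Finset (ι → Bool)) : E →L[ℝ] E :=
  av fun s : (ι → Bool) → Bool => ρ (lay a fun p => s p && decide (p ∈ T))

/-- The averaged network inside `T`. -/
noncomputable def Bl : List ι → Finset (ι → Bool) → E →L[ℝ] E
  | [], _ => 1
  | a :: l, T => Bl l T * Pop ρ a T

/-- The normalized Laplacian. -/
noncomputable def En (T : Finset (ι → Bool)) : E →L[ℝ] E := (2 * T.card : ℝ)⁻¹ • Cop ρ T

variable {ρ}

omit [DecidableEq ι] [Fintype ι] in
lemma Gen_rho {T : Finset (ι → Bool)} {g : Perm (ι → Bool)} (hg : ∀ p ∉ T, g p = p) :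
    ρ g ∈ Gen ρ T := fun _ hB => (hB _ ⟨g, hg, rfl⟩).symm

omit [DecidableEq ι] [Fintype ι] in
lemma Gen_comm {T : Finset (ι → Bool)} {A B : E →L[ℝ] E} (hA : A ∈ Gen ρ T)
    (hB : ∀ g, (∀ p ∉ T, g p = p) → Commute (ρ g) B) : Commute A B :=
  (hA B (by rintro _ ⟨g, hg, rfl⟩; exact hB g hg)).symm

omit [DecidableEq ι] [Fintype ι] in
lemma Gen_disj {T T' : Finset (ι → Bool)} (h : Disjoint T T') {A B : E →L[ℝ] E}
    (hA : A ∈ Gen ρ T) (hB : B ∈ Gen ρ T') : Commute A B :=
  Gen_comm hA fun g hg => (Gen_comm hB fun g' hg' => (Perm.Disjoint.commute fun p => by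
    by_cases e : p ∈ T
    · exact .inl (hg' p (disjoint_left.1 h e))
    · exact .inr (hg p e)).map ρ).symm

omit [DecidableEq ι] in
lemma Gen_En {T T' : Finset (ι → Bool)} (h : T' ⊆ T) {A : E →L[ℝ] E} (hA : A ∈ Gen ρ T') :
    Commute A (En ρ T) :=
  Gen_comm hA fun g hg => (Cop_comm fun x => by
    by_cases e : x ∈ T'
    · have : g x ∈ T' := by_contra fun hc => hc ((g.injective (hg _ hc)).symm ▸ e)
      simp [h e, h this]
    · rw [hg x e]).smul_right _

omit [DecidableEq ι] in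
lemma En_mem (T : Finset (ι → Bool)) : En ρ T ∈ Gen ρ T :=
  Subalgebra.smul_mem _ (sum_mem fun x hx => sum_mem fun y hy => sub_mem (one_mem _)
    (Gen_rho fun p hp => swap_apply_of_ne_of_ne (by rintro rfl; exact hp hx)
      (by rintro rfl; exact hp hy))) _

omit [Fintype ι] in
lemma rp_mem {a : ι} {T : Finset (ι → Bool)} (hT : ∀ p, fl a p ∈ T ↔ p ∈ T) (p : ι → Bool) :
    rp a p ∈ T ↔ p ∈ T := by
  rcases rp_eq_iff.1 (show rp a p = rp a (rp a p) by simp [rp]) with h | h <;> rw [h]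
  exact hT p

lemma Pop_mem {a : ι} {T : Finset (ι → Bool)} (hT : ∀ p, fl a p ∈ T ↔ p ∈ T) :
    Pop ρ a T ∈ Gen ρ T :=
  Subalgebra.smul_mem _ (sum_mem fun s _ => Gen_rho fun p hp => by
    simp [lay_apply, rp_mem hT, hp]) _

lemma Bl_mem {l : List ι} {T : Finset (ι → Bool)} (hT : ∀ a ∈ l, ∀ p, fl a p ∈ T ↔ p ∈ T) :
    Bl ρ l T ∈ Gen ρ T := by
  induction l with
  | nil => exact one_mem _
  | cons a l ih => exact mul_mem (ih fun b hb => hT b (by simp [hb])) (Pop_mem (hT a (by simp)))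

lemma av_mul_op {α : Type*} [Fintype α] (f : α → E →L[ℝ] E) (A : E →L[ℝ] E) :
    av f * A = av fun a => f a * A := av_map (LinearMap.mulRight ℝ A) f

lemma op_mul_av {α : Type*} [Fintype α] (f : α → E →L[ℝ] E) (A : E →L[ℝ] E) :
    A * av f = av fun a => A * f a := av_map (LinearMap.mulLeft ℝ A) f

lemma Bl_univ {l : List ι} (hl : l.Nodup) : Bl ρ l univ = av fun ω => ρ (net l ω) := by
  induction l with
  | nil => simp [Bl, net, av_const]
  | cons a l ih =>
    rw [List.nodup_cons] at hl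
    rw [av_net_cons hl.1 fun g => ρ g, Bl, ih hl.2, Pop, op_mul_av]
    simp [av_mul_op]

lemma Pop_split {T T0 T1 : Finset (ι → Bool)} (hd : Disjoint T0 T1)
    (hu : ∀ p, p ∈ T ↔ p ∈ T0 ∨ p ∈ T1) (a : ι) : Pop ρ a T = Pop ρ a T0 * Pop ρ a T1 := by
  rw [Pop, av_mix (· ∈ T1), Pop, Pop, av_mul_op]
  simp only [op_mul_av, ← map_mul, lay_mul]
  congr 1; ext1 s; congr 1; ext1 t; congr 2; ext p
  have := @disjoint_left.1 hd p
  by_cases h0 : p ∈ T0 <;> by_cases h1 : p ∈ T1 <;> simp_all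

lemma Bl_split {T T0 T1 : Finset (ι → Bool)} (hd : Disjoint T0 T1)
    (hu : ∀ p, p ∈ T ↔ p ∈ T0 ∨ p ∈ T1) {l : List ι} (h0 : ∀ a ∈ l, ∀ p, fl a p ∈ T0 ↔ p ∈ T0)
    (h1 : ∀ a ∈ l, ∀ p, fl a p ∈ T1 ↔ p ∈ T1) : Bl ρ l T = Bl ρ l T0 * Bl ρ l T1 := by
  induction l with
  | nil => simp [Bl]
  | cons a l ih =>
    have h1' := fun b hb => h1 b (List.mem_cons_of_mem a hb)
    rw [Bl, Bl, Bl, ih (fun b hb => h0 b (by simp [hb])) h1', Pop_split hd hu]
    exact ((Gen_disj hd (Pop_mem (h0 a (by simp))) (Bl_mem h1')).symm.mul_mul_mul_comm _ _)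

lemma rho_Pop (a : ι) (T : Finset (ι → Bool)) (t : (ι → Bool) → Bool) :
    ρ (lay a fun p => t p && decide (p ∈ T)) * Pop ρ a T = Pop ρ a T := by
  rw [Pop, op_mul_av, ← av_xor t fun s => ρ (lay a fun p => s p && decide (p ∈ T))]
  simp only [← map_mul, lay_mul]
  congr 1; ext1 s; congr 2; ext p
  by_cases h : p ∈ T <;> simp [h, Bool.xor_comm]

omit [DecidableEq ι] [Fintype ι] in
lemma Orth.op_norm (h : Orth ρ) (g : Perm (ι → Bool)) : ‖ρ g‖ ≤ 1 :=
  ContinuousLinearMap.opNorm_le_bound _ zero_le_one fun v => by rw [h.norm, one_mul]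

lemma Orth.Pop_le (h : Orth ρ) (a : ι) (T : Finset (ι → Bool)) (v : E) : ‖Pop ρ a T v‖ ≤ ‖v‖ :=
  (ContinuousLinearMap.le_of_opNorm_le _ ((norm_av_le _).trans
    (av_le_of_le fun _ => h.op_norm _)) v).trans (one_mul _).le

/-- The signed Laplacian. -/
noncomputable def Yop (T : Finset (ι → Bool)) (σ : (ι → Bool) → ℝ) : E →L[ℝ] E :=
  ∑ x ∈ T, ∑ y ∈ T, (σ x * σ y) • (1 - ρ (swap x y))

lemma Orth.Yop_av (h : Orth ρ) (T : Finset (ι → Bool)) {σ : (ι → Bool) → ℝ} (hσ : ∀ x, |σ x| = 1)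
    (r : (ι → Bool) → ι → Bool) (p : ℕ) : ∀ g : ((ι → Bool) → Bool) → ℝ,
    (∀ s t, g (fun p => xor (s p) (t p)) = g s * g t) →
    ‖av fun s => g s • Yop (ρ := ρ) T (fun x => σ x * sg (s (r x))) ^ p‖ ≤
      2 ^ p * av fun s => g s * (∑ x ∈ T, sg (s (r x))) ^ (2 * p) := by
  induction p with
  | zero =>
    intro g hg
    have := av_map (LinearMap.toSpanSingleton ℝ (E →L[ℝ] E) 1) g
    simp only [LinearMap.toSpanSingleton_apply] at this
    simp only [pow_zero, mul_zero, mul_one, one_mul, ← this, norm_smul,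
      Real.norm_of_nonneg (av_char hg)]
    exact mul_le_of_le_one_right (av_char hg) ContinuousLinearMap.norm_id_le
  | succ p ih =>
    intro g hg
    have e1 : ∀ s, g s • Yop (ρ := ρ) T (fun x => σ x * sg (s (r x))) ^ (p + 1) =
        ∑ x ∈ T, ∑ y ∈ T, (σ x * σ y) • ((1 - ρ (swap x y)) * ((g s * sg (s (r x)) * sg (s (r y))) •
          Yop (ρ := ρ) T (fun x => σ x * sg (s (r x))) ^ p)) := fun s => by
      rw [pow_succ']
      generalize Yop (ρ := ρ) T (fun x => σ x * sg (s (r x))) ^ p = Z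
      simp only [Yop, sum_mul, smul_sum, smul_mul_assoc, mul_smul_comm, smul_smul]
      exact sum_congr rfl fun x _ => sum_congr rfl fun y _ => by congr 1; ring
    have e2 : ∀ s, g s * (∑ x ∈ T, sg (s (r x))) ^ (2 * (p + 1)) = ∑ x ∈ T, ∑ y ∈ T,
        g s * sg (s (r x)) * sg (s (r y)) * (∑ x ∈ T, sg (s (r x))) ^ (2 * p) := fun s => by
      simp only [← sum_mul, ← mul_sum]; ring
    simp only [e1, e2, av_sum, av_smul, ← op_mul_av, mul_sum]
    refine norm_sum_le_of_le _ fun x _ => norm_sum_le_of_le _ fun y _ => ?_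
    rw [norm_smul, Real.norm_eq_abs, abs_mul, hσ, hσ, one_mul, one_mul, pow_succ', mul_assoc]
    refine (norm_mul_le _ _).trans (mul_le_mul ?_ (ih _ fun s t => ?_) (norm_nonneg _) zero_le_two)
    · refine (norm_sub_le _ _).trans ?_
      have : ‖(1 : E →L[ℝ] E)‖ ≤ 1 := ContinuousLinearMap.norm_id_le
      linarith [h.op_norm (swap x y)]
    · simp only [hg, sg_xor]; ring

omit [DecidableEq ι] in
lemma Yop_conj {T : Finset (ι → Bool)} {g : Perm (ι → Bool)} (hg : ∀ x, g x ∈ T ↔ x ∈ T)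
    {σ σ' : (ι → Bool) → ℝ} (hσ : ∀ x ∈ T, σ (g x) = σ' x) :
    SemiconjBy (ρ g) (Yop (ρ := ρ) T σ') (Yop (ρ := ρ) T σ) := by
  have : ρ g * Yop (ρ := ρ) T σ' * ρ g⁻¹ = Yop (ρ := ρ) T σ := by
    simp only [Yop, mul_sum, sum_mul, mul_sub, sub_mul, mul_one, ← map_mul, mul_inv_cancel,
      map_one, ← swap_apply_apply, mul_smul_comm, smul_mul_assoc]
    refine sum_equiv g (fun x => (hg x).symm) fun x hx => sum_equiv g (fun x => (hg x).symm)
      fun y hy => by rw [hσ x hx, hσ y hy]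
  rw [SemiconjBy, ← this, mul_assoc, ← map_mul, inv_mul_cancel, map_one, mul_one]

lemma Orth.Yop_pow (h : Orth ρ) {a : ι} {T : Finset (ι → Bool)} (hT : ∀ p, fl a p ∈ T ↔ p ∈ T)
    (T0 : 0 < T.card) {u : E} (hu : ∀ s : (ι → Bool) → Bool,
      ρ (lay a fun p => s p && decide (p ∈ T)) u = u) (p : ℕ) :
    |⟪u, (((2 * T.card : ℝ)⁻¹ • Yop (ρ := ρ) T fun x => sg (x a)) ^ p) u⟫| ≤
      2 * 6 ^ p * p.factorial * ‖u‖ ^ 2 := by
  have N0 : (0 : ℝ) < T.card := by exact_mod_cast T0
  have e : ∀ s : (ι → Bool) → Bool, ⟪u, (Yop (ρ := ρ) T (fun x => sg (x a)) ^ p) u⟫ =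
      ⟪u, (Yop (ρ := ρ) T (fun x => sg (x a) * sg (s (rp a x))) ^ p) u⟫ := fun s => by
    have := congrArg (· u) ((Yop_conj (ρ := ρ) (T := T) (g := lay a fun p => s p && decide (p ∈ T))
      (σ := fun x => sg (x a)) (σ' := fun x => sg (x a) * sg (s (rp a x)))
      (fun x => by rw [lay_apply]; split_ifs <;> simp [hT])
      fun x hx => by simp [lay_self, rp_mem hT, hx, sg_xor, mul_comm]).pow_right p).eq
    simp only [mul_apply_eq_comp, hu] at this
    rw [← this, real_inner_comm, h.adj, lay_inv, hu, real_inner_comm]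
  have b := h.Yop_av T (σ := fun x => sg (x a)) (fun x => abs_sg _) (rp a) p (fun _ => 1) (by simp)
  simp only [one_smul, one_mul] at b
  have m := sg_moment (fun r => ((T.filter fun x => rp a x = r).card : ℝ)) N0 (by
    rw [card_eq_sum_card_fiberwise (s := T) (t := univ) (f := rp a) fun _ _ => mem_univ _]
    push_cast
    rw [mul_sum]
    refine sum_le_sum fun r _ => ?_
    rw [sq]
    refine mul_le_mul_of_nonneg_right ?_ (by positivity)
    exact_mod_cast (card_le_card (t := {r, fl a r}) fun x hx => by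
      have := (mem_filter.1 hx).2
      simpa using (rp_eq_iff (a := a) (p := r) (q := x)).1 (by rw [← this]; simp [rp])).trans
      card_le_two) p
  have e2 : ∀ s : (ι → Bool) → Bool, ∑ r, ((T.filter fun x => rp a x = r).card : ℝ) * sg (s r) =
      ∑ x ∈ T, sg (s (rp a x)) := fun s => by
    rw [← sum_fiberwise T (rp a)]
    exact sum_congr rfl fun r _ => by
      rw [sum_congr rfl fun x hx => by rw [(mem_filter.1 hx).2], sum_const, nsmul_eq_mul]
  simp only [e2] at m
  have f := av_map ((innerSL ℝ u).comp (ContinuousLinearMap.apply ℝ E u)).toLinearMap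
    fun s : (ι → Bool) → Bool => Yop (ρ := ρ) T (fun x => sg (x a) * sg (s (rp a x))) ^ p
  simp only [ContinuousLinearMap.coe_coe, ContinuousLinearMap.comp_apply,
    ContinuousLinearMap.apply_apply, innerSL_apply_apply, ← e, av_const] at f
  rw [smul_pow, _root_.smul_apply, inner_smul_right, abs_mul, ← f,
    abs_of_nonneg (by positivity)]
  refine (mul_le_mul_of_nonneg_left ((abs_real_inner_le_norm _ _).trans (mul_le_mul_of_nonneg_left
    (ContinuousLinearMap.le_of_opNorm_le _ (b.trans (mul_le_mul_of_nonneg_left m (by positivity)))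
      u) (norm_nonneg _))) (by positivity)).trans (le_of_eq ?_)
  rw [inv_pow, mul_pow]; field_simp

lemma Orth.Yop_one (h : Orth ρ) {a : ι} {T : Finset (ι → Bool)} (hT : ∀ p, fl a p ∈ T ↔ p ∈ T)
    {u : E} (hu : ∀ s : (ι → Bool) → Bool, ρ (lay a fun p => s p && decide (p ∈ T)) u = u) :
    ⟪u, Yop (ρ := ρ) T (fun x => sg (x a)) u⟫ = 0 := by
  have sw : ∀ x ∈ T, ρ (swap x (fl a x)) u = u := fun x hx => by
    refine (congrArg (fun g => ρ g u) (Equiv.ext fun p => ?_)).trans
      (hu fun p => decide (p = rp a x))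
    rw [lay_apply, swap_apply_def]
    simp only [Bool.and_eq_true, decide_eq_true_eq, rp_mem hT, eq_comm (b := rp a x), rp_eq_iff]
    by_cases h1 : p = x
    · simp [h1, hx]
    by_cases h2 : p = fl a x <;> simp [h1, h2, hT, hx]
  have c : ∀ x ∈ T, ∀ y, ⟪u, (1 - ρ (swap (fl a x) y)) u⟫ = ⟪u, (1 - ρ (swap x y)) u⟫ := by
    intro x hx y
    simp only [_root_.sub_apply, one_apply_eq_self, inner_sub_right]
    by_cases h1 : y = x
    · simp [h1, swap_comm (fl a x), sw x hx, ← Perm.one_def]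
    by_cases h2 : y = fl a x
    · simp [h2, sw x hx, ← Perm.one_def]
    have := swap_apply_apply (swap x (fl a x)) x y
    rw [swap_apply_left, swap_apply_of_ne_of_ne h1 h2] at this
    rw [this, ← rho_mul, ← rho_mul, swap_inv, sw x hx, real_inner_comm (ρ (swap x (fl a x)) _), h.adj,
      swap_inv, sw x hx, real_inner_comm u (ρ _ u)]
  simp only [Yop, _root_.sum_apply, _root_.smul_apply, inner_sum, inner_smul_right]
  rw [sum_comm]
  refine sum_eq_zero fun y _ => ?_
  refine sum_involution (fun x _ => fl a x) (fun x hx => ?_) (fun x _ _ e => ?_)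
    (fun x hx => (hT x).2 hx) fun x _ => fl_fl a x
  · rw [c x hx, fl_self]; cases x a <;> cases y a <;> simp [sg]
  · simpa using congrFun e a

omit [DecidableEq ι] in
lemma En_add {a : ι} {T : Finset (ι → Bool)} {m : ℕ} (h0 : (T.filter (· a = false)).card = m)
    (h1 : (T.filter (· a = true)).card = m) (hT : T.card = 2 * m) :
    En ρ (T.filter (· a = false)) + En ρ (T.filter (· a = true)) =
      En ρ T + (2 * T.card : ℝ)⁻¹ • Yop (ρ := ρ) T fun x => sg (x a) := by
  have : Cop ρ T + Yop (ρ := ρ) T (fun x => sg (x a)) =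
      (2 : ℝ) • (Cop ρ (T.filter (· a = false)) + Cop ρ (T.filter (· a = true))) := by
    simp only [Cop, Yop, sum_filter, ← sum_add_distrib, smul_sum]
    refine sum_congr rfl fun x _ => ?_
    cases x a <;> simp only [reduceCtorEq, if_true, if_false, add_zero, zero_add, smul_sum] <;>
      refine sum_congr rfl fun y _ => ?_ <;> cases y a <;> simp [sg, two_smul]
  simp only [En, h0, h1, ← smul_add, this, hT, smul_smul]
  congr 1; push_cast; ring

theorem Orth.en_exp [CompleteSpace E] (h : Orth ρ) {s : ℝ} (s0 : 0 ≤ s) (hs : 24 * s ≤ 1)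
    {l : List ι} (hl : l.Nodup) : ∀ T : Finset (ι → Bool), (∀ a ∈ l, ∀ p, fl a p ∈ T ↔ p ∈ T) →
    T.card = 2 ^ l.length → ∀ v, (1 + 576 * s ^ 2) * ‖Bl ρ l T v‖ ^ 2 ≤
      (1 + 576 * s ^ 2) ^ 2 ^ l.length * ‖exp (-s • En ρ T) v‖ ^ 2 := by
  induction l with
  | nil =>
    intro T _ hc v
    obtain ⟨x, rfl⟩ := card_eq_one.1 hc
    simp [Bl, En, Cop, ← Perm.one_def]
  | cons a l ih =>
    intro T hT hc v
    rw [List.nodup_cons] at hl
    have ha := hT a (by simp)
    have cl : ∀ c : Bool, ∀ b ∈ l, ∀ p, fl b p ∈ T.filter (· a = c) ↔ p ∈ T.filter (· a = c) :=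
      fun c b hb p => by
        rw [mem_filter, mem_filter, hT b (by simp [hb]), fl_ne (by rintro rfl; exact hl.1 hb)]
    set T0 := T.filter (· a = false) with e0
    set T1 := T.filter (· a = true) with e1
    have hd : Disjoint T0 T1 := disjoint_filter.2 fun x _ h1 h2 => by simp [h1] at h2
    have hu : ∀ p, p ∈ T ↔ p ∈ T0 ∨ p ∈ T1 := fun p => by
      simp only [e0, e1, mem_filter]; cases p a <;> simp
    have c01 : T0.card = T1.card := card_equiv (fl a) fun p => by simp [e0, e1, ha]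
    have cs : T0.card + T1.card = T.card := by
      rw [← card_union_of_disjoint hd]; congr 1; ext p; rw [mem_union, hu]
    rw [List.length_cons, pow_succ] at hc
    have i0 := ih hl.2 T0 (cl _) (by omega)
    have i1 := ih hl.2 T1 (cl _) (by omega)
    have ea := En_add (ρ := ρ) (a := a) (T := T) (m := 2 ^ l.length) (by rw [← e0]; omega)
      (by rw [← e1]; omega) (by omega)
    rw [← e0, ← e1] at ea
    set X := (2 * T.card : ℝ)⁻¹ • Yop (ρ := ρ) T fun x => sg (x a) with hX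
    have eX : X = En ρ T0 + En ρ T1 - En ρ T := by rw [ea, add_sub_cancel_left]
    have sE : ∀ T v w, ⟪En ρ T v, w⟫ = ⟪v, En ρ T w⟫ := fun T v w => by
      simp only [En, _root_.smul_apply, real_inner_smul_left, inner_smul_right,
        h.Cop_symm]
    have cX : Commute X (En ρ T) := by
      rw [eX]
      exact ((Gen_En (filter_subset _ _) (En_mem _)).add_left
        (Gen_En (filter_subset _ _) (En_mem _))).sub_left (Commute.refl _)
    set u := Pop ρ a T (exp (-s • En ρ T) v) with hu'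
    have iu : ∀ t : (ι → Bool) → Bool, ρ (lay a fun p => t p && decide (p ∈ T)) u = u :=
      fun t => congrArg (· (exp (-s • En ρ T) v)) (rho_Pop a T t)
    have k1 : exp (-s • En ρ T0) * Bl ρ l T1 = Bl ρ l T1 * exp (-s • En ρ T0) :=
      ((Gen_disj hd (En_mem _) (Bl_mem (cl _))).smul_left _).exp_left
    have k2 : exp (-s • En ρ T1) * exp (-s • En ρ T0) * Pop ρ a T =
        exp (-s • X) * Pop ρ a T * exp (-s • En ρ T) := by
      rw [← exp_add' (((Gen_disj hd.symm (En_mem _) (En_mem _)).smul_left _).smul_right _),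
        mul_assoc, ((Gen_En subset_rfl (Pop_mem ha)).smul_right _).exp_right.eq, ← mul_assoc,
        ← exp_add' ((cX.smul_left _).smul_right _), ← smul_add, ← smul_add, add_comm, ea, add_comm]
    have k3 : ‖exp (-s • X) u‖ ^ 2 ≤ (1 + 576 * s ^ 2) * ‖exp (-s • En ρ T) v‖ ^ 2 := by
      rw [exp_sq fun v w => by
        simp only [eX, _root_.smul_apply, real_inner_smul_left, inner_smul_right,
          _root_.sub_apply, _root_.add_apply, inner_sub_left, inner_sub_right, inner_add_left,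
          inner_add_right, sE], smul_smul, mul_neg]
      refine (exp_inner_le (by positivity) (by linarith) ?_
        (h.Yop_pow ha (by rw [hc]; positivity) iu)).trans ?_
      · rw [_root_.smul_apply, inner_smul_right, h.Yop_one ha iu, mul_zero]
      · rw [show 144 * (2 * s) ^ 2 = 576 * s ^ 2 by ring]
        gcongr; exact h.Pop_le _ _ _
    have j0 := i0 (Bl ρ l T1 (Pop ρ a T v))
    have j1 := i1 (exp (-s • En ρ T0) (Pop ρ a T v))
    rw [show exp (-s • En ρ T0) (Bl ρ l T1 (Pop ρ a T v)) = _ from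
      congrArg (· (Pop ρ a T v)) k1] at j0
    rw [show exp (-s • En ρ T1) (exp (-s • En ρ T0) (Pop ρ a T v)) = exp (-s • X) u from
      congrArg (· v) k2] at j1
    rw [Bl, Bl_split hd hu (cl _) (cl _), List.length_cons, pow_succ 2, pow_mul, sq (_ ^ _)]
    have L0 : 0 < 1 + 576 * s ^ 2 := by positivity
    generalize 1 + 576 * s ^ 2 = L at *
    refine le_of_mul_le_mul_left ?_ L0
    calc _ ≤ L * _ := mul_le_mul_of_nonneg_left j0 L0.le
      _ = L ^ 2 ^ l.length * (L * _) := mul_left_comm _ _ _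
      _ ≤ L ^ 2 ^ l.length * (L ^ 2 ^ l.length * (L * ‖exp (-s • En ρ T) v‖ ^ 2)) := by
        exact mul_le_mul_of_nonneg_left (j1.trans (by gcongr)) (by positivity)
      _ = _ := by ring

end Vale.Agent.P162
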