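import Mathlib

namespace Vale.Agent.P162

open Finset Equiv RealInnerProductSpace

variable {E : Type*} [NormedAddCommGroup E] [InnerProductSpace ℝ E]

lemma spec_le [FiniteDimensional ℝ E] {A : E →L[ℝ] E} (hA : ∀ v w, ⟪A v, w⟫ = ⟪v, A w⟫)
    {W : Submodule ℝ E} (hW : ∀ v ∈ W, A v ∈ W) (T : E →L[ℝ] E) {μ : ℝ}
    (h : ∀ (c : ℝ), ∀ v ∈ W, v ≠ 0 → A v = c • v → ∃ t ≤ μ, T v = t • v) :
    ∀ v ∈ W, ⟪v, T v⟫ ≤ μ * ‖v‖ ^ 2 := by
  intro v hv
  have hs : (LinearMap.restrict (A : E →ₗ[ℝ] E) hW).IsSymmetric := fun x y => hA x y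
  set b := hs.eigenvectorBasis rfl
  have hb : ∀ i, ∃ t ≤ μ, T (b i) = t • (b i : E) := fun i =>
    h (hs.eigenvalues rfl i) _ (b i).2 (by simpa using b.orthonormal.ne_zero i)
      (congrArg Subtype.val (hs.apply_eigenvectorBasis rfl i))
  choose t ht hT using hb
  have e : v = ∑ i, ⟪(b i : E), v⟫ • (b i : E) := by
    simpa using (congrArg Subtype.val (b.sum_repr' ⟨v, hv⟩)).symm
  have n : ‖v‖ ^ 2 = ∑ i, ⟪(b i : E), v⟫ ^ 2 := by
    rw [← real_inner_self_eq_norm_sq]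
    conv_lhs => rw [e]; rw [sum_inner]
    simp only [← e, inner_smul_left, sq]; rfl
  rw [n, mul_sum]
  conv_lhs => rw [real_inner_comm, e, map_sum, sum_inner]
  refine sum_le_sum fun i _ => ?_
  simp only [← e, map_smul, hT, inner_smul_left, conj_trivial]
  nlinarith [mul_nonneg (sub_nonneg.2 (ht i)) (sq_nonneg ⟪(b i : E), v⟫)]

lemma spec_ge [FiniteDimensional ℝ E] {A : E →L[ℝ] E} (hA : ∀ v w, ⟪A v, w⟫ = ⟪v, A w⟫)
    {W : Submodule ℝ E} (hW : ∀ v ∈ W, A v ∈ W) {μ : ℝ}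
    (h : ∀ (c : ℝ), ∀ v ∈ W, v ≠ 0 → A v = c • v → μ ≤ c) :
    ∀ v ∈ W, μ * ‖v‖ ^ 2 ≤ ⟪v, A v⟫ := fun v hv => by
  have := spec_le hA hW (-A) (μ := -μ)
    (fun c v hv h0 e => ⟨-c, neg_le_neg (h c v hv h0 e), by simp [e]⟩) v hv
  simpa [inner_neg_right] using this

variable {P : Type*} [DecidableEq P] (ρ : Perm P →* (E →L[ℝ] E))

/-- An orthogonal representation. -/
def Orth : Prop := ∀ g v w, ⟪ρ g v, ρ g w⟫ = ⟪v, w⟫

/-- The transposition Laplacian of a set of points. -/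
noncomputable def Cop (T : Finset P) : E →L[ℝ] E := ∑ x ∈ T, ∑ y ∈ T, (1 - ρ (swap x y))

/-- Invariance under the transpositions of a set of points. -/
def Fx (T : Finset P) (v : E) : Prop := ∀ x ∈ T, ∀ y ∈ T, ρ (swap x y) v = v

variable {ρ}

omit [DecidableEq P] in
lemma rho_mul (g h : Perm P) (v : E) : ρ g (ρ h v) = ρ (g * h) v := by rw [map_mul]; rfl

omit [DecidableEq P] in
lemma Orth.adj (h : Orth ρ) (g : Perm P) (v w : E) : ⟪ρ g v, w⟫ = ⟪v, ρ g⁻¹ w⟫ := by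
  rw [← h g v, rho_mul]; simp

omit [DecidableEq P] in
lemma Orth.norm (h : Orth ρ) (g : Perm P) (v : E) : ‖ρ g v‖ = ‖v‖ := by
  rw [norm_eq_sqrt_real_inner, h, ← norm_eq_sqrt_real_inner]

lemma Orth.term (h : Orth ρ) (x y : P) (v : E) : 0 ≤ ⟪v, (1 - ρ (swap x y)) v⟫ := by
  have := real_inner_le_norm v (ρ (swap x y) v)
  rw [h.norm] at this
  simp only [_root_.sub_apply, one_apply_eq_self, inner_sub_right,
    real_inner_self_eq_norm_mul_norm]
  linarith

lemma Orth.Cop_symm (h : Orth ρ) (T : Finset P) (v w : E) : ⟪Cop ρ T v, w⟫ = ⟪v, Cop ρ T w⟫ := by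
  simp only [Cop, _root_.sum_apply, _root_.sub_apply, one_apply_eq_self, sum_inner, inner_sum,
    inner_sub_left, inner_sub_right, h.adj, swap_inv]

lemma Cop_comm {T : Finset P} {g : Perm P} (hg : ∀ x, g x ∈ T ↔ x ∈ T) :
    Commute (ρ g) (Cop ρ T) := by
  have : ρ g * Cop ρ T * ρ g⁻¹ = Cop ρ T := by
    simp only [Cop, mul_sum, sum_mul, mul_sub, sub_mul, mul_one, ← map_mul, mul_inv_cancel,
      map_one, ← swap_apply_apply]
    refine sum_equiv g (fun x => (hg x).symm) fun x _ => sum_equiv g (fun x => (hg x).symm)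
      fun y _ => rfl
  change _ = _
  conv_rhs => rw [← this, mul_assoc, ← map_mul, inv_mul_cancel, map_one, mul_one]

lemma swap_mem {T : Finset P} {x y : P} (hx : x ∈ T) (hy : y ∈ T) (z : P) :
    swap x y z ∈ T ↔ z ∈ T := by
  rw [swap_apply_def]; split_ifs with h1 h2 <;> simp [*]

lemma Fx.perm [Fintype P] {T : Finset P} {v : E} (h : Fx ρ T v) (g : Perm P)
    (hg : ∀ p ∉ T, g p = p) : ρ g v = v := by
  induction hn : g.support.card using Nat.strong_induction_on generalizing g with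
  | _ n ih =>
    by_cases h1 : g = 1
    · simp [h1]
    obtain ⟨x, hx⟩ : ∃ x, g x ≠ x := by
      by_contra hc; push Not at hc; exact h1 (Equiv.ext hc)
    have x1 : x ∈ T := by by_contra hc; exact hx (hg x hc)
    have x2 : g x ∈ T := by by_contra hc; exact hx (g.injective (hg _ hc))
    have := ih _ (hn ▸ Perm.card_support_swap_mul hx) (swap x (g x) * g) (fun p hp => by
      rw [Perm.mul_apply, hg p hp, swap_apply_of_ne_of_ne] <;> rintro rfl <;> contradiction) rfl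
    have e := congrArg (ρ (swap x (g x))) this
    rwa [rho_mul, swap_mul_self_mul, h x x1 _ x2] at e

lemma Fx.star [Fintype P] {T : Finset P} {v : E} (h : Fx ρ T v) (a : P) :
    Fx ρ (insert a T) (∑ y ∈ insert a T, ρ (swap a y) v) := fun x hx z hz => by
  rw [map_sum]
  refine sum_equiv (swap x z) (fun y => (swap_mem hx hz y).symm) fun y hy => ?_
  have := h.perm (swap a (swap x z y) * swap x z * swap a y) fun p hp => by
    by_cases e : p = a
    · simp [e]
    have hp' : p ∉ insert a T := by simp [e, hp]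
    have n : ∀ q ∈ insert a T, p ≠ q := fun q hq e => hp' (e ▸ hq)
    simp only [Perm.mul_apply]
    rw [swap_apply_of_ne_of_ne e (n _ hy), swap_apply_of_ne_of_ne (n _ hx) (n _ hz),
      swap_apply_of_ne_of_ne e (n _ ((swap_mem hx hz y).2 hy))]
  conv_rhs => rw [← this]
  rw [rho_mul, rho_mul, mul_assoc, swap_mul_self_mul]

theorem en_low [Fintype P] [FiniteDimensional ℝ E] (h : Orth ρ) (T : Finset P)
    (W : Submodule ℝ E) (hW : ∀ x ∈ T, ∀ y ∈ T, ∀ v ∈ W, ρ (swap x y) v ∈ W) (k : ℕ)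
    (hk : ∀ T' ⊆ T, k < T'.card → ∀ v ∈ W, Fx ρ T' v → v = 0) : ∀ v ∈ W,
    min ((T.card - k : ℝ) * T.card / 2) (T.card * (T.card - 1) / 8) * ‖v‖ ^ 2 ≤ ⟪v, Cop ρ T v⟫ := by
  classical
  induction hn : T.card using Nat.strong_induction_on generalizing T W k with
  | _ N ih =>
  refine spec_ge (h.Cop_symm T) (fun v hv => ?_) fun c v0 hv0 h0 e0 => ?_
  · simp only [Cop, _root_.sum_apply]
    exact W.sum_mem fun x hx => W.sum_mem fun y hy => W.sub_mem hv (hW x hx y hy v hv)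
  set Wc := W ⊓ Module.End.eigenspace (Cop ρ T : E →ₗ[ℝ] E) c with hWc
  have mem : ∀ v, v ∈ Wc ↔ v ∈ W ∧ Cop ρ T v = c • v := fun v => by
    simp [hWc]
  have inv : ∀ x ∈ T, ∀ y ∈ T, ∀ v ∈ Wc, ρ (swap x y) v ∈ Wc := fun x hx y hy v hv => by
    rw [mem] at hv ⊢
    refine ⟨hW x hx y hy v hv.1, ?_⟩
    rw [← map_smul, ← hv.2]
    exact (congrArg (· v) (Cop_comm (ρ := ρ) (swap_mem hx hy)).eq).symm
  obtain ⟨T', hT', hmax⟩ := exists_max_image
    (T.powerset.filter fun T' => ∃ v ∈ Wc, v ≠ 0 ∧ Fx ρ T' v) card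
    ⟨∅, mem_filter.2 ⟨by simp, v0, (mem _).2 ⟨hv0, e0⟩, h0, by simp [Fx]⟩⟩
  simp only [mem_filter, mem_powerset] at hT' hmax
  obtain ⟨sub, v, hv, hv0, hfx⟩ := hT'
  have hz : ∀ T'' ⊆ T, T'.card < T''.card → ∀ v ∈ Wc, Fx ρ T'' v → v = 0 :=
    fun T'' h1 h2 v h3 h4 => by_contra fun hne => h2.not_ge (hmax _ ⟨h1, v, h3, hne, h4⟩)
  have kk : (T'.card : ℝ) ≤ k := by
    exact_mod_cast le_of_not_gt fun hh => hv0 (hk _ sub hh v ((mem v).1 hv).1 hfx)
  have kN : (T'.card : ℝ) ≤ N := by exact_mod_cast hn ▸ card_le_card sub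
  have vp : 0 < ‖v‖ ^ 2 := by positivity
  have ec : ⟪v, Cop ρ T v⟫ = c * ‖v‖ ^ 2 := by
    rw [((mem v).1 hv).2, inner_smul_right, real_inner_self_eq_norm_sq]
  have s1 : (N - T'.card : ℝ) * (T'.card + 1) ≤ c := by
    refine le_of_mul_le_mul_right ?_ vp
    have : ∀ a ∈ T \ T', (T'.card + 1) * ‖v‖ ^ 2 ≤ ∑ y ∈ T, ⟪v, (1 - ρ (swap a y)) v⟫ := by
      intro a ha
      rw [mem_sdiff] at ha
      have i1 : insert a T' ⊆ T := insert_subset ha.1 sub
      have := hz _ i1 (by simp [ha.2]) _ (Wc.sum_mem fun y hy => inv a ha.1 y (i1 hy) v hv)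
        (hfx.star a)
      refine le_trans (le_of_eq ?_)
        (sum_le_sum_of_subset_of_nonneg i1 fun y _ _ => h.term a y v)
      simp only [_root_.sub_apply, one_apply_eq_self, ← inner_sum,
        sum_sub_distrib, this, sum_const, card_insert_of_notMem ha.2, sub_zero,
        ← Nat.cast_smul_eq_nsmul ℝ, inner_smul_right, real_inner_self_eq_norm_sq]
      push_cast; rfl
    have := card_nsmul_le_sum _ _ _ this
    rw [card_sdiff_of_subset sub, nsmul_eq_mul, Nat.cast_sub (card_le_card sub), hn] at this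
    rw [← ec, mul_assoc]
    refine this.trans ?_
    simp only [Cop, _root_.sum_apply, inner_sum]
    exact sum_le_sum_of_subset_of_nonneg sdiff_subset fun x _ _ =>
      sum_nonneg fun y _ => h.term x y v
  have k0 : (0 : ℝ) ≤ T'.card := by positivity
  by_cases c1 : (N : ℝ) ≤ 2 * (T'.card + 1)
  · exact (min_le_left _ _).trans (by nlinarith)
  by_cases c2 : (N : ℝ) ≤ 4 * (T'.card + 1)
  · exact (min_le_right _ _).trans (by nlinarith)
  refine (min_le_right _ _).trans (le_of_mul_le_mul_right ?_ vp)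
  have N1 : 1 ≤ N := by exact_mod_cast (by linarith : (1 : ℝ) ≤ N)
  have s2 : ∀ x ∈ T, (N - 1 : ℝ) * (N - 2) / 8 * ‖v‖ ^ 2 ≤ ⟪v, Cop ρ (T.erase x) v⟫ := by
    intro x hx
    have := ih (N - 1) (by omega) (T.erase x) Wc (fun a ha b hb =>
      inv a (mem_of_mem_erase ha) b (mem_of_mem_erase hb)) T'.card
      (fun T'' h1 => hz _ (h1.trans (erase_subset _ _))) (by rw [card_erase_of_mem hx, hn]) v hv
    rw [Nat.cast_sub N1, Nat.cast_one, min_eq_right (by nlinarith)] at this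
    rwa [show (N - 2 : ℝ) = N - 1 - 1 by ring]
  have s3 : ∑ x ∈ T, ⟪v, Cop ρ (T.erase x) v⟫ = (N - 2) * ⟪v, Cop ρ T v⟫ := by
    simp only [Cop, _root_.sum_apply, inner_sum, mul_sum]
    rw [sum_comm' (t' := T) (s' := fun y => T.erase y) fun x y => by
      simp only [mem_erase]; tauto]
    refine sum_congr rfl fun y hy => ?_
    rw [sum_comm' (t' := T) (s' := fun z => (T.erase y).erase z) fun x y => by
      simp only [mem_erase]; tauto]
    refine sum_congr rfl fun z hz => ?_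
    by_cases e : z = y
    · simp [e, ← Perm.one_def]
    · rw [sum_const, card_erase_of_mem (mem_erase.2 ⟨e, hz⟩), card_erase_of_mem hy, hn,
        nsmul_eq_mul, Nat.sub_sub, Nat.cast_sub (by exact_mod_cast (by linarith : (2 : ℝ) ≤ N))]
      norm_num
  have := card_nsmul_le_sum _ _ _ s2
  rw [s3, ec, hn, nsmul_eq_mul] at this
  refine le_of_mul_le_mul_left ?_ (show (0 : ℝ) < N - 2 by linarith)
  linarith

end Vale.Agent.P162
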