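import Vale.Agent.P162.Level
import Vale.Agent.P162.Cyc

namespace Vale.Agent.P162

open Finset Equiv RealInnerProductSpace NormedSpace

lemma av_char {κ : Type*} [Fintype κ] [DecidableEq κ] {g : (κ → Bool) → ℝ}
    (hg : ∀ s t, g (fun p => xor (s p) (t p)) = g s * g t) : 0 ≤ av g := by
  have : av g = av g * av g := by
    conv_lhs => rw [← av_const (α := κ → Bool) (av g)]
    rw [← av_mul_left]
    congr 1; ext t
    rw [← av_mul_right, ← av_xor t g]; simp only [hg]
  rw [this]; exact mul_self_nonneg _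

lemma sg_moment {κ : Type*} [Fintype κ] [DecidableEq κ] (c : κ → ℝ) {N : ℝ} (hN : 0 < N)
    (hc : ∑ r, c r ^ 2 ≤ 2 * N) (p : ℕ) :
    av (fun s : κ → Bool => (∑ r, c r * sg (s r)) ^ (2 * p)) ≤ 2 * 6 ^ p * p.factorial * N ^ p := by
  have mg : ∀ y : ℝ, av (fun s : κ → Bool => Real.exp (y * ∑ r, c r * sg (s r))) ≤
      Real.exp (y ^ 2 * N) := fun y => by
    simp only [mul_sum, Real.exp_sum]
    rw [av_pi fun r b => Real.exp (y * (c r * sg b))]
    refine (prod_le_prod (fun r _ => av_nonneg fun _ => (Real.exp_pos _).le) fun r _ =>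
      (le_of_eq ?_).trans (Real.cosh_le_exp_half_sq (y * c r))).trans ?_
    · simp [av, sg, Real.cosh_eq]; ring
    · rw [← Real.exp_sum, Real.exp_le_exp, ← sum_div]
      simp only [mul_pow, ← mul_sum]
      nlinarith [sq_nonneg y]
  rcases p.eq_zero_or_pos with rfl | hp
  · simp [av_const]
  have p0 : (0 : ℝ) < p := by exact_mod_cast hp
  obtain ⟨y, y0, hy⟩ : ∃ y : ℝ, 0 < y ∧ y ^ 2 = p / N :=
    ⟨√(p / N), by positivity, Real.sq_sqrt (by positivity)⟩
  have h1 : ∀ x : ℝ, x ^ (2 * p) ≤ (2 * p).factorial * (N / p) ^ p *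
      (Real.exp (y * x) + Real.exp (-y * x)) := fun x => by
    have a := Real.pow_div_factorial_le_exp _ (abs_nonneg (y * x)) (2 * p)
    have b : Real.exp |y * x| ≤ Real.exp (y * x) + Real.exp (-y * x) := by
      rcases abs_cases (y * x) with h | h <;> rw [h.1] <;> simp [(Real.exp_pos _).le]
    rw [pow_mul, sq_abs, mul_pow, hy, div_le_iff₀ (by positivity)] at a
    calc _ = (N / p) ^ p * (p / N * x ^ 2) ^ p := by
          rw [← mul_pow, pow_mul]; congr 1; field_simp
      _ ≤ (N / p) ^ p * ((Real.exp (y * x) + Real.exp (-y * x)) * (2 * p).factorial) := by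
          gcongr; exact a.trans (by gcongr)
      _ = _ := by ring
  refine (av_le_av fun s => h1 _).trans ?_
  rw [av_mul_left, av_add]
  have e : Real.exp (p / N * N) ≤ 3 ^ p := by
    rw [div_mul_cancel₀ _ hN.ne', ← Real.exp_one_pow]
    exact pow_le_pow_left₀ (Real.exp_pos _).le (Real.exp_one_lt_d9.le.trans (by norm_num)) _
  have f : ((2 * p).factorial : ℝ) ≤ (2 * p) ^ p * p.factorial := by
    have := Nat.descFactorial_le_pow (2 * p) p
    rw [← Nat.factorial_mul_descFactorial (show p ≤ 2 * p by omega),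
      show 2 * p - p = p by omega, mul_comm]
    exact_mod_cast Nat.mul_le_mul_right _ this
  have m1 := mg y
  have m2 := mg (-y)
  rw [neg_sq, hy] at m2
  rw [hy] at m1
  calc _ ≤ (2 * p) ^ p * p.factorial * (N / p) ^ p * (3 ^ p + 3 ^ p) := by
        gcongr
        · exact add_nonneg (av_nonneg fun _ => (Real.exp_pos _).le)
            (av_nonneg fun _ => (Real.exp_pos _).le)
        · exact m1.trans e
        · exact m2.trans e
    _ = _ := by
      rw [div_pow, mul_pow, show (6 : ℝ) = 2 * 3 by norm_num, mul_pow]; field_simp; ring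

variable {E : Type*} [NormedAddCommGroup E] [InnerProductSpace ℝ E] [CompleteSpace E]

lemma exp_add' {A B : E →L[ℝ] E} (h : Commute A B) : exp (A + B) = exp A * exp B :=
  exp_add_of_commute_of_mem_ball (𝕂 := ℝ) h (by simp [expSeries_radius_eq_top])
    (by simp [expSeries_radius_eq_top])

lemma exp_sq {A : E →L[ℝ] E} (hA : ∀ v w, ⟪A v, w⟫ = ⟪v, A w⟫) (v : E) :
    ‖exp A v‖ ^ 2 = ⟪v, exp ((2 : ℝ) • A) v⟫ := by
  have : IsSelfAdjoint A := ContinuousLinearMap.isSelfAdjoint_iff_isSymmetric.2 hA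
  rw [two_smul, exp_add' (Commute.refl A), ← real_inner_self_eq_norm_sq]
  exact ContinuousLinearMap.isSelfAdjoint_iff_isSymmetric.1 this.exp v _

lemma exp_inner_le {X : E →L[ℝ] E} {u : E} {t : ℝ} (t0 : 0 ≤ t) (ht : 12 * t ≤ 1)
    (h1 : ⟪u, X u⟫ = 0) (h2 : ∀ p, |⟪u, (X ^ p) u⟫| ≤ 2 * 6 ^ p * p.factorial * ‖u‖ ^ 2) :
    ⟪u, exp (-t • X) u⟫ ≤ (1 + 144 * t ^ 2) * ‖u‖ ^ 2 := by
  have a := (exp_series_hasSum_exp' (𝕂 := ℝ) (-t • X)).mapL
    ((innerSL ℝ u).comp (ContinuousLinearMap.apply ℝ E u))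
  have b := ((hasSum_geometric_of_lt_one (r := 6 * t) (by positivity) (by linarith)).mul_left
    (2 * (6 * t) ^ 2 * ‖u‖ ^ 2))
  have c := hasSum_le (fun p => ?_) ((hasSum_nat_add_iff' 2).2 a) b
  · simp [sum_range_succ, inner_smul_right, h1] at c
    have : (1 - 6 * t)⁻¹ ≤ 2 := inv_le_of_inv_le₀ (by norm_num) (by linarith)
    have := mul_le_mul_of_nonneg_left this (show 0 ≤ 2 * (6 * t) ^ 2 * ‖u‖ ^ 2 by positivity)
    simp only [neg_smul]
    linarith
  · simp only [smul_pow, map_smul, smul_eq_mul, ContinuousLinearMap.comp_apply,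
      ContinuousLinearMap.apply_apply, innerSL_apply_apply]
    refine (le_abs_self _).trans ?_
    rw [abs_mul, abs_mul, abs_pow, abs_neg, abs_of_nonneg t0, abs_of_nonneg (by positivity)]
    refine (mul_le_mul_of_nonneg_left (mul_le_mul_of_nonneg_left (h2 _) (by positivity))
      (by positivity)).trans (le_of_eq ?_)
    field_simp; ring

lemma exp_eig {A : E →L[ℝ] E} {v : E} {c : ℝ} (h : A v = c • v) : exp A v = Real.exp c • v := by
  have a := (exp_series_hasSum_exp' (𝕂 := ℝ) A).mapL (ContinuousLinearMap.apply ℝ E v)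
  have b := (exp_series_hasSum_exp' (𝕂 := ℝ) c).smul_const v
  have e : ∀ p, (A ^ p) v = c ^ p • v := fun p => by
    induction p with
    | zero => simp
    | succ p ih => rw [pow_succ', pow_succ, mul_smul]; simp [ih, h]
  rw [Real.exp_eq_exp_ℝ]
  refine a.unique ?_
  simpa [e, mul_smul] using b

end Vale.Agent.P162
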