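import Vale.Agent.P162.HS

namespace Vale.Agent.P162

open Finset Equiv RealInnerProductSpace NormedSpace

lemma pow_bound {E : Type*} [NormedAddCommGroup E] [InnerProductSpace ℝ E] {Q : E →L[ℝ] E}
    {W : Submodule ℝ E} (hW : ∀ v ∈ W, Q v ∈ W) {μ : ℝ} (hμ : 0 ≤ μ)
    (h : ∀ v ∈ W, ‖Q v‖ ^ 2 ≤ μ * ‖v‖ ^ 2) (m : ℕ) :
    ∀ v ∈ W, ‖(Q ^ m) v‖ ^ 2 ≤ μ ^ m * ‖v‖ ^ 2 := by
  induction m with
  | zero => simp
  | succ m ih =>
    intro v hv
    rw [pow_succ Q, pow_succ μ, mul_assoc]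
    exact (ih _ (hW v hv)).trans (mul_le_mul_of_nonneg_left (h v hv) (by positivity))

lemma pow_le_choose_mul {a : ℕ} (ha : 0 < a) (j : ℕ) : a ^ j ≤ (j * a).choose j := by
  induction j with
  | zero => simp
  | succ j ih =>
    obtain ⟨b, rfl⟩ : ∃ b, a = b + 1 := ⟨a - 1, by omega⟩
    have := Nat.add_one_mul_choose_eq (j * (b + 1) + b) j
    rw [show j * (b + 1) + b + 1 = (j + 1) * (b + 1) by ring, mul_assoc, mul_comm] at this
    rw [← Nat.eq_of_mul_eq_mul_right (by omega) this, pow_succ']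
    exact Nat.mul_le_mul_left _ (ih.trans (Nat.choose_le_choose _ (by omega)))

lemma C0_pos : 0 < C0 := by unfold C0; positivity

variable {ι : Type*} [DecidableEq ι] [Fintype ι]

lemma dense {l : List ι} (hl : l.Nodup) (hc : Fintype.card (ι → Bool) = 2 ^ l.length)
    {k : ℕ} (hk : k < 2 ^ l.length) {δ : ℝ} (h0 : 0 ≤ δ) (h1 : δ ≤ 1)
    (h2 : δ * 2 ^ l.length ≤ (k + 1) / 4) (h3 : δ * 2 ^ l.length ≤ (2 ^ l.length - 1) / 16) :
    ∀ v ∈ (Vl rR k)ᗮ, ‖Bl rL l univ v‖ ^ 2 ≤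
      Real.exp (-(δ ^ 2 / 576 * 2 ^ l.length)) * ‖v‖ ^ 2 := by
  intro v hv
  have a := rL_orth.en_exp (s := δ / 576) (by positivity) (by linarith) hl univ (by simp)
    (by rw [card_univ, hc]) v
  have sE : ∀ v w, ⟪En (rL (P := ι → Bool)) univ v, w⟫ = ⟪v, En rL univ w⟫ := fun v w => by
    simp only [En, _root_.smul_apply, real_inner_smul_left, inner_smul_right, rL_orth.Cop_symm]
  rw [exp_sq fun v w => by
    simp only [_root_.smul_apply, real_inner_smul_left, inner_smul_right, sE]] at a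
  have b := spec_le sE (W := (Vl rR k)ᗮ) (fun v => rR_orth.orth_comm fun g =>
      (Gen_comm (En_mem _) fun _ _ => (rR_rL _ _).symm).symm)
    (exp ((2 : ℝ) • -(δ / 576) • En rL univ)) (μ := Real.exp (-(2 * (δ / 576) * (δ * 2 ^ l.length))))
    (fun c w hw w0 e => ⟨Real.exp (2 * (-(δ / 576) * c)), ?_, exp_eig (by
      simp only [_root_.smul_apply, e, smul_smul, mul_assoc])⟩) v hv
  · have c : (1 + 576 * (δ / 576) ^ 2) ^ 2 ^ l.length ≤
        Real.exp (δ ^ 2 / 576 * 2 ^ l.length) := by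
      rw [show δ ^ 2 / 576 * 2 ^ l.length = (2 ^ l.length : ℕ) * (δ ^ 2 / 576) by push_cast; ring,
        Real.exp_nat_mul]
      exact pow_le_pow_left₀ (by positivity) (by
        have := Real.add_one_le_exp (δ ^ 2 / 576); linarith) _
    refine le_trans (le_mul_of_one_le_left (by positivity) (by nlinarith)) (a.trans
      ((mul_le_mul_of_nonneg_left b (by positivity)).trans
      ((mul_le_mul_of_nonneg_right c (by positivity)).trans (le_of_eq ?_))))
    rw [← mul_assoc, ← Real.exp_add]; congr 2; ring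
  · have := en_low rR_orth univ (Vl rR k)ᗮ (fun x _ y _ v => rR_orth.orth_rho _)
      (2 ^ l.length - (k + 1)) (fun T _ hT v hv hf => inner_self_eq_zero.1 (hv v
        (Fs_le (S := Tᶜ) (by rw [card_compl, hc]; omega) (by rwa [← compl_compl T] at hf)))) w hw
    have n0 : (0 : ℝ) < 2 ^ l.length := by positivity
    have e2 : Cop rR univ w = (2 * 2 ^ l.length * c : ℝ) • w := by
      rw [mul_smul, ← e, En, Cop_eq, card_univ, hc, _root_.smul_apply, smul_smul]
      push_cast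
      rw [mul_inv_cancel₀ (by positivity), one_smul]
    rw [e2, inner_smul_right, real_inner_self_eq_norm_sq, card_univ, hc, Nat.cast_sub hk] at this
    push_cast at this
    have h4 := le_of_mul_le_mul_right this (by positivity)
    have h5 : δ * 2 ^ l.length ≤ c := by
      refine le_of_mul_le_mul_left (le_trans (le_min ?_ ?_) h4) (by positivity) <;> nlinarith
    rw [Real.exp_le_exp]; nlinarith

lemma sparse {l : List ι} (hl : l.Nodup) (hc : Fintype.card (ι → Bool) = 2 ^ l.length)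
    {i r : ℕ} (hr : 0 < r) (hi : (i + 1) * (2 ^ 130) ^ r ≤ 2 ^ l.length) {S : Finset (ι → Bool)}
    (hS : S.card = i + 1) : ∀ v ∈ Fs rR S ⊓ (Vl rR i)ᗮ, ‖(Bl rL l univ ^ 32) v‖ ^ 2 ≤
      (2 * Real.exp (62 * C0) / 2 ^ r) ^ (i + 1) * ‖v‖ ^ 2 := by
  intro v hv
  rw [← pow_mul] at hi
  have p1 : ∀ q ≤ 130 * r, (i + 1) * 2 ^ q ≤ 2 ^ l.length := fun q hq =>
    (Nat.mul_le_mul_left _ (Nat.pow_le_pow_right two_pos hq)).trans hi
  obtain ⟨T, -, hT⟩ := exists_subset_card_eq (s := (univ : Finset (ι → Bool))) (n := (i + 1) * 2 ^ r)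
    (by rw [card_univ, hc]; exact p1 _ (by omega))
  have p2 := p1 2 (by omega)
  have a := rR_orth.op_bound (EuclideanSpace.basisFun _ ℝ) (fun g => (Bl_comm l g).pow_right 32)
    (i := i) (by rw [hc]; omega) (T := T) (by
      rw [hc, hT, sq]
      exact_mod_cast Nat.mul_le_mul (by omega) (p1 r (by omega))) hS hv.1 hv.2
  have b := hs_bound hl hc T (η := 2 / 2 ^ r) (by positivity) fun q hq => by
    rcases le_total (128 * r) q with h | h
    · refine (mul_le_of_le_one_right (by positivity) (min_le_left _ _)).trans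
        ((pow_le_pow_of_le_one (by norm_num) (by norm_num) h).trans ?_)
      rw [pow_mul, le_div_iff₀ (by positivity), ← mul_pow]
      exact (pow_le_one₀ (by positivity) (by norm_num)).trans one_le_two
    · refine (mul_le_of_le_one_left (by positivity) (pow_le_one₀ (by norm_num)
        (by norm_num))).trans ((min_le_right _ _).trans ?_)
      rw [div_le_div_iff₀ (by positivity) (by positivity), hT]
      have := p1 (q + r + r) (by omega)
      rw [show l.length = q + (1 + (l.length - 1 - q)) by omega, pow_add 2 q (1 + _), add_assoc,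
        pow_add 2 q, mul_left_comm] at this
      have := Nat.le_of_mul_le_mul_left this (by positivity)
      rw [pow_add, pow_add, ← mul_assoc, pow_one] at this
      exact_mod_cast this
  simp only [EuclideanSpace.basisFun_apply] at a
  have c : ((2 ^ r) ^ (i + 1) : ℝ) ≤ T.card.choose (i + 1) := by
    rw [hT]; exact_mod_cast pow_le_choose_mul (by positivity) _
  rw [div_pow, div_mul_eq_mul_div, le_div_iff₀' (by positivity)]
  refine (mul_le_mul_of_nonneg_right c (by positivity)).trans (a.trans ?_)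
  rw [mul_pow, ← Real.exp_nat_mul]
  gcongr
  refine b.trans (le_of_eq ?_)
  rw [hT]; congr 1; push_cast; field_simp; ring

lemma proj_le {P : Type*} [Fintype P] [DecidableEq P] (S : Finset P)
    (w : EuclideanSpace ℝ (Perm P)) : ‖Uop rR S (w - Uop rR ∅ w)‖ ^ 2 ≤ ‖Uop rR S w‖ ^ 2 := by
  have m : Uop rR S (Uop rR ∅ w) = Uop rR ∅ w :=
    Uop_of_mem fun x _ y _ => Uop_mem ∅ w x (by simp) y (by simp)
  rw [map_sub, m, norm_sub_sq_real, rR_orth.Uop_symm, m, rR_orth.inner_Uop]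
  nlinarith

lemma Uop_univ {P : Type*} [Fintype P] [DecidableEq P] (w : EuclideanSpace ℝ (Perm P)) :
    Uop rR univ w = w := Uop_of_mem fun x hx => by simp at hx

lemma l1_bound {P : Type*} [Fintype P] [DecidableEq P]
    {D Q : EuclideanSpace ℝ (Perm P) →L[ℝ] EuclideanSpace ℝ (Perm P)}
    (cD : ∀ g, Commute (rR g) D) (cQ : ∀ g, Commute (rR g) Q)
    (hu : ∀ v : EuclideanSpace ℝ (Perm P), ∀ c, (∀ x, v x = c) → ∀ x, Q (D v) x = c)
    {μ H : ℕ → ℝ} (hμ : ∀ j, 0 ≤ μ j) {ν : ℝ} (hν : 0 ≤ ν) {k : ℕ}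
    (h1 : ∀ i < k, ∀ S : Finset P, S.card = i + 1 → ∀ v ∈ Fs rR S, v ∈ (Vl rR i)ᗮ →
      ‖Q v‖ ^ 2 ≤ μ (i + 1) * ‖v‖ ^ 2) (h2 : ∀ v ∈ (Vl rR k)ᗮ, ‖Q v‖ ^ 2 ≤ ν * ‖v‖ ^ 2)
    (hH : ∀ T : Finset P, ∑ y, ‖D (Uop rR T (EuclideanSpace.single y 1))‖ ^ 2 ≤ H T.card)
    (tot : ∑ j ∈ Ioc 0 k, μ j * ((Fintype.card P).choose j * H j) + ν * H (Fintype.card P) ≤ 1 / 4) :
    ∑ x, |Q (D (EuclideanSpace.single 1 1)) x - (Fintype.card (Perm P) : ℝ)⁻¹| ≤ 1 / 2 := by
  have cU : ∀ T v, Uop rR T (D v) = D (Uop rR T v) := fun T v => congrArg (· v) (Uop_comm cD T).eq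
  have one : ∀ T : Finset P, ∑ y, ‖Uop rR T (D (EuclideanSpace.single y 1) -
      Uop rR ∅ (D (EuclideanSpace.single y 1)))‖ ^ 2 ≤ H T.card := fun T =>
    (sum_le_sum fun y _ => (proj_le T _).trans (by rw [cU])).trans (hH T)
  have t : ∑ y, ‖Q (D (EuclideanSpace.single y 1) -
      Uop rR ∅ (D (EuclideanSpace.single y 1)))‖ ^ 2 ≤ 1 / 4 := by
    refine (sum_le_sum fun y _ => rR_orth.decomp cQ hμ hν h1 h2 k.zero_le _
      (rR_orth.mem_orth.2 fun S hS => ?_)).trans (le_trans ?_ tot)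
    · rw [card_eq_zero.1 (Nat.le_zero.1 hS), map_sub, Uop_of_mem (Uop_mem _ _), sub_self]
    rw [sum_add_distrib, sum_comm, ← mul_sum]
    refine add_le_add (sum_le_sum fun j _ => ?_) (mul_le_mul_of_nonneg_left ?_ hν)
    · rw [← mul_sum, sum_comm]
      refine mul_le_mul_of_nonneg_left ((sum_le_card_nsmul _ _ (H j) fun S hS =>
        (one S).trans (by rw [(mem_filter.1 hS).2])).trans ?_) (hμ j)
      rw [← powerset_univ, ← powersetCard_eq_filter, card_powersetCard, card_univ, nsmul_eq_mul]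
    · simpa only [Uop_univ, card_univ] using one univ
  have e : ∀ y x, Q (D (EuclideanSpace.single y 1) - Uop rR ∅ (D (EuclideanSpace.single y 1))) x =
      Q (D (EuclideanSpace.single 1 1)) (x * y⁻¹) - (Fintype.card (Perm P) : ℝ)⁻¹ := fun y x => by
    have a := hu (Uop rR ∅ (EuclideanSpace.single y 1)) (Fintype.card (Perm P) : ℝ)⁻¹ (fun x => by
      simp [Uop_single, cX, agr, ind]) x
    have b : rR y⁻¹ (Q (D (EuclideanSpace.single 1 1))) = Q (D (rR y⁻¹ (EuclideanSpace.single 1 1))) :=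
      congrArg (· (EuclideanSpace.single 1 1)) ((cQ y⁻¹).mul_right (cD y⁻¹)).eq
    rw [map_sub, PiLp.sub_apply, cU, a, ← rR_apply, b]
    rw [show rR y⁻¹ (EuclideanSpace.single (1 : Perm P) (1 : ℝ)) = EuclideanSpace.single y 1 by
      ext z; simp [rR_apply, PiLp.single_apply, mul_inv_eq_one]]
  simp only [EuclideanSpace.real_norm_sq_eq, e] at t
  have e2 : ∀ y : Perm P, ∑ x, (Q (D (EuclideanSpace.single 1 1)) (x * y⁻¹) -
      (Fintype.card (Perm P) : ℝ)⁻¹) ^ 2 = _ := fun y => Equiv.sum_comp (Equiv.mulRight y⁻¹)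
    fun x => (Q (D (EuclideanSpace.single 1 1)) x - (Fintype.card (Perm P) : ℝ)⁻¹) ^ 2
  simp only [e2, sum_const, nsmul_eq_mul] at t
  refine le_of_sq_le_sq (sq_sum_le_card_mul_sum_sq.trans ?_) (by norm_num)
  simp only [sq_abs]
  linarith

lemma pow_bound' {P : Type*} [Fintype P] [DecidableEq P]
    {D : EuclideanSpace ℝ (Perm P) →L[ℝ] EuclideanSpace ℝ (Perm P)} (cD : ∀ g, Commute (rR g) D)
    {S : Finset P} {i : ℕ} {μ : ℝ} (hμ : 0 ≤ μ)
    (h : ∀ v ∈ Fs rR S ⊓ (Vl rR i)ᗮ, ‖D v‖ ^ 2 ≤ μ * ‖v‖ ^ 2) (m : ℕ) :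
    ∀ v ∈ Fs rR S, v ∈ (Vl rR i)ᗮ → ‖(D ^ m) v‖ ^ 2 ≤ μ ^ m * ‖v‖ ^ 2 := fun v h1 h2 =>
  pow_bound (Q := D) (W := Fs rR S ⊓ (Vl rR i)ᗮ) (fun _ hv => ⟨Fs_comm cD hv.1, rR_orth.orth_comm cD hv.2⟩) hμ h m v ⟨h1, h2⟩

lemma num_sparse {A x : ℝ} {n j m r : ℕ} (j0 : 0 < j) (A0 : 0 ≤ A) (x0 : 0 ≤ x)
    (h1 : A ^ 2 ≤ 2 ^ r) (h2 : 48 * 2 ^ 130 * x ≤ 2 ^ r) (hm : 262 ≤ m) (hA : 1 ≤ A)
    (hn : n ≤ j * (2 ^ 130) ^ (r + 1)) :
    ((A / 2 ^ r) ^ j) ^ m * (n.choose j * x ^ j) ≤ (1 / 16) ^ j := by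
  have y0 : (0 : ℝ) < 2 ^ r := by positivity
  have c : (n.choose j : ℝ) ≤ (3 * (2 ^ 130) ^ (r + 1)) ^ j := by
    refine (Nat.choose_le_pow_div j n).trans ?_
    have e := Real.pow_div_factorial_le_exp (j : ℝ) (by positivity) j
    have e3 : Real.exp j ≤ 3 ^ j := by
      rw [← Real.exp_one_pow]
      exact pow_le_pow_left₀ (Real.exp_pos _).le (Real.exp_one_lt_d9.le.trans (by norm_num)) _
    calc _ ≤ ((j : ℝ) * (2 ^ 130) ^ (r + 1)) ^ j / j.factorial := by
          gcongr; exact_mod_cast hn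
      _ = j ^ j / j.factorial * ((2 ^ 130) ^ (r + 1)) ^ j := by rw [mul_pow]; ring
      _ ≤ _ := by rw [mul_pow]; gcongr; exact e.trans e3
  rw [← pow_mul, mul_comm j, pow_mul]
  refine (mul_le_mul_of_nonneg_left (mul_le_mul_of_nonneg_right c (by positivity))
    (by positivity)).trans ?_
  rw [← mul_pow, ← mul_pow]
  refine pow_le_pow_left₀ (by positivity) ?_ _
  have a1 : (A / 2 ^ r) ^ m ≤ (1 / 2 ^ r) ^ 131 := by
    refine (pow_le_pow_of_le_one (by positivity) ((div_le_one y0).2 (by nlinarith)) hm).trans ?_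
    rw [show 262 = 2 * 131 by norm_num, pow_mul]
    refine pow_le_pow_left₀ (by positivity) ?_ _
    rw [div_pow, div_le_div_iff₀ (by positivity) y0]; nlinarith
  refine (mul_le_mul_of_nonneg_right a1 (by positivity)).trans ?_
  rw [pow_succ _ r, ← pow_mul 2 130 r, mul_comm 130 r, pow_mul]
  generalize (2 : ℝ) ^ r = y at *
  rw [show (1 / y) ^ 131 * (3 * (y ^ 130 * 2 ^ 130) * x) = 3 * 2 ^ 130 * x / y by field_simp,
    div_le_iff₀ y0]
  linarith

lemma Bl_const (l : List ι) (hl : l.Nodup) (K : ℕ) (v : EuclideanSpace ℝ (Perm (ι → Bool))) (c : ℝ)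
    (h : ∀ x, v x = c) : ∀ x, (Bl rL l univ ^ K) v x = c := by
  induction K with
  | zero => exact h
  | succ K ih => intro x; rw [pow_succ', mul_apply_eq_comp, Bl_apply hl]; simp only [ih, av_const]

theorem mix : ∃ K : ℕ, ∀ (ι : Type) [DecidableEq ι] [Fintype ι] (l : List ι), l.Nodup →
    Fintype.card (ι → Bool) = 2 ^ l.length → 0 < l.length →
    ∑ x, |(Bl rL l univ ^ K) (EuclideanSpace.single 1 1) x -
      (Fintype.card (Perm (ι → Bool)) : ℝ)⁻¹| ≤ 1 / 2 := by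
  have C := C0_pos
  obtain ⟨r0, hr0⟩ := pow_unbounded_of_one_lt (max ((2 * Real.exp (62 * C0)) ^ 2)
    (48 * 2 ^ 130 * Real.exp (31 * C0))) (one_lt_two (α := ℝ))
  rw [max_lt_iff] at hr0
  have A1 : 1 ≤ 2 * Real.exp (62 * C0) := by
    have := Real.one_le_exp (show 0 ≤ 62 * C0 by positivity); linarith
  have r1 : 0 < r0 := Nat.pos_of_ne_zero fun h => by
    have := Real.one_le_exp (show 0 ≤ 31 * C0 by positivity)
    rw [h] at hr0; linarith [hr0.2]
  obtain ⟨b, hb⟩ : ∃ b : ℕ, b = (2 ^ 130) ^ r0 := ⟨_, rfl⟩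
  have b1 : 1 < b := hb ▸ Nat.one_lt_pow r1.ne' (by norm_num)
  have b2 : (1 : ℝ) < b := by exact_mod_cast b1
  obtain ⟨δ, hδ⟩ : ∃ δ : ℝ, δ = 1 / (32 * b) := ⟨_, rfl⟩
  have δ0 : 0 < δ := by rw [hδ]; positivity
  obtain ⟨m0, hm0⟩ := exists_nat_ge ((31 * C0 + 7) / (δ ^ 2 / 18))
  rw [div_le_iff₀ (by positivity)] at hm0
  obtain ⟨m, hm⟩ : ∃ m, m = m0 + 262 := ⟨_, rfl⟩
  refine ⟨32 * m + 32, fun ι _ _ l hl hc l0 => ?_⟩
  have n2 : 2 ≤ 2 ^ l.length := Nat.le_self_pow l0.ne' 2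
  have n3 : (2 : ℝ) ≤ 2 ^ l.length := by exact_mod_cast n2
  have cD : ∀ g, Commute (rR g) (Bl rL l univ ^ 32) := fun g => (Bl_comm l g).pow_right _
  have lg : ∀ j, 0 < j → j ≤ 2 ^ l.length / b → r0 ≤ Nat.log (2 ^ 130) (2 ^ l.length / j) :=
    fun j j0 hj => Nat.le_log_of_pow_le (by norm_num) ((Nat.le_div_iff_mul_le j0).2
      (hb ▸ (Nat.mul_le_mul_left _ hj).trans (Nat.mul_div_le _ _)))
  rw [pow_add, pow_mul]
  refine l1_bound cD (fun g => (cD g).pow_right _) (fun v c h => ?_) (k := 2 ^ l.length / b)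
    (μ := fun j => ((2 * Real.exp (62 * C0) / 2 ^ Nat.log (2 ^ 130) (2 ^ l.length / j)) ^ j) ^ m)
    (H := fun j => Real.exp (31 * C0) ^ j) (fun j => by positivity)
    (ν := Real.exp (-(δ ^ 2 / 576 * 2 ^ l.length)) ^ (32 * m)) (by positivity)
    (fun i hi S hS v hv hv' => ?_) ?_ (fun T => ?_) ?_
  · have := Bl_const l hl (32 * m) _ c (Bl_const l hl 32 v c h)
    rwa [pow_mul] at this
  · refine pow_bound' cD (by positivity)
      (sparse hl hc (r1.trans_le (lg _ i.succ_pos hi)) ?_ hS) m v hv hv'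
    rw [mul_comm, ← Nat.le_div_iff_mul_le i.succ_pos]
    exact Nat.pow_log_le_self _ (Nat.div_pos (hi.trans_le (Nat.div_le_self _ _)) i.succ_pos).ne'
  · have d := dense hl hc (k := 2 ^ l.length / b) (Nat.div_lt_self (by omega) b1) δ0.le ?_ ?_ ?_
    · have := pow_bound (fun v hv => rR_orth.orth_comm (Bl_comm l) hv) (Real.exp_pos _).le d (32 * m)
      rwa [pow_mul (Bl rL l univ)] at this
    · rw [hδ, div_le_one (by positivity)]; linarith
    · have : ((2 ^ l.length : ℕ) : ℝ) ≤ b * (2 ^ l.length / b + 1 : ℕ) := by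
        exact_mod_cast (Nat.lt_mul_div_succ _ (by omega)).le
      push_cast at this
      rw [hδ, div_mul_eq_mul_div, div_le_div_iff₀ (by positivity) (by positivity)]
      nlinarith
    · rw [hδ, div_mul_eq_mul_div, div_le_div_iff₀ (by positivity) (by positivity)]
      nlinarith
  · refine (hs_bound hl hc T zero_le_one fun i _ => mul_le_one₀ (pow_le_one₀ (by norm_num)
      (by norm_num)) (by positivity) (min_le_left _ _)).trans (le_of_eq ?_)
    rw [← Real.exp_nat_mul]; congr 1; ring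
  rw [show (1 : ℝ) / 4 = 1 / 8 + 1 / 8 by norm_num, hc]
  refine add_le_add ((sum_le_sum (g := fun j => (1 / 16 : ℝ) ^ j) fun j hj => ?_).trans ?_) ?_
  · rw [mem_Ioc] at hj
    have := pow_le_pow_right₀ (one_le_two (α := ℝ)) (lg j hj.1 hj.2)
    refine num_sparse hj.1 (by positivity) (by positivity) (hr0.1.le.trans this)
      (hr0.2.le.trans this) (by omega) A1 ?_
    rw [mul_comm]
    exact ((Nat.div_lt_iff_lt_mul hj.1).1 (Nat.lt_pow_succ_log_self (by norm_num) _)).le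
  · rw [← Ico_add_one_add_one_eq_Ioc]
    exact (geom_sum_Ico_le_of_lt_one (by norm_num) (by norm_num)).trans (by norm_num)
  · rw [← Real.exp_nat_mul, ← Real.exp_nat_mul, ← Real.exp_add]
    refine (Real.exp_le_exp.2 (show _ ≤ -7 by
      rw [hm]; push_cast; nlinarith [sq_nonneg δ])).trans ?_
    rw [Real.exp_neg, one_div]
    exact inv_anti₀ (by norm_num) (by linarith [Real.add_one_le_exp 7])

end Vale.Agent.P162
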