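import Vale.Agent.P162.Level

namespace Vale.Agent.P162

open Finset Equiv RealInnerProductSpace

variable {E : Type*} [NormedAddCommGroup E] [InnerProductSpace ℝ E]
  {P : Type*} [DecidableEq P] [Fintype P] {ρ : Perm P →* (E →L[ℝ] E)}

lemma Orth.gram (h : Orth ρ) {i : ℕ} (hn : 4 * (i + 1) ≤ Fintype.card P) (u : ℕ) :
    ∀ S S' : Finset P, S.card = i + 1 → S'.card = i + 1 → (S \ S').card = u → ∀ v ∈ Fs ρ S,
      v ∈ (Vl ρ i)ᗮ → ∀ w ∈ Fs ρ S',
      |⟪v, w⟫| ≤ u.factorial * (2 / Fintype.card P) ^ u * (‖v‖ * ‖w‖) := by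
  induction u with
  | zero => intro S S' _ _ _ v _ _ w _; simpa using abs_real_inner_le_norm v w
  | succ u ih =>
    intro S S' hS hS' hu v hv hv' w hw
    obtain ⟨a, ha⟩ : (S \ S').Nonempty := card_pos.1 (by omega)
    have ha' := mem_sdiff.1 ha
    have z : ∑ y ∈ insert a Sᶜ, ρ (swap a y) v = 0 := by
      have m1 : ∑ y ∈ insert a Sᶜ, ρ (swap a y) v ∈ Vl ρ i :=
        Fs_le (S := S.erase a) (by rw [card_erase_of_mem ha'.1]; omega) (by
          have := Fx.star hv a
          rwa [← compl_erase] at this ⊢)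
      exact inner_self_eq_zero.1 (Submodule.sum_mem _ (fun y _ => h.orth_rho (swap a y) hv') _ m1)
    have sp : insert a Sᶜ = (insert a Sᶜ \ S') ∪ (S' \ S) := by
      ext y; simp only [mem_insert, mem_compl, mem_union, mem_sdiff]
      by_cases y = a <;> simp_all; tauto
    have cd : (S' \ S).card = u + 1 := by rw [← hu, card_sdiff_comm (hS'.trans hS.symm)]
    have dj : Disjoint (insert a Sᶜ \ S') (S' \ S) :=
      disjoint_left.2 fun y h1 h2 => (mem_sdiff.1 h1).2 (mem_sdiff.1 h2).1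
    have cA : Fintype.card P ≤ 2 * (insert a Sᶜ \ S').card := by
      have := le_card_sdiff S' (insert a Sᶜ)
      rw [card_insert_of_notMem (by simp [ha'.1]), card_compl] at this
      omega
    have e := congrArg (⟪·, w⟫) z
    rw [sp, sum_union dj, inner_add_left, sum_inner, sum_inner, inner_zero_left,
      sum_congr rfl (g := fun _ => ⟪v, w⟫) fun y hy => by
        rw [h.adj, swap_inv, hw a (mem_compl.2 ha'.2) y (mem_compl.2 (mem_sdiff.1 hy).2)],
      sum_const, nsmul_eq_mul] at e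
    have b : |∑ y ∈ S' \ S, ⟪ρ (swap a y) v, w⟫| ≤
        (u + 1) * (u.factorial * (2 / Fintype.card P) ^ u * (‖v‖ * ‖w‖)) := by
      refine (abs_sum_le_sum_abs _ _).trans ((sum_le_card_nsmul _ _ _ fun y hy => ?_).trans
        (by rw [cd, nsmul_eq_mul]; push_cast; rfl))
      rw [mem_sdiff] at hy
      rw [← h.norm (swap a y) v]
      refine ih _ _ (by rw [card_image_of_injective _ (swap a y).injective, hS]) hS' ?_ _
        (Fs_rho hv _) (h.orth_rho _ hv') w hw
      have : S.image (swap a y) \ S' = (S \ S').erase a := by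
        ext x
        simp only [mem_sdiff, mem_image, mem_erase, swap_apply_eq_iff, exists_eq_right]
        rw [swap_apply_def]
        split_ifs with h1 h2
        · simp [h1, hy.2]
        · simp [h2, hy.1]
        · simp [h1]
      rw [this, card_erase_of_mem ha, hu]; rfl
    have n0 : (0 : ℝ) < Fintype.card P := by exact_mod_cast (by omega : 0 < Fintype.card P)
    have cA' : (Fintype.card P : ℝ) ≤ 2 * (insert a Sᶜ \ S').card := by exact_mod_cast cA
    rw [← neg_eq_of_add_eq_zero_right e, abs_neg, abs_mul, Nat.abs_cast] at b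
    rw [Nat.factorial_succ, pow_succ]
    push_cast
    refine le_of_mul_le_mul_left ?_ (half_pos n0)
    calc _ ≤ _ := mul_le_mul_of_nonneg_right (by linarith) (abs_nonneg _)
      _ ≤ _ := b
      _ = _ := by field_simp

omit [Fintype P] in
lemma gram_sum {T S : Finset P} {j : ℕ} (hS : S.card = j) {n : ℝ} (hn : 0 < n)
    (hT : 4 * j * T.card ≤ n ^ 2) :
    ∑ S' ∈ T.powersetCard j, (((S \ S').card.factorial : ℝ) * (2 / n) ^ (S \ S').card) ^ 2 ≤
      2 ^ j := by
  rw [← sum_fiberwise_of_maps_to (t := S.powerset) (g := fun S' => S \ S')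
    fun _ _ => mem_powerset.2 sdiff_subset]
  refine (sum_le_card_nsmul _ _ 1 fun A hA => ?_).trans (by simp [hS])
  rw [sum_congr rfl fun S' h => by rw [(mem_filter.1 h).2], sum_const, nsmul_eq_mul]
  have c : ((T.powersetCard j).filter fun S' => S \ S' = A).card ≤ T.card.choose A.card := by
    rw [← card_powersetCard]
    refine card_le_card_of_injOn (fun S' => S' \ S) (fun S' h => ?_) fun S1 h1 S2 h2 e => ?_
    · simp only [coe_filter, mem_powersetCard, Set.mem_ofPred_eq, mem_coe] at h ⊢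
      exact ⟨sdiff_subset.trans h.1.1, by rw [← h.2, card_sdiff_comm (h.1.2.trans hS.symm)]⟩
    · simp only [coe_filter, Set.mem_ofPred_eq] at h1 h2 e
      have e2 := h1.2.trans h2.2.symm
      ext x
      have a1 := congrArg (x ∈ ·) e
      have a2 := congrArg (x ∈ ·) e2
      simp only [mem_sdiff, eq_iff_iff] at a1 a2
      tauto
  have uj : A.card ≤ j := hS ▸ card_le_card (mem_powerset.1 hA)
  generalize A.card = u at c uj
  have c1 : u.factorial * T.card.choose u ≤ T.card ^ u := by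
    rw [← Nat.descFactorial_eq_factorial_mul_choose]; exact Nat.descFactorial_le_pow _ _
  have c2 : u.factorial ≤ j ^ u := u.factorial_le_pow.trans (Nat.pow_le_pow_left uj _)
  have c3 := Nat.mul_le_mul ((Nat.mul_le_mul_left _ c).trans c1) c2
  have c4 : (_ : ℝ) ≤ _ := Nat.cast_le.2 c3
  push_cast at c4
  calc _ = _ * ((2 / n) ^ 2) ^ u := by rw [← pow_mul, mul_comm 2 u, pow_mul]; ring
    _ ≤ _ := mul_le_mul_of_nonneg_right c4 (by positivity)
    _ = (4 * j * T.card / n ^ 2) ^ u := by rw [← mul_pow, ← mul_pow]; congr 1; ring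
    _ ≤ 1 := pow_le_one₀ (by positivity) ((div_le_one (by positivity)).2 hT)

theorem Orth.op_bound (h : Orth ρ) {κ : Type*} [Fintype κ] (b : OrthonormalBasis κ ℝ E)
    {Q : E →L[ℝ] E} (hQ : ∀ g, Commute (ρ g) Q) {i : ℕ} (hn : 4 * (i + 1) ≤ Fintype.card P)
    {T : Finset P} (hT : (4 * (i + 1 : ℕ) * T.card : ℝ) ≤ Fintype.card P ^ 2) {S0 : Finset P}
    (h0 : S0.card = i + 1) {v : E} (hv : v ∈ Fs ρ S0) (hv' : v ∈ (Vl ρ i)ᗮ) :
    T.card.choose (i + 1) * ‖Q v‖ ^ 2 ≤
      2 ^ (i + 1) * (∑ k, ‖Q (Uop ρ T (b k))‖ ^ 2) * ‖v‖ ^ 2 := by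
  have ex : ∀ S : Finset P, ∃ g : Perm P, S.card = i + 1 → S0.image g = S := fun S => by
    by_cases hS : S.card = i + 1
    · obtain ⟨g, hg⟩ := Perm.exists_map_finset_eq S0 S (h0.trans hS.symm)
      exact ⟨g, fun _ => by rw [← hg, map_eq_image]; rfl⟩
    · exact ⟨1, fun h => (hS h).elim⟩
  choose g hg using ex
  set I := T.powersetCard (i + 1) with hI
  have mem : ∀ x ∈ Fs ρ S0, ∀ S ∈ I, ρ (g S) x ∈ Fs ρ S := fun x hx S hS => by
    have := Fs_rho hx (g S)
    rwa [hg S (mem_powersetCard.1 hS).2] at this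
  have G : ∀ x ∈ Fs ρ S0, x ∈ (Vl ρ i)ᗮ → ∀ S ∈ I, ∀ S' ∈ I, |⟪ρ (g S) x, ρ (g S') x⟫| ≤
      (S \ S').card.factorial * (2 / Fintype.card P) ^ (S \ S').card * ‖x‖ ^ 2 :=
    fun x hx hx' S hS S' hS' => by
      simpa only [h.norm, ← sq] using h.gram hn _ S S' (mem_powersetCard.1 hS).2
        (mem_powersetCard.1 hS').2 rfl _ (mem x hx S hS) (h.orth_rho _ hx') _ (mem x hx S' hS')
  set y := fun k => ∑ S ∈ I, ⟪b k, ρ (g S) v⟫ • ρ (g S) (Q v) with hy
  have e1 : I.card * ‖Q v‖ ^ 2 = ∑ k, ⟪Q (Uop ρ T (b k)), y k⟫ := by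
    simp only [hy, inner_sum, inner_smul_right]
    rw [sum_comm, ← nsmul_eq_mul, ← sum_const]
    refine sum_congr rfl fun S hS => ?_
    have m : ρ (g S) v ∈ Fs ρ T := fun x hx z hz => mem v hv S hS x
      (compl_subset_compl.2 (mem_powersetCard.1 hS).1 hx) z
      (compl_subset_compl.2 (mem_powersetCard.1 hS).1 hz)
    simp only [← real_inner_smul_left, ← map_smul, ← sum_inner, ← map_sum, b.sum_repr',
      Uop_of_mem m]
    rw [show Q (ρ (g S) v) = ρ (g S) (Q v) from (congrArg (· v) (hQ _).eq).symm, h,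
      real_inner_self_eq_norm_sq]
  have e2 : ∑ k, ‖y k‖ ^ 2 ≤ I.card * 2 ^ (i + 1) * (‖v‖ ^ 2 * ‖Q v‖ ^ 2) := by
    simp only [← real_inner_self_eq_norm_sq (y _)]
    simp only [hy, inner_sum, sum_inner, inner_smul_left, inner_smul_right, conj_trivial]
    rw [sum_comm, mul_assoc, ← nsmul_eq_mul]
    refine sum_le_card_nsmul _ _ _ fun S hS => ?_
    simp only [mul_sum]
    rw [sum_comm]
    refine le_trans (sum_le_sum fun S' hS' => ?_) ((sum_mul _ _ _).symm.le.trans
      (mul_le_mul_of_nonneg_right (gram_sum (T := T) (mem_powersetCard.1 hS).2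
        (by exact_mod_cast (by omega : 0 < Fintype.card P)) hT) (by positivity)))
    simp only [← mul_assoc, ← sum_mul]
    rw [sum_congr rfl fun k _ => by rw [real_inner_comm], b.sum_inner_mul_inner,
      real_inner_comm (ρ (g S) (Q v))]
    refine (le_abs_self _).trans ?_
    rw [abs_mul]
    refine (mul_le_mul (G v hv hv' S hS S' hS') (G _ (Fs_comm hQ hv) (h.orth_comm hQ hv') S hS S' hS')
      (abs_nonneg _) (by positivity)).trans (le_of_eq (by ring))
  have e3 : (I.card * ‖Q v‖ ^ 2) ^ 2 ≤ (∑ k, ‖Q (Uop ρ T (b k))‖ ^ 2) * ∑ k, ‖y k‖ ^ 2 := by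
    refine le_trans (pow_le_pow_left₀ (by positivity) (e1.le.trans
      (sum_le_sum fun k _ => real_inner_le_norm _ _)) 2) (sum_mul_sq_le_sq_mul_sq _ _ _)
  rw [← card_powersetCard, ← hI]
  have a0 : 0 ≤ ∑ k, ‖Q (Uop ρ T (b k))‖ ^ 2 := by positivity
  have := e3.trans (mul_le_mul_of_nonneg_left e2 a0)
  rcases (show 0 ≤ (I.card : ℝ) * ‖Q v‖ ^ 2 by positivity).eq_or_lt with h0 | h0
  · rw [← h0]; positivity
  · refine le_of_mul_le_mul_left ?_ h0
    linarith

end Vale.Agent.P162
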