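import Vale.Agent.P162.Cyc

namespace Vale.Agent.P162

open Finset Equiv Classical

lemma amgm {α : Type*} (s : Finset α) {N : ℕ} (hN : s.card = N) (h0 : N ≠ 0) (z : α → ℝ)
    (hz : ∀ i, 0 ≤ z i) : ∏ i ∈ s, z i ≤ ∑ i ∈ s, (N : ℝ)⁻¹ * z i ^ N := by
  have := Real.geom_mean_le_arith_mean_weighted s (fun _ => (N : ℝ)⁻¹) (fun i => z i ^ N)
    (fun _ _ => by positivity) (by simp [hN, h0]) fun i _ => pow_nonneg (hz i) _
  simpa only [Real.pow_rpow_inv_natCast (hz _) h0] using this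

section
variable {κ γ : Type*} [Fintype κ] [DecidableEq κ] [Fintype γ] [Nonempty γ]

lemma chain (A : ℕ → κ → Prop) (hA : ∀ s t b, s ≤ t → A s b → A t b) (G : ℕ → (κ → γ) → ℝ)
    (hG : ∀ g ω, 0 ≤ G g ω) (B : ℕ → ℝ)
    (dep : ∀ g ω τ, (∀ b, A (g + 1) b → ω b = τ b) → G g ω = G g τ)
    (bd : ∀ g (ω : κ → γ), av (fun ω' : κ → γ => G g fun b => if ¬ A g b then ω' b else ω b) ≤ B g)
    (r : ℕ) : av (fun ω => ∏ g ∈ range r, G g ω) ≤ ∏ g ∈ range r, B g := by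
  induction r with
  | zero => simp [av_const]
  | succ r ih =>
    have hB : 0 ≤ B r := (av_nonneg fun _ => hG _ _).trans (bd r fun _ => Classical.arbitrary _)
    rw [av_mix fun b => ¬ A r b, prod_range_succ]
    refine le_trans ?_ (mul_le_mul_of_nonneg_right ih hB)
    rw [← av_mul_right]
    refine av_le_av fun ω => le_trans (le_of_eq ?_)
      (mul_le_mul_of_nonneg_left (bd r ω) (prod_nonneg fun g _ => hG g ω))
    rw [← av_mul_left]
    congr 1; ext ω'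
    rw [prod_range_succ]
    congr 1
    exact prod_congr rfl fun g hg => dep _ _ _ fun b hb =>
      if_neg (not_not.2 (hA _ _ _ (mem_range.1 hg) hb))

lemma prod_dyadic {M : Type*} [CommMonoid M] (f : ℕ → M) (R : ℕ) :
    ∏ i ∈ range (4 ^ R - 1), f i = (∏ g ∈ range R, ∏ i ∈ Ico (2 ^ (2 * g) - 1) (2 ^ (2 * g + 1) - 1),
      f i) * ∏ g ∈ range R, ∏ i ∈ Ico (2 ^ (2 * g + 1) - 1) (2 ^ (2 * g + 1 + 1) - 1), f i := by
  induction R with
  | zero => simp
  | succ R ih =>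
    have e : 4 ^ R = 2 ^ (2 * R) := by rw [pow_mul]; rfl
    have e' : 4 ^ (R + 1) = 2 ^ (2 * R + 1 + 1) := by rw [pow_succ, e]; ring
    have : 0 < 2 ^ (2 * R) := by positivity
    rw [prod_range_succ, prod_range_succ, mul_mul_mul_comm, ← ih, e, e', prod_Ico_consecutive _
      (by omega) (by omega), prod_range_mul_prod_Ico _ (by omega)]

theorem groups (A : ℕ → κ → Prop) (hA : ∀ s t b, s ≤ t → A s b → A t b) (c : ℕ → (κ → γ) → ℝ)
    (y : ℕ → ℝ) (hy : ∀ i, 0 ≤ y i)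
    (dep : ∀ i ω τ, (∀ b, A (i + 1) b → ω b = τ b) → c i ω = c i τ)
    (bd : ∀ m i (ω : κ → γ), 2 ^ m ≤ i + 1 → i + 1 < 2 ^ (m + 1) → av (fun ω' : κ → γ =>
      c i (fun b => if ¬ A (2 ^ m / 2) b then ω' b else ω b) ^ (2 * 2 ^ m)) ≤ Real.exp (y i))
    (R : ℕ) : av (fun ω => ∏ i ∈ range (4 ^ R - 1), c i ω) ≤
      Real.exp (∑ i ∈ range (4 ^ R - 1), y i) := by
  have key : ∀ o : ℕ, av (fun ω => ∏ g ∈ range R,
      ∏ i ∈ Ico (2 ^ (2 * g + o) - 1) (2 ^ (2 * g + o + 1) - 1), c i ω ^ 2) ≤ ∏ g ∈ range R,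
      ∏ i ∈ Ico (2 ^ (2 * g + o) - 1) (2 ^ (2 * g + o + 1) - 1), Real.exp (y i) := fun o => by
    refine chain (fun g => A (2 ^ (2 * g + o) / 2)) (fun s t b h => hA _ _ _
      (Nat.div_le_div_right (Nat.pow_le_pow_right (by norm_num) (by omega))))
      (fun g ω => ∏ i ∈ Ico (2 ^ (2 * g + o) - 1) (2 ^ (2 * g + o + 1) - 1), c i ω ^ 2)
      (fun g ω => prod_nonneg fun i _ => sq_nonneg _)
      (fun g => ∏ i ∈ Ico (2 ^ (2 * g + o) - 1) (2 ^ (2 * g + o + 1) - 1), Real.exp (y i))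
      (fun g ω τ h => prod_congr rfl
        fun i hi => by
          rw [dep i ω τ fun b hb => h b (hA _ _ _ ?_ hb)]
          rw [mem_Ico] at hi
          have : 0 < 2 ^ (2 * g + o + 1) := by positivity
          rw [show 2 * (g + 1) + o = 2 * g + o + 1 + 1 by ring, pow_succ]
          omega) (fun g ω => ?_) R
    have h0 : 0 < 2 ^ (2 * g + o) := by positivity
    have hN : (Ico (2 ^ (2 * g + o) - 1) (2 ^ (2 * g + o + 1) - 1)).card = 2 ^ (2 * g + o) := by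
      rw [Nat.card_Ico]; omega
    refine (av_le_av fun ω' => amgm _ hN h0.ne' _ fun i => sq_nonneg _).trans ?_
    rw [av_sum]
    refine (sum_le_card_nsmul _ _ (((2 ^ (2 * g + o) : ℕ) : ℝ)⁻¹ * ∏ i ∈ Ico (2 ^ (2 * g + o) - 1)
      (2 ^ (2 * g + o + 1) - 1), Real.exp (y i)) fun i hi => ?_).trans (le_of_eq ?_)
    · rw [av_mul_left]
      refine mul_le_mul_of_nonneg_left ?_ (by positivity)
      simp only [← pow_mul]
      have hi' := mem_Ico.1 hi
      refine (bd _ i ω (by omega) (by omega)).trans ?_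
      rw [← Real.exp_sum, Real.exp_le_exp]
      exact single_le_sum (fun i _ => hy i) hi
    · rw [hN, nsmul_eq_mul, mul_inv_cancel_left₀ (by positivity)]
  have k0 := key 0
  have k1 := key 1
  have one : ∀ o : ℕ, 1 ≤ ∏ g ∈ range R,
      ∏ i ∈ Ico (2 ^ (2 * g + o) - 1) (2 ^ (2 * g + o + 1) - 1), Real.exp (y i) := fun o => by
      simp only [← Real.exp_sum]
      exact Real.one_le_exp (sum_nonneg fun g _ => sum_nonneg fun i _ => hy i)
  have o0 := one 0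
  have o1 := one 1
  simp only [add_zero, prod_pow] at k0 k1 o0
  rw [Real.exp_sum, prod_dyadic]
  simp only [prod_dyadic _ R]
  have ab : ∀ a b : ℝ, a * b ≤ (a ^ 2 + b ^ 2) * 2⁻¹ := fun a b => by nlinarith [sq_nonneg (a - b)]
  refine (av_le_av fun ω => ab _ _).trans ?_
  rw [av_mul_right, av_add]
  nlinarith [mul_le_mul o0 o1 zero_le_one (zero_le_one.trans o0),
    mul_nonneg (sub_nonneg.2 o0) (sub_nonneg.2 o1)]

end

end Vale.Agent.P162
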