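import Vale.Agent.P162.Stage1

namespace Vale.Agent.P162

open Finset Equiv Classical

variable {ι : Type*} [DecidableEq ι] [Fintype ι]

lemma av_lay (a : ι) (p : ι → Bool) (ψ : (ι → Bool) → ℝ) :
    av (fun s => ψ (lay a s p)) = (ψ (fl a p) + ψ p) / 2 := by
  rw [av_update (rp a p)]
  simp only [lay_apply, Function.update_self, av_const]
  simp [av]; ring

lemma neg_dep {l : List ι} (hl : l.Nodup) (φ : (ι → Bool) → ℝ) (hφ : ∀ p, 0 ≤ φ p)
    (A : Finset (ι → Bool)) :
    av (fun ω => ∏ p ∈ A, φ (net l ω p)) ≤ ∏ p ∈ A, av fun ω => φ (net l ω p) := by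
  induction l generalizing A with
  | nil => simp [net, av_const]
  | cons a l ih =>
    rw [List.nodup_cons] at hl
    have h0 : ∀ p, 0 ≤ av fun ω => φ (net l ω p) := fun p => av_nonneg fun _ => hφ _
    simp only [fun p => av_net_cons hl.1 fun g => φ (g p), Perm.mul_apply,
      fun p => av_lay a p fun q => av fun ω => φ (net l ω q)]
    rw [av_net_cons hl.1 fun g => ∏ p ∈ A, φ (g p)]
    refine le_trans (av_le_av fun s => ?_) (switch_prod a
      (fun p (b : Bool) => av fun ω => φ (net l ω (if b then fl a p else p))) _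
      (fun p b => h0 _) (fun p => by simp [av]; linarith) (fun p => ?_) A)
    · have := ih hl.2 (A.image (lay a s))
      simp only [prod_image (lay a s).injective.injOn] at this
      exact this
    · have e : ∀ f : Bool → ℝ, av f = (f true + f false) / 2 := fun f => by simp [av]; ring
      rw [e]
      simp only [fl_fl, if_true, Bool.false_eq_true, if_false]
      nlinarith [sq_nonneg ((av fun ω => φ (net l ω p)) - av fun ω => φ (net l ω (fl a p)))]

lemma point_prob {l : List ι} (hl : l.Nodup) (p x : ι → Bool) :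
    av (fun ω => ind (net l ω p = x)) ≤ (2 ^ l.length)⁻¹ := by
  induction l generalizing p with
  | nil => simpa using av_le_of_le fun _ => ind_le_one _
  | cons a l ih =>
    rw [List.nodup_cons] at hl
    simp only [av_net_cons hl.1 fun g => ind (g p = x), Perm.mul_apply,
      av_lay a p fun q => av fun ω => ind (net l ω q = x)]
    have z : ∀ q, q a ≠ x a → av (fun ω => ind (net l ω q = x)) = 0 := fun q hq => by
      have : ∀ ω, ¬ net l ω q = x := fun ω h => hq (by rw [← h, net_bit hl.1])
      simp only [ind_neg (this _), av_const]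
    rw [List.length_cons, pow_succ, mul_inv]
    by_cases h : p a = x a
    · rw [z (fl a p) (by simp [h])]; linarith [ih hl.2 p]
    · rw [z p h]; linarith [ih hl.2 (fl a p)]

lemma full_bound {l : List ι} (hl : l.Nodup) (a : ι) (X : Finset (ι → Bool)) {y : ℝ} (hy : 0 ≤ y) :
    av (fun ω => Real.exp (y * ((X.image (net l ω)).filter fun p =>
      fl a p ∈ X.image (net l ω)).card)) ≤
      Real.exp ((Real.exp (2 * y) - 1) * (X.card * min 1 ((X.card : ℝ) / 2 ^ l.length))) := by
  obtain ⟨z, hz⟩ : ∃ z, z = Real.exp (2 * y) - 1 := ⟨_, rfl⟩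
  have z0 : 0 ≤ z := by linarith [Real.add_one_le_exp (2 * y)]
  have hr := List.nodup_reverse.2 hl
  set R := univ.filter fun p : ι → Bool => p a = false with hR
  set ρ := fun p => av fun ω => ind (net l.reverse ω p ∈ X) with hρ
  have ρ0 : ∀ p, 0 ≤ ρ p := fun p => av_nonneg fun _ => ind_nonneg _
  have mem : ∀ ω p, p ∈ X.image (net l ω) ↔ net l.reverse ω p ∈ X := fun ω p => by
    obtain ⟨p, rfl⟩ := (net l ω).surjective p
    simp [← net_inv]
  have h1 : ∀ ω, Real.exp (y * ((X.image (net l ω)).filter fun p =>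
      fl a p ∈ X.image (net l ω)).card) ≤ ∑ A ∈ R.powerset, z ^ A.card *
        ∏ q ∈ A ∪ A.image (fl a), ind (net l.reverse ω q ∈ X) := fun ω => by
    set F := R.filter fun p => net l.reverse ω p ∈ X ∧ net l.reverse ω (fl a p) ∈ X with hF
    have c : ((X.image (net l ω)).filter fun p => fl a p ∈ X.image (net l ω)).card ≤ 2 * F.card := by
      refine (card_le_card (t := F ∪ F.image (fl a)) fun p hp => ?_).trans
        ((card_union_le _ _).trans (by
          have := card_image_le (s := F) (f := fl a); omega))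
      simp only [mem_filter, mem, hF, hR, mem_union, mem_image, mem_univ, true_and] at hp ⊢
      cases h : p a
      · exact Or.inl ⟨rfl, hp⟩
      · exact Or.inr ⟨fl a p, ⟨by simp [h], hp.2, by simpa using hp.1⟩, by simp⟩
    calc _ ≤ (1 + z) ^ F.card := by
          rw [hz, add_sub_cancel, ← Real.exp_nat_mul, Real.exp_le_exp]
          have : (_ : ℝ) ≤ ((2 * F.card : ℕ) : ℝ) := Nat.cast_le.2 c
          push_cast at this
          nlinarith
      _ = ∑ A ∈ F.powerset, z ^ A.card := by rw [← prod_const, prod_one_add]; simp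
      _ ≤ ∑ A ∈ F.powerset, z ^ A.card *
            ∏ q ∈ A ∪ A.image (fl a), ind (net l.reverse ω q ∈ X) :=
          sum_le_sum fun A hA => by
            rw [prod_eq_one, mul_one]
            intro q hq
            rcases mem_union.1 hq with h | h
            · exact ind_pos (mem_filter.1 (mem_powerset.1 hA h)).2.1
            · obtain ⟨p, hp, rfl⟩ := mem_image.1 h
              exact ind_pos (mem_filter.1 (mem_powerset.1 hA hp)).2.2
      _ ≤ _ := sum_le_sum_of_subset_of_nonneg (powerset_mono.2 (filter_subset _ _))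
          fun A _ _ => mul_nonneg (by positivity) (prod_nonneg fun _ _ => ind_nonneg _)
  refine (av_le_av h1).trans ?_
  simp only [av_sum, av_mul_left]
  have ρ1 : ∀ p, ρ p ≤ min 1 ((X.card : ℝ) / 2 ^ l.length) := fun p => by
    refine le_min (av_le_of_le fun _ => ind_le_one _) ?_
    have : ∀ ω, ind (net l.reverse ω p ∈ X) = ∑ x ∈ X, ind (net l.reverse ω p = x) := fun ω => by
      rw [sum_ind, filter_eq]
      by_cases h : net l.reverse ω p ∈ X <;> simp [ind, h]
    simp only [hρ, this, av_sum]
    refine (sum_le_card_nsmul _ _ _ fun x _ => point_prob hr p x).trans ?_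
    simp [div_eq_mul_inv]
  have ρ2 : ∑ p, ρ p = X.card := by
    simp only [hρ, ← av_sum, ← mem, sum_ind, filter_mem_eq_inter, univ_inter,
      card_image_of_injective _ (net l _).injective, av_const]
  calc _ ≤ ∑ A ∈ R.powerset, ∏ p ∈ A, z * (ρ p * ρ (fl a p)) := sum_le_sum fun A hA => by
        rw [prod_mul_distrib, prod_const, prod_mul_distrib]
        refine mul_le_mul_of_nonneg_left ((neg_dep hr (fun q => ind (q ∈ X))
          (fun _ => ind_nonneg _) _).trans (le_of_eq ?_)) (by positivity)
        rw [prod_union, prod_image (fl a).injective.injOn]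
        refine disjoint_left.2 fun q hq hq' => ?_
        obtain ⟨p, hp, rfl⟩ := mem_image.1 hq'
        have h1 := (mem_filter.1 (mem_powerset.1 hA hp)).2
        have h2 := (mem_filter.1 (mem_powerset.1 hA hq)).2
        simp [h1] at h2
    _ = ∏ p ∈ R, (1 + z * (ρ p * ρ (fl a p))) := (prod_one_add _).symm
    _ ≤ ∏ p ∈ R, Real.exp (z * (ρ p * min 1 ((X.card : ℝ) / 2 ^ l.length))) :=
        prod_le_prod (fun p _ => by have := ρ0 p; have := ρ0 (fl a p); positivity) fun p _ => by
          refine le_trans ?_ (Real.add_one_le_exp _)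
          rw [add_comm]
          have := ρ0 p
          gcongr
          exact ρ1 _
    _ ≤ _ := by
        rw [← Real.exp_sum, ← hz, ← mul_sum, ← sum_mul, Real.exp_le_exp]
        exact mul_le_mul_of_nonneg_left (mul_le_mul_of_nonneg_right
          ((sum_le_univ_sum_of_nonneg ρ0).trans ρ2.le) (by positivity)) z0

/-- The constant of the moment bound. -/
noncomputable def C0 : ℝ := 1024 * Real.exp 1024

theorem moment {l : List ι} (hl : l.Nodup) (X : Finset (ι → Bool)) {η : ℝ} (h0 : 0 ≤ η)
    (hη : ∀ i < l.length, (127 / 128 : ℝ) ^ i * min 1 ((X.card : ℝ) / 2 ^ (l.length - 1 - i)) ≤ η) :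
    av (fun ω => av fun ω' => ((2 ^ l.length) ^ X.card * pX l X (ben l ω ω')) ^ (31 : ℝ)⁻¹) ≤
      Real.exp (C0 * X.card * η) := by
  have h1 := pX_rec hl (ε := 31⁻¹) (by norm_num) X
    (fun _ => ((2 ^ l.length) ^ X.card : ℝ) ^ (31 : ℝ)⁻¹) (fun _ => by positivity) fun _ _ _ => rfl
  simp only [mul_comm _ (((2 ^ l.length) ^ X.card : ℝ) ^ (31 : ℝ)⁻¹),
    ← Real.mul_rpow (show (0 : ℝ) ≤ (2 ^ l.length) ^ X.card by positivity) (pX_nonneg _ _ _),
    ← Real.mul_rpow (show (0 : ℝ) ≤ (2 ^ l.length) ^ X.card by positivity) (Ph_nonneg _ _ _ _)]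
    at h1
  refine h1.trans ?_
  rw [av_comm]
  refine (av_le_av fun ω' => stage1 hl X ω').trans ?_
  set d := l.length with hd
  set w : ℕ → ℝ := fun i => (1 - 127 / 128) * (127 / 128) ^ i with hw
  have w1 : ∑ i ∈ range d, w i ≤ 1 := by
    rw [hw, ← mul_sum, mul_neg_geom_sum]
    have : (0 : ℝ) ≤ (127 / 128) ^ d := by positivity
    linarith
  have cv : ∀ b : ℕ → ℝ, Real.exp (∑ i ∈ range d, w i * b i) ≤
      ∑ i ∈ range d, w i * Real.exp (b i) + (1 - ∑ i ∈ range d, w i) := fun b => by
    have := convexOn_exp.map_sum_le (t := range (d + 1))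
      (w := fun i => if i < d then w i else 1 - ∑ i ∈ range d, w i)
      (p := fun i => if i < d then b i else 0)
      (fun i _ => by split_ifs; exacts [by positivity, by linarith])
      (by rw [sum_range_succ, sum_congr rfl fun i hi => if_pos (mem_range.1 hi)]; simp)
      fun _ _ => trivial
    rw [sum_range_succ, sum_range_succ] at this
    simp only [lt_irrefl, if_false, smul_eq_mul, mul_zero, add_zero, Real.exp_zero, mul_one] at this
    refine le_trans (le_of_eq ?_) (this.trans (le_of_eq ?_))
    · exact congrArg _ (sum_congr rfl fun i hi => by simp only [mem_range.1 hi, if_true])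
    · exact congrArg (· + _) (sum_congr rfl fun i hi => by simp only [mem_range.1 hi, if_true])
  have e1 : 1 ≤ Real.exp (C0 * X.card * η) := Real.one_le_exp (by unfold C0; positivity)
  refine (av_le_av fun ω' => le_trans (Real.exp_le_exp.2 (sum_le_sum fun i _ => ?_))
    (cv fun i => 512 * (127 / 128) ^ i *
      nI (l.drop (d - 1 - i)) (X.image (net (l.take (d - 1 - i)) ω')))).trans ?_
  · rw [← mul_assoc]
    refine mul_le_mul_of_nonneg_right ?_ (by positivity)
    have : (63 / 64 : ℝ) ^ i ≤ (127 / 128 * (127 / 128)) ^ i :=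
      pow_le_pow_left₀ (by norm_num) (by norm_num) i
    rw [mul_pow] at this
    simp only [hw]; linarith
  rw [av_add, av_const, av_sum]
  refine (add_le_add (sum_le_sum (g := fun i => w i * Real.exp (C0 * X.card * η))
    fun i hi => ?_) le_rfl).trans (by rw [← sum_mul]; nlinarith)
  rw [mem_range] at hi
  rw [av_mul_left, List.drop_eq_getElem_cons (by omega)]
  refine mul_le_mul_of_nonneg_left ((full_bound ((List.take_sublist _ l).nodup hl) _ X
    (by positivity)).trans (Real.exp_le_exp.2 ?_)) (by positivity)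
  rw [List.length_take, min_eq_left (show d - 1 - i ≤ l.length by omega)]
  have p1 : (127 / 128 : ℝ) ^ i ≤ 1 := pow_le_one₀ (by norm_num) (by norm_num)
  have p0 : (0 : ℝ) < (127 / 128) ^ i := by positivity
  have hi' := hη i hi
  generalize (127 / 128 : ℝ) ^ i = t at p1 p0 hi'
  have m0 : 0 ≤ min 1 ((X.card : ℝ) / 2 ^ (d - 1 - i)) := by positivity
  have b1 : Real.exp (2 * (512 * t)) - 1 ≤ C0 * t := by
    have := Real.add_one_le_exp (-(2 * (512 * t)))
    have e := Real.exp_pos (2 * (512 * t))
    have f : Real.exp (2 * (512 * t)) ≤ Real.exp 1024 := Real.exp_le_exp.2 (by linarith)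
    rw [Real.exp_neg, ← sub_nonneg] at this
    have := mul_nonneg this e.le
    rw [sub_mul, inv_mul_cancel₀ e.ne'] at this
    unfold C0; nlinarith
  calc _ ≤ C0 * t * (X.card * min 1 ((X.card : ℝ) / 2 ^ (d - 1 - i))) := by gcongr
    _ = C0 * X.card * (t * min 1 ((X.card : ℝ) / 2 ^ (d - 1 - i))) := by ring
    _ ≤ _ := by unfold C0; gcongr

end Vale.Agent.P162
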