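import Mathlib

namespace Vale.Agent.P162

open Finset Matrix

variable {W : Type*} [Fintype W]

lemma young_step {A : Matrix W W ℝ} (hs : ∀ x y, A x y = A y x) (h0 : ∀ x y, 0 ≤ A x y)
    {q r R : ℝ} (hr : 1 < r) (hq : 2 * r = q * (r + 1)) (hR : ∀ x, ∑ y, A x y ^ q ≤ R) (x : W) :
    ∑ z, (A * A) x z ^ r ≤ R ^ (r + 1) := by
  have q0 : 0 < q := by nlinarith
  have R0 : 0 ≤ R := (sum_nonneg fun y _ => Real.rpow_nonneg (h0 x y) _).trans (hR x)
  have hc := Real.HolderConjugate.conjExponent hr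
  have h1 : ∀ z, (A * A) x z ^ r ≤ (∑ y, A x y ^ q * A y z ^ q) * R ^ (r - 1) := fun z => by
    have b0 : ∀ y, 0 ≤ A x y * A y z := fun y => mul_nonneg (h0 _ _) (h0 _ _)
    have := Real.inner_le_Lp_mul_Lq_of_nonneg univ hc (f := fun y => (A x y * A y z) ^ (q / r))
      (g := fun y => (A x y * A y z) ^ (q / 2 / r.conjExponent))
      (fun y _ => Real.rpow_nonneg (b0 y) _) fun y _ => Real.rpow_nonneg (b0 y) _
    have r1 : r - 1 ≠ 0 := by linarith
    have r0 : r ≠ 0 := by linarith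
    have e : q / r + q / 2 / r.conjExponent = 1 := by
      rw [Real.conjExponent]; field_simp; linarith
    simp only [← Real.rpow_mul (b0 _), ← Real.rpow_add' (b0 _) (e.trans_ne one_ne_zero), e,
      Real.rpow_one, div_mul_cancel₀ _ r0, div_mul_cancel₀ _ hc.symm.ne_zero] at this
    have s2 : ∑ y, (A x y * A y z) ^ (q / 2) ≤ R := by
      have t : ∀ y, (A x y * A y z) ^ (q / 2) ≤ (A x y ^ q + A z y ^ q) / 2 := fun y => by
        have u : ∀ a : ℝ, 0 ≤ a → a ^ q = a ^ (q / 2) * a ^ (q / 2) := fun a ha => by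
          rw [← Real.rpow_add' ha (by linarith)]; congr 1; ring
        rw [Real.mul_rpow (h0 _ _) (h0 _ _), u _ (h0 x y), u _ (h0 z y), hs z y]
        nlinarith [sq_nonneg (A x y ^ (q / 2) - A y z ^ (q / 2))]
      refine (sum_le_sum fun y _ => t y).trans ?_
      rw [← sum_div, sum_add_distrib]
      linarith [hR x, hR z]
    have p1 : 0 ≤ ∑ y, (A x y * A y z) ^ q := sum_nonneg fun y _ => Real.rpow_nonneg (b0 y) _
    have p2 : 0 ≤ ∑ y, (A x y * A y z) ^ (q / 2) := sum_nonneg fun y _ => Real.rpow_nonneg (b0 y) _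
    rw [mul_apply]
    refine (Real.rpow_le_rpow (sum_nonneg fun y _ => b0 y) this (by linarith)).trans ?_
    rw [Real.mul_rpow (by positivity) (by positivity), ← Real.rpow_mul p1, ← Real.rpow_mul p2,
      one_div_mul_cancel r0, Real.rpow_one, show 1 / r.conjExponent * r = r - 1 by
        rw [Real.conjExponent]; field_simp]
    simp only [Real.mul_rpow (h0 _ _) (h0 _ _)] at p1 ⊢
    refine mul_le_mul_of_nonneg_left (Real.rpow_le_rpow ?_ ?_ (by linarith)) p1
    · simpa only [Real.mul_rpow (h0 _ _) (h0 _ _)] using p2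
    · simpa only [Real.mul_rpow (h0 _ _) (h0 _ _)] using s2
  refine (sum_le_sum fun z _ => h1 z).trans ?_
  rw [← sum_mul, sum_comm]
  simp only [← mul_sum]
  have : ∑ y, A x y ^ q * ∑ z, A y z ^ q ≤ R * R := by
    refine (sum_le_sum fun y _ => mul_le_mul_of_nonneg_left (hR y)
      (Real.rpow_nonneg (h0 x y) _)).trans ?_
    rw [← sum_mul]; exact mul_le_mul_of_nonneg_right (hR x) R0
  refine (mul_le_mul_of_nonneg_right this (by positivity)).trans (le_of_eq ?_)
  rw [show r + 1 = 2 + (r - 1) by ring, Real.rpow_add' R0 (by linarith)]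
  simp [sq]

variable [DecidableEq W]

lemma pow32_le {A : Matrix W W ℝ} (hs : ∀ x y, A x y = A y x) (h0 : ∀ x y, 0 ≤ A x y) {R : ℝ}
    (hR : ∀ x, ∑ y, A x y ^ (1 + (31 : ℝ)⁻¹) ≤ R) (x : W) : (A ^ 32) x x ≤ R ^ 31 := by
  have R0 : 0 ≤ R := (sum_nonneg fun y _ => Real.rpow_nonneg (h0 x y) _).trans (hR x)
  have S : ∀ {B : Matrix W W ℝ}, (∀ x y, B x y = B y x) → ∀ x y, (B * B) x y = (B * B) y x :=
    fun hB x y => by
      simp only [mul_apply]; exact sum_congr rfl fun z _ => by rw [hB x z, hB z y, mul_comm]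
  have N : ∀ {B : Matrix W W ℝ}, (∀ x y, 0 ≤ B x y) → ∀ x y, 0 ≤ (B * B) x y :=
    fun hB x y => sum_nonneg fun z _ => mul_nonneg (hB _ _) (hB _ _)
  have a1 := young_step hs h0 (r := 16 / 15) (by norm_num) (by norm_num) hR
  have a2 := young_step (S hs) (N h0) (r := 8 / 7) (by norm_num) (by norm_num) a1
  have a3 := young_step (S (S hs)) (N (N h0)) (r := 4 / 3) (by norm_num) (by norm_num) a2
  have a4 := young_step (S (S (S hs))) (N (N (N h0))) (r := 2) (by norm_num) (by norm_num) a3 x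
  simp only [← Real.rpow_mul R0] at a4
  norm_num at a4
  have s4 := S (S (S (S hs)))
  simp only [← sq, ← pow_mul] at a4 s4
  rw [show 32 = 2 * 2 * 2 * 2 + 2 * 2 * 2 * 2 by norm_num, pow_add, mul_apply]
  simpa only [s4 _ x, ← sq] using a4

omit [DecidableEq W] in
lemma trace_amgm (X Y : Matrix W W ℝ) :
    (X * Y).trace ≤ ((Xᵀ * X).trace + (Yᵀ * Y).trace) / 2 := by
  rw [trace_mul_comm Xᵀ]
  simp only [trace, Matrix.diag, mul_apply, transpose_apply, ← sum_add_distrib, sum_div]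
  exact sum_le_sum fun i _ => sum_le_sum fun j _ => by nlinarith [sq_nonneg (X i j - Y j i)]

lemma trace_pow_comm (X Y : Matrix W W ℝ) (k : ℕ) : ((X * Y) ^ k).trace = ((Y * X) ^ k).trace := by
  cases k with
  | zero => simp
  | succ k => rw [pow_succ, ← mul_assoc, mul_pow_mul, trace_mul_comm, ← mul_assoc, ← pow_succ']

lemma trace_dyadic (a : ℕ) :
    (∀ U V : Matrix W W ℝ, Uᵀ = U → Vᵀ = V → ((U * V) ^ 2 ^ a).trace ≤
      (((U * U) ^ 2 ^ a).trace + ((V * V) ^ 2 ^ a).trace) / 2) ∧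
    ∀ Z : Matrix W W ℝ, ((Z * Z) ^ 2 ^ a).trace ≤ ((Zᵀ * Z) ^ 2 ^ a).trace := by
  induction a with
  | zero =>
    refine ⟨fun U V hU hV => ?_, fun Z => ?_⟩
    · simpa [hU, hV] using trace_amgm U V
    · simpa using trace_amgm Z Z
  | succ a ih =>
    have e : ∀ X : Matrix W W ℝ, X ^ 2 ^ (a + 1) = (X * X) ^ 2 ^ a := fun X => by
      rw [pow_succ' 2, pow_mul, sq]
    simp only [e]
    refine ⟨fun U V hU hV => (ih.2 _).trans ?_, fun Z => (ih.2 _).trans ?_⟩
    · rw [transpose_mul, hU, hV, mul_assoc V, trace_pow_comm,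
        show U * (U * V) * V = U * U * (V * V) by simp only [mul_assoc]]
      exact ih.1 _ _ (by rw [transpose_mul, hU]) (by rw [transpose_mul, hV])
    · rw [transpose_mul, mul_assoc Zᵀ, trace_pow_comm,
        show Zᵀ * (Z * Z) * Zᵀ = Zᵀ * Z * (Z * Zᵀ) by simp only [mul_assoc]]
      refine (ih.1 _ _ (by simp) (by simp)).trans (le_of_eq ?_)
      simp only [← sq, ← pow_mul, trace_pow_comm Z]
      ring

lemma trace_pow_le (a b : ℕ) (Z : Matrix W W ℝ) :
    (((Z ^ 2 ^ b)ᵀ * Z ^ 2 ^ b) ^ 2 ^ a).trace ≤ ((Zᵀ * Z) ^ 2 ^ (a + b)).trace := by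
  induction b generalizing a with
  | zero => simp
  | succ b ih =>
    refine le_trans ?_ ((ih (a + 1)).trans (le_of_eq (by rw [add_right_comm, add_assoc])))
    rw [pow_succ, pow_mul, sq]
    generalize Z ^ 2 ^ b = Y
    rw [transpose_mul, mul_assoc Yᵀ, trace_pow_comm,
      show Yᵀ * (Y * Y) * Yᵀ = Yᵀ * Y * (Y * Yᵀ) by simp only [mul_assoc]]
    refine ((trace_dyadic a).1 _ _ (by simp) (by simp)).trans (le_of_eq ?_)
    rw [pow_succ' 2]
    simp only [← sq, ← pow_mul, trace_pow_comm Y]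
    ring

end Vale.Agent.P162
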