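import Vale.Agent.P162.EnExp
import Vale.Agent.P162.Gram
import Vale.Agent.P162.Trace
import Vale.Agent.P162.Stage2

namespace Vale.Agent.P162

open Finset Equiv RealInnerProductSpace NormedSpace Matrix

section rep
variable {G W : Type*} [Group G] [Fintype W] [DecidableEq W]

/-- Permutation representation. -/
noncomputable def prep (e : G →* Perm W) : G →* (EuclideanSpace ℝ W →L[ℝ] EuclideanSpace ℝ W) where
  toFun g := toEuclideanCLM (𝕜 := ℝ) (permMatrixHom (e g))
  map_one' := by simp only [map_one]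
  map_mul' g h := by simp only [map_mul]

lemma prep_apply (e : G →* Perm W) (g : G) (v : EuclideanSpace ℝ W) (x : W) :
    prep e g v x = v (e g⁻¹ x) := by
  change (WithLp.ofLp (toEuclideanCLM (𝕜 := ℝ) (permMatrixHom (e g)) v)) x = _
  rw [ofLp_toEuclideanCLM, permMatrixHom_apply, permMatrix_mulVec, map_inv]; rfl

lemma hs_trace (A : EuclideanSpace ℝ W →L[ℝ] EuclideanSpace ℝ W) (b : ℕ) :
    ∑ y, ‖(A ^ 2 ^ b) (EuclideanSpace.single y 1)‖ ^ 2 ≤
      ((Matrix.of fun x y => ∑ z, A (EuclideanSpace.single x 1) z *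
        A (EuclideanSpace.single y 1) z) ^ 2 ^ b).trace := by
  obtain ⟨Z, rfl⟩ : ∃ Z : Matrix W W ℝ, toEuclideanCLM (𝕜 := ℝ) Z = A :=
    (toEuclideanCLM (𝕜 := ℝ) (n := W)).surjective A
  have e : ∀ (Z : Matrix W W ℝ) y z, toEuclideanCLM (𝕜 := ℝ) Z (EuclideanSpace.single y 1) z = Z z y :=
    fun Z y z => by
      rw [ofLp_toEuclideanCLM]; simp
  have := trace_pow_le 0 b Z
  rw [pow_zero, pow_one, zero_add] at this
  rw [← map_pow]
  simp only [EuclideanSpace.real_norm_sq_eq, e]
  refine le_trans (le_of_eq ?_) this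
  simp only [trace, Matrix.diag, mul_apply, transpose_apply, sq]

end rep

variable {P : Type*} [Fintype P] [DecidableEq P]

omit [Fintype P] [DecidableEq P] in
lemma prep_orth {W : Type*} [Fintype W] [DecidableEq W] (e : Perm P →* Perm W) :
    Orth (prep e) := fun g v w => by
  simp only [PiLp.inner_apply, prep_apply]
  exact Equiv.sum_comp (e g⁻¹) fun x => ⟪v x, w x⟫

/-- Left regular representation. -/
noncomputable def rL := prep (MulAction.toPermHom (Perm P) (Perm P))

/-- Right regular representation. -/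
noncomputable def rR := prep (G := Perm P) (W := Perm P)
  { toFun g := Equiv.mulRight g⁻¹, map_one' := by ext1; simp, map_mul' g h := by ext1; simp [mul_assoc] }

lemma rL_apply (g : Perm P) (v : EuclideanSpace ℝ (Perm P)) (x : Perm P) :
    rL g v x = v (g⁻¹ * x) := prep_apply _ g v x

lemma rR_apply (g : Perm P) (v : EuclideanSpace ℝ (Perm P)) (x : Perm P) :
    rR g v x = v (x * g) := (prep_apply _ g v x).trans (by simp)

lemma rL_orth : Orth (rL (P := P)) := prep_orth _
lemma rR_orth : Orth (rR (P := P)) := prep_orth _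

lemma rR_rL (g h : Perm P) : Commute (rR g) (rL h) := by
  ext v x; simp only [mul_apply_eq_comp, rL_apply, rR_apply, mul_assoc]

lemma Cop_eq : Cop (rL (P := P)) univ = Cop rR univ := by
  ext v x
  simp only [Cop, _root_.sum_apply, _root_.sub_apply, one_apply_eq_self, WithLp.ofLp_sum,
    Finset.sum_apply, PiLp.sub_apply, rL_apply, rR_apply, swap_inv, mul_swap_eq_swap_mul]
  exact (Equiv.sum_comp x _).symm.trans (sum_congr rfl fun a _ => (Equiv.sum_comp x _).symm)

lemma Uop_single (T : Finset P) (y w : Perm P) :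
    Uop rR T (EuclideanSpace.single y 1) w = (cX T)⁻¹ * ind (agr T w y) := by
  simp only [Uop_apply, PiLp.smul_apply, WithLp.ofLp_sum, Finset.sum_apply, rR_apply,
    PiLp.single_apply, smul_eq_mul, ← eq_inv_mul_iff_mul_eq, mul_ite, mul_one, mul_zero,
    sum_ite_eq', mem_univ, if_true]
  simp [agr, eq_symm_apply]

lemma card_le_cX (T : Finset P) :
    (Fintype.card (Perm P) : ℝ) ≤ Fintype.card P ^ T.card * cX T := by
  have : (Fintype.card (Perm P) : ℝ) = ∑ φ : T → P, ∑ g : Perm P, ind (φ = fun p => g p.1) := by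
    rw [sum_comm]; simp [sum_ind, filter_eq']
  rw [this]
  refine (sum_le_card_nsmul _ _ (cX T) fun φ _ => ?_).trans (by simp)
  by_cases h : ∃ g : Perm P, φ = fun p => g p.1
  · obtain ⟨g, rfl⟩ := h
    rw [← sum_agr T g]
    simp [agr, funext_iff]
  · push Not at h
    simp [ind_neg (h _), (cX_pos T).le]

lemma cX_image (T : Finset P) (g : Perm P) : cX (T.image g) = cX T :=
  (Fintype.sum_equiv (MulAut.conj g).toEquiv _ _ fun z => by simp [agr]).symm

variable {ι : Type*} [DecidableEq ι] [Fintype ι]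

lemma Bl_apply {l : List ι} (hl : l.Nodup) (v : EuclideanSpace ℝ (Perm (ι → Bool))) (x) :
    Bl rL l univ v x = av fun ω => v ((net l ω)⁻¹ * x) := by
  simp [Bl_univ hl, av, rL_apply]

lemma Bl_comm (l : List ι) (g : Perm (ι → Bool)) : Commute (rR g) (Bl rL l univ) :=
  (Gen_comm (Bl_mem (by simp)) fun _ _ => (rR_rL _ _).symm).symm

theorem hs_bound {l : List ι} (hl : l.Nodup) (hc : Fintype.card (ι → Bool) = 2 ^ l.length)
    (T : Finset (ι → Bool)) {η : ℝ} (h0 : 0 ≤ η)
    (hη : ∀ i < l.length, (127 / 128 : ℝ) ^ i * min 1 ((T.card : ℝ) / 2 ^ (l.length - 1 - i)) ≤ η) :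
    ∑ y, ‖(Bl rL l univ ^ 32) (Uop rR T (EuclideanSpace.single y 1))‖ ^ 2 ≤
      Real.exp (31 * C0 * T.card * η) := by
  have id : Uop rR T * Uop rR T = Uop (rR (P := ι → Bool)) T := by
    ext1 v; exact Uop_of_mem (Uop_mem T v)
  have e1 : Bl rL l univ ^ 32 * Uop rR T = (Bl rL l univ * Uop rR T) ^ 32 := by
    rw [(Uop_comm (Bl_comm l) T).symm.mul_pow, IsIdempotentElem.pow_succ_eq 31 id]
  refine le_trans (le_of_eq (sum_congr rfl fun y _ =>
    congrArg (fun A => ‖A (EuclideanSpace.single y 1)‖ ^ 2) e1)) ((hs_trace _ 5).trans ?_)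
  have c0 := cX_pos T
  set n : ℝ := (2 ^ l.length) ^ T.card with hn
  have n0 : 0 < n := by positivity
  have en : ∀ x y, ∑ z, (Bl rL l univ * Uop rR T) (EuclideanSpace.single x 1) z *
      (Bl rL l univ * Uop rR T) (EuclideanSpace.single y 1) z =
      (cX T)⁻¹ * pX l (T.image x) (y * x⁻¹) := fun x y => by
    simp only [mul_apply_eq_comp, Bl_apply hl, Uop_single, ← av_mul_right, ← av_mul_left, pX,
      ← av_sum]
    congr 1; ext ω; congr 1; ext ω'
    have := sum_class (X := T) (ψ := fun z => ind (agr T ((net l ω)⁻¹ * z) y))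
      (fun z z' h => by simp only [agr, Perm.mul_apply] at h ⊢; simp +contextual [h]) (net l ω' * x)
    rw [show agr (T.image x) (ben l ω ω') (y * x⁻¹) = agr T ((net l ω)⁻¹ * (net l ω' * x)) y by
      simp [agr, ben], ← inv_mul_cancel_left₀ c0.ne' (ind _), ← this, mul_sum, mul_sum]
    refine sum_congr rfl fun z _ => ?_
    rw [show agr T ((net l ω')⁻¹ * z) x = agr T (net l ω' * x) z by
      simp only [agr, Perm.mul_apply, Perm.inv_eq_iff_eq, eq_comm (a := z _)]]
    ring
  have key := pow32_le (A := Matrix.of fun x y => ∑ z, (Bl rL l univ * Uop rR T)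
    (EuclideanSpace.single x 1) z * (Bl rL l univ * Uop rR T) (EuclideanSpace.single y 1) z)
    (R := (n * cX T)⁻¹ ^ (31 : ℝ)⁻¹ * Real.exp (C0 * T.card * η))
    (fun x y => by simp only [of_apply, mul_comm]) (fun x y => by
      rw [of_apply, en]; exact mul_nonneg (by positivity) (pX_nonneg _ _ _)) fun x => by
    have hX : (T.image x).card = T.card := card_image_of_injective _ x.injective
    have m := moment hl (T.image x) h0 (hX ▸ hη)
    rw [hX, ← hn] at m
    refine le_trans (le_of_eq ?_) (mul_le_mul_of_nonneg_left m (by positivity))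
    simp only [of_apply, en]
    rw [show ∑ y, ((cX T)⁻¹ * pX l (T.image x) (y * x⁻¹)) ^ (1 + (31 : ℝ)⁻¹) = _ from
      Equiv.sum_comp (Equiv.mulRight x⁻¹) fun y => ((cX T)⁻¹ * pX l (T.image x) y) ^ (1 + (31 : ℝ)⁻¹)]
    have p0 := pX_nonneg l (T.image x)
    simp only [Real.rpow_one_add' (mul_nonneg (inv_pos.2 c0).le (p0 _))
      (show (1 : ℝ) + 31⁻¹ ≠ 0 by norm_num)]
    conv_lhs => enter [2, y, 1]; rw [pX]
    simp only [← av_mul_right, ← av_mul_left, ← av_sum]
    congr 1; ext ω; congr 1; ext ω'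
    have := sum_class (X := T.image x) (ψ := fun y => ((cX T)⁻¹ * pX l (T.image x) y) ^ (31 : ℝ)⁻¹)
      (fun z z' h => by simp only [pX, agr_congr h]) (ben l ω ω')
    simp only [mul_assoc, ← mul_sum, this, cX_image]
    rw [inv_mul_cancel_left₀ c0.ne', ← Real.mul_rpow (by positivity) (mul_nonneg n0.le (p0 _))]
    congr 1; field_simp
  refine (sum_le_card_nsmul _ _ _ fun x _ => key x).trans ?_
  have := card_le_cX T
  rw [hc] at this
  push_cast at this
  rw [mul_pow, ← Real.exp_nat_mul, ← Real.rpow_natCast, ← Real.rpow_mul (by positivity),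
    nsmul_eq_mul, card_univ, ← mul_assoc, Nat.cast_ofNat, inv_mul_cancel₀ (by norm_num),
    Real.rpow_one, ← mul_assoc, ← mul_assoc]
  exact mul_le_of_le_one_left (Real.exp_pos _).le (mul_inv_le_one_of_le₀ this (by positivity))

end Vale.Agent.P162
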