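import Vale.Agent.P162.LemB

namespace Vale.Agent.P162

open Finset Equiv Classical

lemma av_jensen {Γ : Type*} [Fintype Γ] [Nonempty Γ] {ε : ℝ} (hε : 0 ≤ ε) (q : Γ → ℝ)
    (V : Γ → Prop) (hq : ∀ x, 0 ≤ q x) (hV : ∀ x, ¬ V x → q x = 0) :
    av q ^ (1 + ε) ≤ av (fun x => ind (V x)) ^ ε * av fun x => q x ^ (1 + ε) := by
  have hN : (0 : ℝ) < (Fintype.card Γ : ℝ)⁻¹ := by
    have := Fintype.card_pos (α := Γ); positivity
  have e : ∑ x, q x = ∑ x with V x, q x :=
    (sum_subset (filter_subset _ _) fun x _ hx => hV x (by simpa using hx)).symm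
  have h := Real.rpow_sum_le_const_mul_sum_rpow_of_nonneg (univ.filter V) (p := 1 + ε) (f := q)
    (by linarith) fun x _ => hq x
  have h2 : ∑ x with V x, q x ^ (1 + ε) ≤ ∑ x, q x ^ (1 + ε) :=
    sum_le_sum_of_subset_of_nonneg (filter_subset _ _) fun x _ _ => Real.rpow_nonneg (hq x) _
  simp only [av, smul_eq_mul, sum_ind, e]
  rw [Real.mul_rpow hN.le (sum_nonneg fun x _ => hq x), Real.mul_rpow hN.le (by positivity),
    Real.rpow_add hN, Real.rpow_one]
  rw [add_sub_cancel_left] at h
  have := h.trans (mul_le_mul_of_nonneg_left h2 (by positivity))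
  calc _ ≤ (Fintype.card Γ : ℝ)⁻¹ * (Fintype.card Γ : ℝ)⁻¹ ^ ε * _ :=
        mul_le_mul_of_nonneg_left this (by positivity)
    _ = _ := by ring

section cls
variable {P : Type*} [Fintype P] [DecidableEq P]

/-- Agreement on a set of points. -/
def agr (X : Finset P) (g g' : Perm P) : Prop := ∀ x ∈ X, g x = g' x

/-- Size of an agreement class. -/
noncomputable def cX (X : Finset P) : ℝ := ∑ z : Perm P, ind (agr X 1 z)

lemma cX_pos (X : Finset P) : 0 < cX X :=
  sum_pos' (fun _ _ => ind_nonneg _) ⟨1, mem_univ _,
    by rw [ind_pos (p := agr X 1 1) fun _ _ => rfl]; norm_num⟩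

lemma sum_agr (X : Finset P) (g : Perm P) : ∑ y, ind (agr X g y) = cX X := by
  rw [cX, ← Equiv.sum_comp (Equiv.mulLeft g)]
  simp [agr]

lemma sum_class {X : Finset P} {ψ : Perm P → ℝ} (hψ : ∀ y y', agr X y y' → ψ y = ψ y')
    (g : Perm P) : ∑ y, ind (agr X g y) * ψ y = cX X * ψ g := by
  rw [← sum_agr X g, sum_mul]
  refine sum_congr rfl fun y _ => ?_
  by_cases h : agr X g y
  · rw [hψ _ _ h]
  · simp [ind_neg h]

omit [Fintype P] [DecidableEq P] in
lemma agr_congr {X : Finset P} {y y' : Perm P} (h : agr X y y') (g : Perm P) :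
    agr X g y = agr X g y' :=
  propext (forall₂_congr fun x hx => by rw [h x hx])

end cls

variable {ι : Type*} [DecidableEq ι] [Fintype ι]

/-- Probability that the Benes network agrees with `y` on `X`. -/
noncomputable def pX (l : List ι) (X : Finset (ι → Bool)) (y : Perm (ι → Bool)) : ℝ :=
  av fun ω => av fun ω' => ind (agr X (ben l ω ω') y)

/-- Probability that outer layers are compatible with `y` on `X`. -/
noncomputable def vv (a : ι) (X : Finset (ι → Bool)) (y : Perm (ι → Bool)) : ℝ :=
  av fun s' => av fun s => ind (∀ x ∈ X, lay a s (y x) a = lay a s' x a)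

lemma vv_nonneg (a : ι) (X : Finset (ι → Bool)) (y : Perm (ι → Bool)) : 0 ≤ vv a X y :=
  av_nonneg fun _ => av_nonneg fun _ => ind_nonneg _

lemma pX_nonneg (l : List ι) (X : Finset (ι → Bool)) (y : Perm (ι → Bool)) : 0 ≤ pX l X y :=
  av_nonneg fun _ => av_nonneg fun _ => ind_nonneg _

/-- Product of the compatibility probabilities along the network. -/
noncomputable def Ph : List ι → Finset (ι → Bool) → St ι → St ι → ℝ
  | [], _, _, _ => 1
  | a :: l, X, ω, ω' => vv a X (ben (a :: l) ω ω') * Ph l (X.image (lay a (ω' a))) ω ω'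

lemma Ph_nonneg (l : List ι) (X : Finset (ι → Bool)) (ω ω' : St ι) : 0 ≤ Ph l X ω ω' := by
  induction l generalizing X with
  | nil => exact zero_le_one
  | cons a l ih => exact mul_nonneg (vv_nonneg _ _ _) (ih _)

lemma Ph_congr {l : List ι} (X : Finset (ι → Bool)) {ω ω' τ τ' : St ι} (h : ∀ a ∈ l, ω a = τ a)
    (h' : ∀ a ∈ l, ω' a = τ' a) : Ph l X ω ω' = Ph l X τ τ' := by
  induction l generalizing X with
  | nil => rfl
  | cons a l ih =>
    simp only [Ph, ben, net_congr h, net_congr h', h' a (by simp)]
    rw [ih _ (fun b hb => h b (by simp [hb])) fun b hb => h' b (by simp [hb])]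

theorem pX_rec {l : List ι} (hl : l.Nodup) {ε : ℝ} (hε : 0 < ε) (X : Finset (ι → Bool))
    (F : Perm (ι → Bool) → ℝ) (hF : ∀ y, 0 ≤ F y) (hc : ∀ y y', agr X y y' → F y = F y') :
    av (fun ω => av fun ω' => pX l X (ben l ω ω') ^ ε * F (ben l ω ω')) ≤
      av fun ω => av fun ω' => Ph l X ω ω' ^ ε * F (ben l ω ω') := by
  induction l generalizing X F with
  | nil => simp [pX, Ph, ben, net, agr, ind, av_const]
  | cons a l ih =>
    rw [List.nodup_cons] at hl
    have hq : ∀ s s' y, (av fun ω => av fun ω' =>
        ind (agr X (lay a s * ben l ω ω' * lay a s') y)) =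
        pX l (X.image (lay a s')) (lay a s * y * lay a s') := fun s s' y => by
      unfold pX; congr 1; ext ω; congr 1; ext ω'; congr 1
      simp only [agr, forall_mem_image, Perm.mul_apply, lay_lay]
      refine propext (forall₂_congr fun x _ => ⟨fun h => by rw [← h, lay_lay], fun h => ?_⟩)
      rw [h, lay_lay]
    have hp : ∀ y, pX (a :: l) X y ^ (1 + ε) ≤ vv a X y ^ ε * av fun s' => av fun s =>
        pX l (X.image (lay a s')) (lay a s * y * lay a s') ^ (1 + ε) := fun y => by
      have := av_jensen hε.le (fun z : ((ι → Bool) → Bool) × ((ι → Bool) → Bool) =>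
        pX l (X.image (lay a z.1)) (lay a z.2 * y * lay a z.1))
        (fun z => ∀ x ∈ X, lay a z.2 (y x) a = lay a z.1 x a) (fun z => pX_nonneg _ _ _)
        fun z hz => by
          have : ∀ ω ω', ¬ agr (X.image (lay a z.1)) (ben l ω ω') (lay a z.2 * y * lay a z.1) :=
            fun ω ω' h => hz fun x hx => by
              have := h _ (mem_image_of_mem _ hx)
              simp only [Perm.mul_apply, lay_lay] at this
              rw [← this, ben_bit hl.1]
          simp only [pX, ind_neg (this _ _), av_const]
      rw [av_prod, av_prod, av_prod] at this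
      rw [pX, av_ben_cons hl.1 fun g => ind (agr X g y)]
      simpa only [hq, vv] using this
    have hcv : ∀ y y', agr X y y' → vv a X y = vv a X y' := fun y y' h => by
      unfold vv; congr 1; ext s'; congr 1; ext s; congr 1
      exact propext (forall₂_congr fun x hx => by rw [h x hx])
    have key : ∀ (Z : St ι → St ι → Perm (ι → Bool)) (ψ : Perm (ι → Bool) → ℝ),
        (∀ y y', agr X y y' → ψ y = ψ y') → cX X * (av fun ω => av fun ω' => ψ (Z ω ω')) =
        ∑ y, (av fun ω => av fun ω' => ind (agr X (Z ω ω') y)) * ψ y := fun Z ψ hψ => by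
      simp only [← av_mul_right, ← av_sum, sum_class hψ, av_mul_left]
    refine le_of_mul_le_mul_left ?_ (cX_pos X)
    rw [key _ (fun y => pX (a :: l) X y ^ ε * F y) fun y y' h => by
      simp only [pX, agr_congr h, hc _ _ h]]
    have e1 : ∀ x : ℝ, 0 ≤ x → x ^ (1 + ε) = x * x ^ ε := fun x hx => by
      rw [Real.rpow_add' hx (by linarith), Real.rpow_one]
    calc _ = ∑ y, pX (a :: l) X y ^ (1 + ε) * F y :=
          sum_congr rfl fun y _ => by rw [e1 _ (pX_nonneg _ _ _), mul_assoc]; rfl
      _ ≤ ∑ y, (vv a X y ^ ε * av fun s' => av fun s =>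
          pX l (X.image (lay a s')) (lay a s * y * lay a s') ^ (1 + ε)) * F y :=
          sum_le_sum fun y _ => mul_le_mul_of_nonneg_right (hp y) (hF y)
      _ = av fun s' => av fun s => cX X * av fun ω => av fun ω' =>
          pX l (X.image (lay a s')) (ben l ω ω') ^ ε *
            (vv a X (lay a s * ben l ω ω' * lay a s') ^ ε *
              F (lay a s * ben l ω ω' * lay a s')) := by
          simp only [← av_mul_left (vv a X _ ^ ε), ← av_mul_right (F _), ← av_sum]
          congr 1; ext s'; congr 1; ext s
          have := key (fun ω ω' => lay a s * ben l ω ω' * lay a s') (fun y =>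
            pX l (X.image (lay a s')) (lay a s * y * lay a s') ^ ε * (vv a X y ^ ε * F y))
            fun y y' h => by simp only [← hq, agr_congr h, hc _ _ h, hcv _ _ h]
          have e2 : ∀ g, lay a s * (lay a s * g * lay a s') * lay a s' = g := fun g =>
            Equiv.ext fun p => by simp
          simp only [e2, hq] at this
          rw [this]
          exact sum_congr rfl fun y _ => by rw [e1 _ (pX_nonneg _ _ _)]; ring
      _ ≤ av fun s' => av fun s => cX X * av fun ω => av fun ω' =>
          Ph l (X.image (lay a s')) ω ω' ^ ε *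
            (vv a X (lay a s * ben l ω ω' * lay a s') ^ ε *
              F (lay a s * ben l ω ω' * lay a s')) :=
          av_le_av fun s' => av_le_av fun s => mul_le_mul_of_nonneg_left (ih hl.2 _
            (fun g => vv a X (lay a s * g * lay a s') ^ ε * F (lay a s * g * lay a s'))
            (fun g => mul_nonneg (Real.rpow_nonneg (vv_nonneg _ _ _) _) (hF _)) fun y y' h => by
              have : agr X (lay a s * y * lay a s') (lay a s * y' * lay a s') := fun x hx => by
                simp only [Perm.mul_apply, h _ (mem_image_of_mem _ hx)]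
              rw [hc _ _ this, hcv _ _ this]) (cX_pos X).le
      _ = _ := by
          simp only [av_mul_left]
          congr 1
          conv_rhs => rw [av_update a, av_comm]
          conv_lhs => rw [av_comm]
          congr 1; ext s
          rw [av_comm]
          congr 1; ext ω
          conv_rhs => rw [av_update a, av_comm]
          congr 1; ext s'; congr 1; ext ω'
          have u : ∀ (τ : St ι) x, ∀ b ∈ l, Function.update τ a x b = τ b := fun τ x b hb =>
            Function.update_of_ne (by rintro rfl; exact hl.1 hb) _ _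
          simp only [Ph, ben, net, Function.update_self, net_congr (u ω s), net_congr (u ω' s'),
            Ph_congr _ (u ω s) (u ω' s'), mul_inv_rev, lay_inv, mul_assoc]
          rw [Real.mul_rpow (vv_nonneg _ _ _) (Ph_nonneg _ _ _ _)]
          ring

end Vale.Agent.P162
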