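import Vale.Agent.P162.Basic

namespace Vale.Agent.P162

open Finset Equiv Classical

/-- Indicator of a proposition. -/
noncomputable def ind (p : Prop) : ℝ := if p then 1 else 0

lemma ind_nonneg (p : Prop) : 0 ≤ ind p := by unfold ind; split_ifs <;> norm_num
lemma ind_le_one (p : Prop) : ind p ≤ 1 := by unfold ind; split_ifs <;> norm_num
lemma ind_pos {p : Prop} (h : p) : ind p = 1 := if_pos h
lemma ind_neg {p : Prop} (h : ¬ p) : ind p = 0 := if_neg h
lemma ind_and (p q : Prop) : ind (p ∧ q) = ind p * ind q := by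
  by_cases hp : p <;> by_cases hq : q <;> simp [ind, hp, hq]
lemma ind_mono {p q : Prop} (h : p → q) : ind p ≤ ind q := by
  by_cases hp : p
  · rw [ind_pos hp, ind_pos (h hp)]
  · rw [ind_neg hp]; exact ind_nonneg q
lemma sum_ind {α : Type*} (s : Finset α) (p : α → Prop) [DecidablePred p] :
    ∑ a ∈ s, ind (p a) = (s.filter p).card := by
  rw [card_filter, Nat.cast_sum]
  exact sum_congr rfl fun a _ => by by_cases h : p a <;> simp [ind, h]

lemma av_coll {Ω Ξ : Type*} [Fintype Ω] [Fintype Ξ] (f g : Ω → Ξ) :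
    av (fun ω => av fun ω' => ind (f ω = g ω')) =
      ∑ ξ, av (fun ω => ind (f ω = ξ)) * av fun ω => ind (g ω = ξ) := by
  simp only [← av_mul_right]
  simp only [← av_mul_left, ← av_sum]
  congr 1; ext ω; congr 1; ext ω'
  rw [sum_eq_single (f ω) (fun b _ hb => by rw [ind_neg hb.symm, zero_mul]) (by simp)]
  rw [ind_pos rfl, one_mul, eq_comm (a := f ω)]

lemma av_coll_le {Ω Ξ : Type*} [Fintype Ω] [Fintype Ξ] (f g : Ω → Ξ) :
    av (fun ω => av fun ω' => ind (f ω = g ω')) ≤
      (av (fun ω => av fun ω' => ind (f ω = f ω')) +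
        av fun ω => av fun ω' => ind (g ω = g ω')) / 2 := by
  rw [av_coll, av_coll, av_coll, ← sum_add_distrib, sum_div]
  exact sum_le_sum fun ξ _ => by
    nlinarith [sq_nonneg (av (fun ω => ind (f ω = ξ)) - av fun ω => ind (g ω = ξ))]

lemma supp_fix {P β : Type*} [Fintype P] [Zero β] (α : Perm P) (S : P → Prop) (δ : P → β)
    (h : ∀ p, δ p = if S (α p) then 0 else δ (α p)) : δ ∘ α = δ ∧ ∀ p, S p → δ p = 0 := by
  set D := univ.filter fun p => δ p ≠ 0 with hD
  have h1 : ∀ p ∈ D, ¬ S (α p) ∧ δ (α p) = δ p := fun p hp => by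
    have := (mem_filter.1 hp).2
    have e := h p
    split_ifs at e with hs
    · exact (this e).elim
    · exact ⟨hs, e.symm⟩
  have h2 : D.image α = D := eq_of_subset_of_card_le (fun q hq => by
    obtain ⟨p, hp, rfl⟩ := mem_image.1 hq
    exact mem_filter.2 ⟨mem_univ _, (h1 p hp).2 ▸ (mem_filter.1 hp).2⟩)
    (card_image_of_injective _ α.injective).ge
  refine ⟨funext fun p => ?_, fun q hq => ?_⟩
  · by_cases hp : p ∈ D
    · exact (h1 p hp).2
    · have : α p ∉ D := fun h' => by
        rw [← h2] at h'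
        obtain ⟨p', hp', e⟩ := mem_image.1 h'
        exact hp (α.injective e ▸ hp')
      simp only [hD, mem_filter, mem_univ, true_and, not_not] at hp this
      rw [Function.comp_apply, hp, this]
  · by_contra hne
    have : q ∈ D.image α := h2.symm ▸ mem_filter.2 ⟨mem_univ _, hne⟩
    obtain ⟨p, hp, rfl⟩ := mem_image.1 this
    exact (h1 p hp).1 hq

lemma fiber_sum {A B : Type*} [AddCommGroup A] [AddCommGroup B] (s : Finset A) (t : Finset B)
    (F : Finset A) (r : A →+ B) (e : A → A) (he : Function.Injective e)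
    (hsub : ∀ x ∈ s, ∀ y ∈ s, x - y ∈ s) (hr : ∀ x ∈ s, r x ∈ t)
    (hk : ∀ x ∈ s, r x = 0 → e x ∈ F) (m : B → ℝ) (hm : ∀ b, 0 ≤ m b) :
    ∑ x ∈ s, m (r x) ≤ F.card * ∑ b ∈ t, m b := by
  rw [← sum_fiberwise_of_maps_to hr, mul_sum]
  refine sum_le_sum fun b _ => ?_
  rw [sum_congr rfl fun x hx => congrArg m (mem_filter.1 hx).2, sum_const, nsmul_eq_mul]
  refine mul_le_mul_of_nonneg_right ?_ (hm b)
  rcases (s.filter fun x => r x = b).eq_empty_or_nonempty with h | ⟨y, hy⟩
  · simp [h]
  · rw [mem_filter] at hy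
    exact_mod_cast card_le_card_of_injOn (fun x => e (x - y)) (fun x hx => by
      rw [coe_filter] at hx
      exact hk _ (hsub x hx.1 y hy.1) (by rw [map_sub, hx.2, hy.2, sub_self]))
      fun x _ x' _ h => sub_left_injective (he h)

variable {ι : Type*} [DecidableEq ι] [Fintype ι]

lemma switch_prod {γ : Type*} [Fintype γ] [Nonempty γ] (a : ι) (g : (ι → Bool) → γ → ℝ)
    (c : (ι → Bool) → ℝ) (hg : ∀ p x, 0 ≤ g p x) (h1 : ∀ p, av (g p) ≤ c p)
    (h2 : ∀ p, av (fun x => g p x * g (fl a p) x) ≤ c p * c (fl a p)) (I : Finset (ι → Bool)) :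
    av (fun s : (ι → Bool) → γ => ∏ p ∈ I, g p (s (rp a p))) ≤ ∏ p ∈ I, c p := by
  have e : ∀ s : (ι → Bool) → γ, ∏ p ∈ I, g p (s (rp a p)) =
      ∏ r, ∏ p ∈ I with rp a p = r, g p (s r) := fun s => by
    rw [← prod_fiberwise I (rp a)]
    exact prod_congr rfl fun r _ => prod_congr rfl fun p hp => by rw [(mem_filter.1 hp).2]
  simp only [e]
  rw [av_pi fun r x => ∏ p ∈ I with rp a p = r, g p x, ← prod_fiberwise I (rp a)]
  refine prod_le_prod (fun r _ => av_nonneg fun x => prod_nonneg fun p _ => hg p x)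
    fun r _ => ?_
  rcases (I.filter fun p => rp a p = r).eq_empty_or_nonempty with h | ⟨p, hp⟩
  · simp [h, av_const]
  rw [mem_filter] at hp
  have hne : p ≠ fl a p := fun h => by simpa using congrFun h a
  by_cases hq : fl a p ∈ I
  · have : (I.filter fun p => rp a p = r) = {p, fl a p} := by
      ext q
      rw [mem_filter, mem_insert, mem_singleton, ← hp.2, eq_comm, rp_eq_iff]
      exact ⟨fun h => h.2, fun h => ⟨h.elim (· ▸ hp.1) (· ▸ hq), h⟩⟩
    simp only [this, prod_pair hne]
    exact h2 p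
  · have : (I.filter fun p => rp a p = r) = {p} := by
      ext q
      rw [mem_filter, mem_singleton, ← hp.2, eq_comm, rp_eq_iff]
      exact ⟨fun h => h.2.resolve_right fun e => hq (e ▸ h.1), fun h => ⟨h ▸ hp.1, Or.inl h⟩⟩
    simp only [this, prod_singleton]
    exact h1 p

/-- The random Benes network. -/
def ben (l : List ι) (ω ω' : St ι) : Perm (ι → Bool) := (net l ω)⁻¹ * net l ω'

omit [Fintype ι] in
lemma ben_bit {l : List ι} {a : ι} (h : a ∉ l) (ω ω' : St ι) (p : ι → Bool) :
    ben l ω ω' p a = p a := by rw [ben, Perm.mul_apply, net_inv_bit h, net_bit h]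

lemma av_ben_cons {a : ι} {l : List ι} (h : a ∉ l) (F : Perm (ι → Bool) → ℝ) :
    av (fun ω => av fun ω' => F (ben (a :: l) ω ω')) =
      av fun s' => av fun s => av fun ω => av fun ω' => F (lay a s * ben l ω ω' * lay a s') := by
  simp only [ben]
  rw [av_net_cons h fun g => av fun ω' => F (g⁻¹ * net (a :: l) ω')]
  simp only [fun g : Perm (ι → Bool) => av_net_cons h fun g' => F (g * g')]
  conv_rhs => rw [av_comm]
  congr 1; ext s; rw [av_comm]
  simp only [mul_inv_rev, lay_inv, mul_assoc]

lemma av_ben_mix {a : ι} {l : List ι} (h : a ∉ l) (F : ((ι → Bool) → ι → Bool) → ℝ) :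
    av (fun ω => av fun ω' => F (ben l ω ω')) = av fun ω => av fun ω' => av fun τ => av fun τ' =>
      F fun p => if p a then ben l τ τ' p else ben l ω ω' p := by
  rw [av_St_mix fun _ q => q a]
  congr 1; ext ω
  conv_rhs => rw [av_comm]
  congr 1; ext τ
  rw [av_St_mix fun _ q => q a]
  congr 1; ext ω'; congr 1; ext τ'; congr 1; ext p : 1
  have hr : a ∉ l.reverse := by simpa using h
  simp only [ben, Perm.mul_apply, net_inv, net_mix h, net_mix hr]
  split_ifs with h1 h2 h2 <;> simp_all [net_bit h]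

variable {β : Type*} [Fintype β] [AddCommGroup β]

/-- Colourings supported in `I`. -/
noncomputable def Col (β : Type*) [Fintype β] [Zero β] (I : Finset (ι → Bool)) :
    Finset ((ι → Bool) → β) := univ.filter fun φ => ∀ p ∉ I, φ p = 0

lemma mem_Col {I : Finset (ι → Bool)} {φ : (ι → Bool) → β} :
    φ ∈ Col β I ↔ ∀ p ∉ I, φ p = 0 := by simp [Col]

lemma card_Col (I : Finset (ι → Bool)) : (Col β I).card = Fintype.card β ^ I.card := by
  have : Col β I = Fintype.piFinset fun p => if p ∈ I then univ else {0} := by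
    ext φ
    simp only [mem_Col, Fintype.mem_piFinset]
    exact forall_congr' fun p => by split_ifs with h <;> simp [h]
  rw [this, Fintype.card_piFinset]
  simp [apply_ite card]

/-- Probability that the Benes network carries `ψ` to `χ`. -/
noncomputable def pr (l : List ι) (χ ψ : (ι → Bool) → β) : ℝ :=
  av fun ω => av fun ω' => ind (ψ ∘ ben l ω ω' = χ)

omit [AddCommGroup β] [Fintype β] in
lemma pr_nonneg (l : List ι) (χ ψ : (ι → Bool) → β) : 0 ≤ pr l χ ψ :=
  av_nonneg fun _ => av_nonneg fun _ => ind_nonneg _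

omit [AddCommGroup β] in
lemma pr_le (l : List ι) (χ ψ : (ι → Bool) → β) : pr l χ ψ ≤ (pr l ψ ψ + pr l χ χ) / 2 := by
  have e : ∀ (χ ψ : (ι → Bool) → β) ω ω', ψ ∘ ben l ω ω' = χ ↔
      ψ ∘ (net l ω).symm = χ ∘ (net l ω').symm := fun χ ψ ω ω' => by
    constructor
    · rintro rfl; ext p; simp [ben]
    · intro h; ext p; simpa [ben] using congrFun h (net l ω' p)
  simp only [pr, e]
  exact av_coll_le (fun ω => ψ ∘ (net l ω).symm) fun ω => χ ∘ (net l ω).symm

/-- Expected number of fixed colourings supported in `I`. -/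
noncomputable def Tc (β : Type*) [Fintype β] [AddCommGroup β] (l : List ι)
    (I : Finset (ι → Bool)) : ℝ := ∑ φ ∈ Col β I, pr l φ φ

/-- Restriction to the side where bit `a` is set. -/
def rs (a : ι) : ((ι → Bool) → β) →+ ((ι → Bool) → β) where
  toFun φ p := if p a then φ p else 0
  map_zero' := by ext p; simp
  map_add' φ ψ := by ext p; by_cases h : p a = true <;> simp [h]

omit [DecidableEq ι] [Fintype ι] [Fintype β] in
lemma rs_apply (a : ι) (φ : (ι → Bool) → β) (p : ι → Bool) :
    rs a φ p = if p a then φ p else 0 := rfl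

lemma key_fiber {a : ι} (t : (ι → Bool) → Bool) (α : Perm (ι → Bool)) (hα : ∀ p, α p a = p a)
    (I : Finset (ι → Bool)) (m : ((ι → Bool) → β) → ℝ) (hm : ∀ b, 0 ≤ m b) :
    ∑ φ ∈ Col β I, ind (∀ p, p a = false → φ (lay a t (α p)) = φ p) *
      ((m (rs a (φ ∘ lay a t)) + m (rs a φ)) / 2) ≤
    (∑ δ ∈ Col β (I.filter fun p => p a = false ∧ t (rp a p) = false), ind (δ ∘ α = δ)) *
      ((∑ b ∈ Col β ((I.image (lay a t)).filter fun p => p a = true), m b +
        ∑ b ∈ Col β (I.filter fun p => p a = true), m b) / 2) := by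
  set s := (Col β I).filter fun φ => ∀ p, p a = false → φ (lay a t (α p)) = φ p with hs
  have hsub : ∀ x ∈ s, ∀ y ∈ s, x - y ∈ s := fun x hx y hy => by
    simp only [hs, mem_filter, mem_Col] at hx hy ⊢
    exact ⟨fun p hp => by simp [hx.1 p hp, hy.1 p hp], fun p hp => by simp [hx.2 p hp, hy.2 p hp]⟩
  have e : ∀ g : ((ι → Bool) → β) → ℝ, ∑ φ ∈ Col β I,
      ind (∀ p, p a = false → φ (lay a t (α p)) = φ p) * g φ = ∑ φ ∈ s, g φ := fun g => by
    rw [hs, sum_filter]
    exact sum_congr rfl fun φ _ => by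
      split_ifs with h
      · rw [ind_pos h, one_mul]
      · rw [ind_neg h, zero_mul]
  rw [e, sum_ind, ← sum_div, sum_add_distrib, ← mul_div_assoc, mul_add]
  refine div_le_div_of_nonneg_right (add_le_add ?_ ?_) (by norm_num)
  · refine fiber_sum s _ _ ((rs a).comp (AddMonoidHom.mk' (fun φ => φ ∘ lay a t) fun _ _ => rfl))
      (fun φ => φ ∘ lay a t) (fun x y h => (lay a t).surjective.injective_comp_right h) hsub
      (fun x hx => mem_Col.2 fun p hp => ?_) (fun x hx h0 => ?_) m hm
    · simp only [hs, mem_filter, mem_Col, mem_image, not_and] at hx hp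
      change (if p a then x (lay a t p) else 0) = 0
      split_ifs with h
      · exact hx.1 _ fun h' => hp ⟨_, h', lay_lay a t p⟩ h
      · rfl
    · simp only [hs, mem_filter, mem_Col] at hx ⊢
      have hR : ∀ p, p a = true → x (lay a t p) = 0 := fun p hp => by
        simpa [rs_apply, hp] using congrFun h0 p
      have := supp_fix α⁻¹ (fun p => t (rp a p) = true) (x ∘ lay a t) fun q => by
        obtain ⟨p, rfl⟩ := α.surjective q
        simp only [Perm.coe_inv, symm_apply_apply, Function.comp_apply]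
        cases hp : p a
        · rw [hx.2 p hp]
          split_ifs with h
          · rw [← lay_lay a t p, hR]; rw [lay_self, h, hp]; rfl
          · rw [lay_apply, if_neg h]
        · rw [hR _ ((hα p).trans hp), hR p hp, ite_self]
      refine ⟨fun p hp => ?_, ?_⟩
      · cases h1 : p a
        · cases h2 : t (rp a p)
          · rw [Function.comp_apply, lay_apply, if_neg (by simp [h2])]
            exact hx.1 p fun h => hp ⟨h, h1, h2⟩
          · exact this.2 p h2
        · exact hR p h1
      · ext p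
        simpa using (congrFun this.1 (α p)).symm
  · refine fiber_sum s _ _ (rs a) id Function.injective_id hsub
      (fun x hx => mem_Col.2 fun p hp => ?_) (fun x hx h0 => ?_) m hm
    · simp only [hs, mem_filter, mem_Col, not_and] at hx hp
      rw [rs_apply]
      split_ifs with h
      · exact hx.1 _ fun h' => hp h' h
      · rfl
    · simp only [hs, mem_filter, mem_Col, id] at hx ⊢
      have hR : ∀ p, p a = true → x p = 0 := fun p hp => by
        simpa [rs_apply, hp] using congrFun h0 p
      have := supp_fix α (fun p => t (rp a p) = true) x fun p => by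
        cases hp : p a
        · rw [← hx.2 p hp, lay_apply]
          split_ifs with h
          · exact hR _ (by rw [fl_self, hα, hp]; rfl)
          · rfl
        · rw [hR _ ((hα p).trans hp), hR p hp, ite_self]
      refine ⟨fun p hp => ?_, this.1⟩
      cases h1 : p a
      · cases h2 : t (rp a p)
        · exact hx.1 p fun h => hp ⟨h, h1, h2⟩
        · exact this.2 p h2
      · exact hR p h1

end Vale.Agent.P162
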