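import Vale.Agent.P162.LemA

namespace Vale.Agent.P162

open Finset Equiv Classical

variable {ι : Type*} [DecidableEq ι] [Fintype ι] {β : Type*} [Fintype β] [AddCommGroup β]

lemma step_bound {a : ι} {l : List ι} (h : a ∉ l) {u : ℝ} (hu : 0 ≤ u)
    (ih : ∀ I, Tc β l I ≤ u ^ I.card) (I : Finset (ι → Bool)) (t : (ι → Bool) → Bool) :
    ∑ φ ∈ Col β I, (av fun ω => av fun ω' => ind (φ ∘ lay a t ∘ ben l ω ω' = φ)) ≤
      u ^ (I.filter fun p => p a = false ∧ t (rp a p) = false).card *
        ((u ^ ((I.image (lay a t)).filter fun p => p a = true).card +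
          u ^ (I.filter fun p => p a = true).card) / 2) := by
  have h1 : ∀ φ : (ι → Bool) → β, (av fun ω => av fun ω' => ind (φ ∘ lay a t ∘ ben l ω ω' = φ)) ≤
      av fun ω => av fun ω' => ind (∀ p, p a = false → φ (lay a t (ben l ω ω' p)) = φ p) *
        ((pr l (rs a (φ ∘ lay a t)) (rs a (φ ∘ lay a t)) + pr l (rs a φ) (rs a φ)) / 2) := by
    intro φ
    rw [av_ben_mix h fun g => ind (φ ∘ lay a t ∘ g = φ)]
    refine av_le_av fun ω => av_le_av fun ω' => le_trans ?_
      (mul_le_mul_of_nonneg_left (pr_le l _ _) (ind_nonneg _))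
    simp only [pr, ← av_mul_left, ← ind_and]
    refine av_le_av fun τ => av_le_av fun τ' => ind_mono fun e => ⟨fun p hp => ?_, ?_⟩
    · simpa [hp] using congrFun e p
    · ext p
      simp only [Function.comp_apply, rs_apply, ben_bit h]
      split_ifs with hp
      · simpa [hp] using congrFun e p
      · rfl
  refine (sum_le_sum fun φ _ => h1 φ).trans ?_
  simp only [← av_sum]
  refine (av_le_av fun ω => av_le_av fun ω' => key_fiber t (ben l ω ω') (ben_bit h ω ω') I
    (fun b => pr l b b) fun b => pr_nonneg l b b).trans ?_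
  simp only [av_mul_right, av_sum]
  exact mul_le_mul (ih _) (div_le_div_of_nonneg_right (add_le_add (ih _) (ih _)) (by norm_num))
    (div_nonneg (add_nonneg (sum_nonneg fun b _ => pr_nonneg l b b)
      (sum_nonneg fun b _ => pr_nonneg l b b)) (by norm_num)) (by positivity)

lemma pow_card_filter {α : Type*} (u : ℝ) (s : Finset α) (p : α → Prop) [DecidablePred p] :
    u ^ (s.filter p).card = ∏ x ∈ s, if p x then u else 1 := by
  rw [← prod_filter, prod_const]

lemma av_pair {κ : Type*} [Fintype κ] [DecidableEq κ] (F : (κ → Bool × Bool) → ℝ) :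
    av (fun s : κ → Bool => av fun t : κ → Bool => F fun k => (s k, t k)) = av F := by
  rw [← av_equiv (arrowProdEquivProdArrow κ (fun _ => Bool) fun _ => Bool).symm F, av_prod]
  rfl

theorem Tc_le {l : List ι} (hl : l.Nodup) (I : Finset (ι → Bool)) :
    Tc β l I ≤ (1 + (Fintype.card β - 1) * (3 / 4 : ℝ) ^ l.length) ^ I.card := by
  induction l generalizing I with
  | nil =>
    refine (sum_le_card_nsmul _ _ 1 fun φ _ => av_le_of_le fun _ => av_le_of_le fun _ =>
      ind_le_one _).trans ?_
    simp [card_Col]
  | cons a l ih =>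
    rw [List.nodup_cons] at hl
    have hb : (1 : ℝ) ≤ Fintype.card β := by exact_mod_cast Fintype.card_pos
    obtain ⟨u, hu, hu1⟩ : ∃ u : ℝ, u = 1 + (Fintype.card β - 1) * (3 / 4 : ℝ) ^ l.length ∧
      1 ≤ u := ⟨_, rfl, le_add_of_nonneg_right (mul_nonneg (by linarith) (by positivity))⟩
    have ih' := ih hl.2
    rw [← hu] at ih'
    have e0 : 1 + (Fintype.card β - 1) * (3 / 4 : ℝ) ^ (a :: l).length = (3 * u + 1) / 4 := by
      rw [hu, List.length_cons, pow_succ]; ring
    have e1 : Tc β (a :: l) I = av fun s' => av fun t => ∑ φ ∈ Col β (I.image (lay a s')),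
        av fun ω => av fun ω' => ind (φ ∘ lay a t ∘ ben l ω ω' = φ) := by
      simp only [Tc, pr, fun φ : (ι → Bool) → β => av_ben_cons hl.1 fun g => ind (φ ∘ g = φ)]
      rw [← av_sum]
      congr 1; ext s'
      rw [← av_sum, ← av_xor s']
      congr 1; ext t
      refine sum_nbij' (fun φ => φ ∘ lay a s') (fun φ => φ ∘ lay a s') (fun φ hφ => ?_)
        (fun φ hφ => ?_) (fun φ _ => by ext p; simp) (fun φ _ => by ext p; simp) fun φ _ => ?_
      · simp only [mem_Col, mem_image] at hφ ⊢
        exact fun p hp => hφ _ fun h => hp ⟨_, h, lay_lay _ _ _⟩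
      · simp only [mem_Col, mem_image] at hφ ⊢
        exact fun p hp => hφ _ fun ⟨q, hq, e⟩ => hp ((lay a s').injective e ▸ hq)
      · congr 1; ext ω; congr 1; ext ω'; congr 1
        have : (lay a fun p => xor (t p) (s' p)) = lay a s' * lay a t := by
          rw [lay_mul]; simp only [Bool.xor_comm]
        rw [this]
        refine propext ⟨fun h => funext fun p => ?_, fun h => funext fun p => ?_⟩
        · simpa using congrFun h (lay a s' p)
        · simpa using congrFun h (lay a s' p)
    rw [e0, e1]
    refine (av_le_av fun s' => av_le_av fun t => step_bound hl.1 (by linarith) ih' _ t).trans ?_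
    have k : ∀ c : Bool, (av fun s' : (ι → Bool) → Bool => av fun t : (ι → Bool) → Bool =>
        ∏ p ∈ I, (if xor (s' (rp a p)) (p a) = false ∧ t (rp a p) = false then u else 1) *
          if xor (c && t (rp a p)) (xor (s' (rp a p)) (p a)) = true then u else 1) ≤
        ((3 * u + 1) / 4) ^ I.card := fun c => by
      rw [av_pair fun s => ∏ p ∈ I,
        (if xor (s (rp a p)).1 (p a) = false ∧ (s (rp a p)).2 = false then u else 1) *
          if xor (c && (s (rp a p)).2) (xor (s (rp a p)).1 (p a)) = true then u else 1,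
        ← prod_const]
      refine switch_prod a (fun p (x : Bool × Bool) =>
        (if xor x.1 (p a) = false ∧ x.2 = false then u else 1) *
          if xor (c && x.2) (xor x.1 (p a)) = true then u else 1) _
        (fun p x => by split_ifs <;> nlinarith) (fun p => ?_) (fun p => ?_) I
      · cases c <;> cases p a <;> simp [av, Fintype.sum_prod_type] <;> linarith
      · rw [fl_self]
        cases c <;> cases p a <;> simp [av, Fintype.sum_prod_type] <;> nlinarith [sq_nonneg (u - 1)]
    have k1 := k true
    have k2 := k false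
    simp only [pow_card_filter, prod_image (lay a _).injective.injOn, rp_lay, lay_self,
      div_eq_mul_inv, ← mul_assoc]
    simp only [mul_add, ← prod_mul_distrib, av_mul_right, av_add]
    simp only [Bool.true_and, Bool.false_and, Bool.false_xor, div_eq_mul_inv] at k1 k2
    linarith

end Vale.Agent.P162
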