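import Vale.Agent.P162.EnLow
import Vale.Agent.P162.Krec

namespace Vale.Agent.P162

open Finset Equiv RealInnerProductSpace

variable {E : Type*} [NormedAddCommGroup E] [InnerProductSpace ℝ E]
  {P : Type*} [DecidableEq P] [Fintype P] (ρ : Perm P →* (E →L[ℝ] E))

/-- Averaging over the pointwise stabilizer of `S`. -/
noncomputable def Uop (S : Finset P) : E →L[ℝ] E := (cX S)⁻¹ • ∑ z, ind (agr S 1 z) • ρ z

/-- Vectors fixed by the pointwise stabilizer of `S`. -/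
def Fs (S : Finset P) : Submodule ℝ E where
  carrier := {v | Fx ρ Sᶜ v}
  add_mem' ha hb x hx y hy := by rw [map_add, ha x hx y hy, hb x hx y hy]
  zero_mem' _ _ _ _ := map_zero _
  smul_mem' c v hv x hx y hy := by rw [map_smul, hv x hx y hy]

/-- Vectors of level at most `j`. -/
def Vl (j : ℕ) : Submodule ℝ E := ⨆ S : {S : Finset P // S.card ≤ j}, Fs ρ S.1

variable {ρ}

lemma Uop_apply (S : Finset P) (v : E) :
    Uop ρ S v = (cX S)⁻¹ • ∑ z, ind (agr S 1 z) • ρ z v := by simp [Uop]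

lemma Uop_of_mem {S : Finset P} {v : E} (h : v ∈ Fs ρ S) : Uop ρ S v = v := by
  have : ∀ z, ind (agr S 1 z) • ρ z v = ind (agr S 1 z) • v := fun z => by
    by_cases hz : agr S 1 z
    · rw [Fx.perm h z fun p hp => (hz p (by simpa using hp)).symm]
    · simp [ind_neg hz]
  simp only [Uop_apply, this, ← sum_smul]
  rw [← cX, smul_smul, inv_mul_cancel₀ (cX_pos S).ne', one_smul]

lemma Uop_mem (S : Finset P) (v : E) : Uop ρ S v ∈ Fs ρ S := fun x hx y hy => by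
  simp only [Uop_apply, map_smul, map_sum, rho_mul]
  congr 1
  refine Fintype.sum_equiv (Equiv.mulLeft (swap x y)) _ _ fun z => ?_
  congr 2
  refine propext (forall₂_congr fun p hp => ?_)
  have : swap x y p = p := swap_apply_of_ne_of_ne (by rintro rfl; simp [hp] at hx)
    (by rintro rfl; simp [hp] at hy)
  simp only [Perm.coe_one, id, coe_mulLeft, Perm.mul_apply]
  rw [eq_comm, eq_comm (a := p), swap_apply_eq_iff, this]

lemma Orth.Uop_symm (h : Orth ρ) (S : Finset P) (v w : E) : ⟪Uop ρ S v, w⟫ = ⟪v, Uop ρ S w⟫ := by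
  simp only [Uop_apply, inner_smul_left, inner_smul_right, sum_inner, inner_sum, h.adj,
    conj_trivial]
  congr 1
  refine Fintype.sum_equiv (Equiv.inv _) _ _ fun z => ?_
  congr 2
  exact propext (forall₂_congr fun p _ => by simp [eq_symm_apply, eq_comm])

lemma Orth.inner_Uop (h : Orth ρ) (S : Finset P) (v : E) : ⟪v, Uop ρ S v⟫ = ‖Uop ρ S v‖ ^ 2 := by
  rw [← real_inner_self_eq_norm_sq, h.Uop_symm, Uop_of_mem (Uop_mem S v)]

lemma Uop_comm {Q : E →L[ℝ] E} (hQ : ∀ g, Commute (ρ g) Q) (S : Finset P) :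
    Commute (Uop ρ S) Q :=
  (Commute.sum_left _ _ _ fun z _ => (hQ z).smul_left _).smul_left _

lemma Uop_conj (g : Perm P) (S : Finset P) : ρ g * Uop ρ S * ρ g⁻¹ = Uop ρ (S.image g) := by
  have e : ∀ z, agr S 1 z = agr (S.image g) 1 (MulAut.conj g z) := fun z => by
    simp [agr]
  have : cX S = cX (S.image g) := Fintype.sum_equiv (MulAut.conj g).toEquiv _ _ fun z => by
    rw [e]; rfl
  simp only [Uop, mul_smul_comm, smul_mul_assoc, mul_sum, sum_mul, ← map_mul, this]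
  congr 1
  exact Fintype.sum_equiv (MulAut.conj g).toEquiv _ _ fun z => by rw [e]; rfl

lemma Fs_rho {S : Finset P} {v : E} (h : v ∈ Fs ρ S) (g : Perm P) : ρ g v ∈ Fs ρ (S.image g) := by
  rw [← Uop_of_mem h, show ρ g (Uop ρ S v) = Uop ρ (S.image g) (ρ g v) by
    rw [← Uop_conj]; simp [rho_mul, -map_mul]]
  exact Uop_mem _ _

lemma Fs_le {S : Finset P} {j : ℕ} (h : S.card ≤ j) : Fs ρ S ≤ Vl ρ j :=
  le_iSup (fun S : {S : Finset P // S.card ≤ j} => Fs ρ S.1) ⟨S, h⟩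

lemma Vl_mono {i j : ℕ} (h : i ≤ j) : Vl ρ i ≤ Vl ρ j := iSup_le fun S => Fs_le (S.2.trans h)

lemma Vl_inv {j : ℕ} {A : E →L[ℝ] E} (h : ∀ S : Finset P, S.card ≤ j → ∀ v ∈ Fs ρ S, A v ∈ Vl ρ j) :
    ∀ v ∈ Vl ρ j, A v ∈ Vl ρ j :=
  iSup_le (a := (Vl ρ j).comap (A : E →ₗ[ℝ] E)) fun S v hv => h S.1 S.2 v hv

lemma Vl_rho (j : ℕ) (g : Perm P) : ∀ v ∈ Vl ρ j, ρ g v ∈ Vl ρ j :=
  Vl_inv fun _ hS _ hv => Fs_le (card_image_le.trans hS) (Fs_rho hv g)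

lemma Fs_comm {Q : E →L[ℝ] E} (hQ : ∀ g, Commute (ρ g) Q) {S : Finset P} {v : E}
    (h : v ∈ Fs ρ S) : Q v ∈ Fs ρ S := fun x hx y hy =>
  (congrArg (· v) (hQ _).eq).trans (congrArg Q (h x hx y hy))

lemma Vl_comm {Q : E →L[ℝ] E} (hQ : ∀ g, Commute (ρ g) Q) (j : ℕ) : ∀ v ∈ Vl ρ j, Q v ∈ Vl ρ j :=
  Vl_inv fun _ hS _ hv => Fs_le hS (Fs_comm hQ hv)

lemma Orth.mem_orth (h : Orth ρ) {j : ℕ} {w : E} :
    w ∈ (Vl ρ j)ᗮ ↔ ∀ S : Finset P, S.card ≤ j → Uop ρ S w = 0 := by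
  constructor
  · intro hw S hS
    have := hw _ (Fs_le hS (Uop_mem S w))
    rw [real_inner_comm, h.inner_Uop] at this
    simpa using this
  · intro hw
    rw [Vl, ← Submodule.iInf_orthogonal, Submodule.mem_iInf]
    intro S v hv
    rw [← Uop_of_mem hv, h.Uop_symm, hw S.1 S.2, inner_zero_right]

lemma Orth.orth_comm (h : Orth ρ) {Q : E →L[ℝ] E} (hQ : ∀ g, Commute (ρ g) Q) {j : ℕ} {w : E}
    (hw : w ∈ (Vl ρ j)ᗮ) : Q w ∈ (Vl ρ j)ᗮ := h.mem_orth.2 fun S hS =>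
  (congrArg (· w) (Uop_comm hQ S).eq).trans (by simp [h.mem_orth.1 hw S hS])

lemma Orth.orth_rho (h : Orth ρ) {j : ℕ} (g : Perm P) {w : E} (hw : w ∈ (Vl ρ j)ᗮ) :
    ρ g w ∈ (Vl ρ j)ᗮ := fun v hv => by
  rw [real_inner_comm, h.adj, real_inner_comm]; exact hw _ (Vl_rho j _ v hv)

lemma Uop_inv {W : Submodule ℝ E} (hW : ∀ g, ∀ v ∈ W, ρ g v ∈ W) (S : Finset P) {v : E}
    (hv : v ∈ W) : Uop ρ S v ∈ W := by
  rw [Uop_apply]
  exact W.smul_mem _ (W.sum_mem fun z _ => W.smul_mem _ (hW z v hv))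

lemma Orth.frames [FiniteDimensional ℝ E] (h : Orth ρ) (j : ℕ) : ∀ v ∈ Vl ρ j,
    ‖v‖ ^ 2 ≤ ∑ S : Finset P with S.card ≤ j, ‖Uop ρ S v‖ ^ 2 := by
  set F := ∑ S : Finset P with S.card ≤ j, Uop ρ S with hF
  have q : ∀ v, ⟪v, F v⟫ = ∑ S : Finset P with S.card ≤ j, ‖Uop ρ S v‖ ^ 2 := fun v => by
    simp only [hF, _root_.sum_apply, inner_sum, h.inner_Uop]
  have cm : ∀ g, Commute (ρ g) F := fun g => by
    have : ρ g * F * ρ g⁻¹ = F := by
      simp only [hF, mul_sum, sum_mul, Uop_conj]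
      refine sum_equiv g.finsetCongr (fun S => by simp) fun S _ => ?_
      simp [map_eq_image]
    change _ = _
    conv_rhs => rw [← this, mul_assoc, ← map_mul, inv_mul_cancel, map_one, mul_one]
  intro v hv
  have := spec_ge (A := F) (W := Vl ρ j) (μ := 1) (fun v w => by
    simp only [hF, _root_.sum_apply, inner_sum, sum_inner, h.Uop_symm]) (Vl_comm cm j)
    (fun c v hv h0 e => ?_) v hv
  · rwa [q, one_mul] at this
  obtain ⟨S, hS, hne⟩ : ∃ S : Finset P, S.card ≤ j ∧ Uop ρ S v ≠ 0 := by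
    by_contra hc; push Not at hc
    exact h0 (by simpa using (h.mem_orth.2 hc) v hv)
  have e2 : F (Uop ρ S v) = c • Uop ρ S v := by
    rw [← map_smul, ← e]; exact (congrArg (· v) (Uop_comm cm S).eq).symm
  have := q (Uop ρ S v)
  rw [e2, inner_smul_right, real_inner_self_eq_norm_sq] at this
  have h1 := single_le_sum (f := fun S' => ‖Uop ρ S' (Uop ρ S v)‖ ^ 2)
    (s := univ.filter fun S : Finset P => S.card ≤ j)
    (fun _ _ => sq_nonneg _) (mem_filter.2 ⟨mem_univ S, hS⟩)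
  simp only [Uop_of_mem (Uop_mem S v), ← this] at h1
  exact le_of_mul_le_mul_right (by linarith) (show 0 < ‖Uop ρ S v‖ ^ 2 by positivity)

theorem Orth.decomp [FiniteDimensional ℝ E] (h : Orth ρ) {Q : E →L[ℝ] E}
    (hQ : ∀ g, Commute (ρ g) Q) {μ : ℕ → ℝ} (hμ : ∀ j, 0 ≤ μ j) {ν : ℝ} (hν : 0 ≤ ν) {k : ℕ}
    (h1 : ∀ i < k, ∀ S : Finset P, S.card = i + 1 → ∀ v ∈ Fs ρ S, v ∈ (Vl ρ i)ᗮ →
      ‖Q v‖ ^ 2 ≤ μ (i + 1) * ‖v‖ ^ 2) (h2 : ∀ v ∈ (Vl ρ k)ᗮ, ‖Q v‖ ^ 2 ≤ ν * ‖v‖ ^ 2)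
    {i : ℕ} (hi : i ≤ k) : ∀ f ∈ (Vl ρ i)ᗮ, ‖Q f‖ ^ 2 ≤
      ∑ j ∈ Ioc i k, μ j * ∑ S : Finset P with S.card = j, ‖Uop ρ S f‖ ^ 2 + ν * ‖f‖ ^ 2 := by
  induction hi using Nat.decreasingInduction with
  | self => simpa using h2
  | of_succ i hi ih =>
    intro f hf
    obtain ⟨f1, m1, f2, m2, rfl⟩ := (Vl ρ (i + 1)).exists_add_mem_mem_orthogonal f
    have py : ∀ A : E →L[ℝ] E, A f1 ∈ Vl ρ (i + 1) → A f2 ∈ (Vl ρ (i + 1))ᗮ →
        ‖A (f1 + f2)‖ ^ 2 = ‖A f1‖ ^ 2 + ‖A f2‖ ^ 2 := fun A a1 a2 => by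
      rw [map_add, norm_add_sq_real, a2 _ a1]; ring
    have pU := fun S => py (Uop ρ S) (Uop_inv (Vl_rho _) S m1)
      (Uop_inv (fun g v => h.orth_rho g) S m2)
    have m3 : f1 ∈ (Vl ρ i)ᗮ := by
      simpa using Submodule.sub_mem _ hf (Submodule.orthogonal_le (Vl_mono i.le_succ) m2)
    have p1 := py 1 m1 m2
    simp only [one_apply_eq_self] at p1
    have a1 : ‖Q f1‖ ^ 2 ≤
        μ (i + 1) * ∑ S : Finset P with S.card = i + 1, ‖Uop ρ S (f1 + f2)‖ ^ 2 := by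
      refine (h.frames _ _ (Vl_comm hQ _ _ m1)).trans ?_
      rw [← sum_subset (s₁ := univ.filter fun S : Finset P => S.card = i + 1)
        (fun S hS => by simp only [mem_filter] at hS ⊢; exact ⟨hS.1, hS.2.le⟩) fun S h3 h4 => by
          simp only [mem_filter, mem_univ, true_and] at h3 h4
          rw [h.mem_orth.1 (h.orth_comm hQ m3) S (by omega)]; simp, mul_sum]
      refine sum_le_sum fun S hS => ?_
      rw [show Uop ρ S (Q f1) = Q (Uop ρ S f1) from congrArg (· f1) (Uop_comm hQ S).eq]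
      refine (h1 i hi S (mem_filter.1 hS).2 _ (Uop_mem S f1)
        (Uop_inv (fun g v => h.orth_rho g) S m3)).trans (mul_le_mul_of_nonneg_left ?_ (hμ _))
      rw [pU]; nlinarith
    have a2 : ∑ j ∈ Ioc (i + 1) k, μ j * ∑ S : Finset P with S.card = j, ‖Uop ρ S f2‖ ^ 2 ≤
        ∑ j ∈ Ioc (i + 1) k, μ j * ∑ S : Finset P with S.card = j, ‖Uop ρ S (f1 + f2)‖ ^ 2 :=
      sum_le_sum fun j _ => mul_le_mul_of_nonneg_left
        (sum_le_sum fun S _ => by rw [pU]; nlinarith) (hμ _)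
    rw [py Q (Vl_comm hQ _ _ m1) (h.orth_comm hQ m2), ← insert_Ioc_add_one_left_eq_Ioc hi,
      sum_insert (by simp), p1]
    nlinarith [ih f2 m2, mul_nonneg hν (sq_nonneg ‖f1‖)]

end Vale.Agent.P162
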