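import Vale.Agent.P162.Groups

namespace Vale.Agent.P162

open Finset Equiv Classical

variable {ι : Type*} [DecidableEq ι] [Fintype ι]

/-- The normalized compatibility probability at the head layer. -/
noncomputable def fac : List ι → Finset (ι → Bool) → St ι → St ι → ℝ
  | [], _, _, _ => 1
  | a :: l, X, ω, ω' => 2 ^ X.card * vv a X (ben (a :: l) ω ω')

/-- The number of tracked points whose partner at the head layer is tracked. -/
noncomputable def nI : List ι → Finset (ι → Bool) → ℕ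
  | [], _ => 0
  | a :: _, X => (X.filter fun p => fl a p ∈ X).card

lemma fac_nonneg (l : List ι) (X : Finset (ι → Bool)) (ω ω' : St ι) : 0 ≤ fac l X ω ω' := by
  cases l with
  | nil => exact zero_le_one
  | cons a l => exact mul_nonneg (by positivity) (vv_nonneg _ _ _)

lemma Ph_eq (l : List ι) (X : Finset (ι → Bool)) (ω ω' : St ι) :
    (2 ^ l.length) ^ X.card * Ph l X ω ω' =
      ∏ r ∈ range l.length, fac (l.drop r) (X.image (net (l.take r) ω')) ω ω' := by
  induction l generalizing X with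
  | nil => simp [Ph]
  | cons a l ih =>
    have := ih (X.image (lay a (ω' a)))
    rw [card_image_of_injective _ (lay a _).injective] at this
    simp only [List.length_cons, prod_range_succ', List.drop_succ_cons, List.take_succ_cons, net,
      Perm.coe_mul, ← image_image, ← this, Ph, List.drop_zero, List.take_zero, Perm.coe_one,
      image_id]
    rw [fac]
    ring

lemma one_le_cl (β : Type*) [Fintype β] [AddCommGroup β] (a : ι) (I : Finset (ι → Bool))
    (g : Perm (ι → Bool)) : 1 ≤ cl β a I g := by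
  refine le_trans (le_of_eq (ind_pos ⟨rfl, rfl⟩).symm) (single_le_sum (f := fun φ : _ → β =>
    ind (φ ∘ fl a = φ ∧ (φ ∘ g.symm) ∘ fl a = φ ∘ g.symm)) (a := fun _ => 0)
    (fun _ _ => ind_nonneg _) (mem_Col.2 fun _ _ => rfl))

lemma rate_bound {N i : ℕ} (h1 : N ≤ i + 1) (h2 : i + 1 < 2 * N) :
    (2 : ℝ) ^ (N / 8 + 1) * (3 / 4) ^ (i - N / 2) ≤ 4 * (63 / 64) ^ i := by
  obtain ⟨q, hq⟩ : ∃ q, q = N / 8 := ⟨_, rfl⟩
  rw [← hq]
  have a1 : (3 / 4 : ℝ) ^ (i - N / 2 + 1) ≤ (3 / 4) ^ (4 * q) :=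
    pow_le_pow_of_le_one (by norm_num) (by norm_num) (by omega)
  have a2 : (63 / 64 : ℝ) ^ (16 * q + 16) ≤ (63 / 64) ^ i :=
    pow_le_pow_of_le_one (by norm_num) (by norm_num) (by omega)
  have a3 : (2 * (3 / 4) ^ 4 : ℝ) ^ q ≤ ((63 / 64) ^ 16) ^ q :=
    pow_le_pow_left₀ (by norm_num) (by norm_num) q
  rw [mul_pow, ← pow_mul, ← pow_mul] at a3
  rw [pow_succ] at a1 ⊢
  rw [pow_add] at a2
  have p1 : (0 : ℝ) < 2 ^ q := by positivity
  have p2 : (0 : ℝ) < (63 / 64) ^ (16 * q) := by positivity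
  have a4 : (3 / 4 : ℝ) ≤ (63 / 64) ^ 16 := by norm_num
  nlinarith [mul_le_mul_of_nonneg_left a1 p1.le, mul_le_mul_of_nonneg_left a4 p2.le]

theorem stage1 {l : List ι} (hl : l.Nodup) (X : Finset (ι → Bool)) (ω' : St ι) :
    av (fun ω => ((2 ^ l.length) ^ X.card * Ph l X ω ω') ^ (31 : ℝ)⁻¹) ≤
      Real.exp (∑ i ∈ range l.length, 4 * (63 / 64) ^ i *
        nI (l.drop (l.length - 1 - i)) (X.image (net (l.take (l.length - 1 - i)) ω'))) := by
  set d := l.length with hd
  have hR : d ≤ 4 ^ d - 1 := by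
    have := Nat.lt_pow_self (n := d) (show 1 < 4 by norm_num); omega
  have := groups (fun t b => b ∈ l.drop (d - t)) (fun s t b h hb => by
      rw [show d - s = d - t + (d - s - (d - t)) by omega, ← List.drop_drop] at hb
      exact List.mem_of_mem_drop hb)
    (fun i ω => if i < d then fac (l.drop (d - 1 - i)) (X.image (net (l.take (d - 1 - i)) ω'))
      ω ω' ^ (31 : ℝ)⁻¹ else 1)
    (fun i => if i < d then 4 * (63 / 64) ^ i *
        nI (l.drop (d - 1 - i)) (X.image (net (l.take (d - 1 - i)) ω')) else 0)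
    (fun i => by split_ifs <;> positivity) (fun i ω τ h => by
      rw [show d - (i + 1) = d - 1 - i by omega] at h
      generalize l.drop (d - 1 - i) = k at h
      cases k with
      | nil => rfl
      | cons a k => simp only [fac, ben, net_congr h]) (fun m i ω h1 h2 => ?_) d
  · rw [← sum_subset (range_mono hR) fun i _ hi => if_neg (by simpa using hi),
      sum_congr rfl fun i hi => if_pos (mem_range.1 hi)] at this
    refine le_trans (le_of_eq ?_) this
    congr 1; ext ω
    rw [← prod_subset (range_mono hR) fun i _ hi => if_neg (by simpa using hi),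
      prod_congr rfl fun i hi => if_pos (mem_range.1 hi), Ph_eq,
      ← Real.finsetProd_rpow _ _ fun _ _ => fac_nonneg _ _ _ _, ← prod_range_reflect]
  split_ifs with hi
  swap
  · simp [av_const]
  obtain ⟨N, hN⟩ : ∃ N, N = 2 ^ m := ⟨_, rfl⟩
  rw [pow_succ, mul_comm] at h2
  rw [← hN] at h1 h2 ⊢
  generalize X.image (net (l.take (d - 1 - i)) ω') = Y
  have e0 : l.drop (d - 1 - i) = l[d - 1 - i]'(by omega) :: l.drop (d - i) := by
    rw [List.drop_eq_getElem_cons (by omega)]; congr 2; omega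
  have hn := (List.drop_sublist (d - 1 - i) l).nodup hl
  rw [e0] at hn ⊢
  generalize l[d - 1 - i]'(by omega) = a at hn
  have e1 : l.drop (d - i) = (l.drop (d - i)).take (i - N / 2) ++ l.drop (d - N / 2) := by
    conv_lhs => rw [← List.take_append_drop (i - N / 2) (l.drop (d - i)), List.drop_drop]
    congr 2; omega
  have e2 : ((l.drop (d - i)).take (i - N / 2)).length = i - N / 2 := by
    simp only [List.length_take, List.length_drop]; omega
  rw [e1] at hn ⊢
  generalize (l.drop (d - i)).take (i - N / 2) = l1 at hn e2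
  generalize l.drop (d - N / 2) = l2 at hn
  simp only [List.nodup_cons, List.mem_append, not_or, List.nodup_append] at hn
  have hc := av_cl (β := Fin (N / 8 + 1) → ZMod 2) hn.2.1 hn.1.1
    ((net l2 ω)⁻¹ * net (l1 ++ l2) ω') (fun p => by
      rw [Perm.mul_apply, net_inv_bit hn.1.2, net_bit (by simp [hn.1])])
    (Y.filter fun p => fl a p ∈ Y)
  refine (av_le_av fun τ => ?_).trans (hc.trans ?_)
  · suffices H : ∀ ρ : St ι, (∀ b ∈ l2, ρ b = ω b) → (∀ b ∈ l1, ρ b = τ b) →
        (fac (a :: (l1 ++ l2)) Y ρ ω' ^ (31 : ℝ)⁻¹) ^ (2 * N) ≤ cl (Fin (N / 8 + 1) → ZMod 2) a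
          (Y.filter fun p => fl a p ∈ Y) ((net l1 τ)⁻¹ * ((net l2 ω)⁻¹ * net (l1 ++ l2) ω')) from
      H _ (fun b hb => if_neg (not_not.2 hb)) fun b hb => if_pos fun h => hn.2.2.2 b hb b h rfl
    intro ρ r2 r1
    have hv := vv_pow a Y ((net l1 τ)⁻¹ * ((net l2 ω)⁻¹ * net (l1 ++ l2) ω'))
      (ρ a) (ω' a) (N / 8 + 1)
    have e3 : ben (a :: (l1 ++ l2)) ρ ω' = lay a (ρ a) *
          ((net l1 τ)⁻¹ * ((net l2 ω)⁻¹ * net (l1 ++ l2) ω')) * lay a (ω' a) := by
      rw [ben, net, net, net_append l1 l2 ρ, net_congr r2, net_congr r1]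
      simp only [mul_inv_rev, lay_inv, mul_assoc]
    rw [fac, e3]
    have h0 := mul_nonneg (show (0 : ℝ) ≤ 2 ^ Y.card by positivity) (vv_nonneg a Y
      (lay a (ρ a) * ((net l1 τ)⁻¹ * ((net l2 ω)⁻¹ * net (l1 ++ l2) ω')) * lay a (ω' a)))
    generalize (2 : ℝ) ^ Y.card * vv a Y _ = x at hv h0
    rw [← Real.rpow_natCast, ← Real.rpow_mul h0]
    rcases le_total x 1 with h | h
    · exact (Real.rpow_le_one h0 h (by positivity)).trans (one_le_cl _ _ _ _)
    · refine le_trans ?_ hv
      rw [← Real.rpow_natCast]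
      refine Real.rpow_le_rpow_of_exponent_le h ?_
      have : N < 8 * (N / 8 + 1) := by omega
      have : (N : ℝ) < 8 * ((N / 8 + 1 : ℕ) : ℝ) := by exact_mod_cast this
      have : (0 : ℝ) ≤ N := by positivity
      rw [Nat.cast_mul, Nat.cast_ofNat]
      linarith
  · rw [nI, mul_comm (4 * _ : ℝ), Real.exp_nat_mul, e2]
    have := rate_bound h1 h2
    have p : (0 : ℝ) ≤ (3 / 4) ^ (i - N / 2) := by positivity
    have c1 : (1 : ℝ) ≤ 2 ^ (N / 8 + 1) := one_le_pow₀ (by norm_num)
    simp only [Fintype.card_pi, ZMod.card, prod_const, card_univ, Fintype.card_fin, Nat.cast_pow,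
      Nat.cast_ofNat]
    refine pow_le_pow_left₀ (by nlinarith) ?_ _
    nlinarith [Real.add_one_le_exp (4 * (63 / 64) ^ i)]

end Vale.Agent.P162
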