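import Vale.Agent.P162.Final
import Vale.Agent.P162.Defs

namespace Vale.Agent.P162

open Finset Equiv

lemma lawPow_succ (m t : ℕ) (g : Perm (Fin (2 * m))) :
    lawPow m (t + 1) g = av fun c => lawPow m t ((thorp m c)⁻¹ * g) := by
  rw [lawPow, av, ← sum_fiberwise univ (thorp m), smul_eq_mul, mul_sum]
  refine sum_congr rfl fun h _ => ?_
  rw [sum_congr rfl fun c hc => by rw [(mem_filter.1 hc).2], sum_const, law]
  simp; ring

lemma sum_lawPow (m t : ℕ) : ∑ g, lawPow m t g = 1 := by
  induction t with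
  | zero => simp [lawPow]
  | succ t ih =>
    simp only [lawPow_succ, ← av_sum]
    rw [← av_const (α := Fin m → Bool) (1 : ℝ)]
    congr 1; ext c
    exact (Equiv.sum_comp (Equiv.mulLeft (thorp m c)⁻¹) (lawPow m t)).trans ih

lemma card_supp (m t : ℕ) : (univ.filter fun g => lawPow m t g ≠ 0).card ≤ 2 ^ (m * t) := by
  induction t with
  | zero => simp [lawPow, filter_eq']
  | succ t ih =>
    refine (card_le_card (t := image₂ (fun c g => thorp m c * g) univ
      (univ.filter fun g => lawPow m t g ≠ 0)) fun g hg => ?_).trans ((card_image₂_le _ _ _).trans ?_)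
    · by_contra hc
      refine (mem_filter.1 hg).2 ?_
      rw [lawPow_succ, ← av_const (α := Fin m → Bool) (0 : ℝ)]
      congr 1; ext c
      by_contra h
      exact hc (mem_image₂.2 ⟨c, mem_univ _, _, mem_filter.2 ⟨mem_univ _, h⟩, by simp⟩)
    · rw [mul_add, mul_one, pow_add, mul_comm]
      exact Nat.mul_le_mul ih (by simp)

lemma lower {e t : ℕ} (h : tvDist (2 ^ e) t ≤ 1 / 4) : e + 1 ≤ t := by
  obtain ⟨k, hk⟩ : ∃ k, 2 ^ e = k + 1 := ⟨2 ^ e - 1, by have := Nat.one_le_two_pow (n := e); omega⟩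
  have f : 2 * (2 ^ e) ^ 2 ^ e ≤ (2 * 2 ^ e).factorial := by
    rw [hk, show 2 * (k + 1) = (k + 1 + k) + 1 by ring, Nat.factorial_succ, pow_succ]
    have h1 := Nat.factorial_mul_pow_le_factorial (m := k + 1) (n := k)
    have h2 := Nat.pow_le_pow_left (k + 1).le_succ k
    have h3 := Nat.mul_le_mul (k + 1).factorial_pos h2
    nlinarith
  generalize hm : 2 ^ e = m at h f
  have N0 : (0 : ℝ) < (2 * m).factorial := by positivity
  have a : ∑ g, (2 * (if lawPow m t g ≠ 0 then lawPow m t g - 1 / ((2 * m).factorial : ℝ) else 0) -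
      (lawPow m t g - 1 / ((2 * m).factorial : ℝ))) ≤
      ∑ g, |lawPow m t g - 1 / ((2 * m).factorial : ℝ)| := sum_le_sum fun g _ => by
    split_ifs
    · linarith [le_abs_self (lawPow m t g - 1 / ((2 * m).factorial : ℝ))]
    · linarith [neg_le_abs (lawPow m t g - 1 / ((2 * m).factorial : ℝ))]
  rw [sum_sub_distrib, ← mul_sum, ← sum_filter, sum_sub_distrib, sum_sub_distrib, sum_filter_ne_zero,
    sum_lawPow, sum_const, sum_const, card_univ, Fintype.card_perm, Fintype.card_fin,
    nsmul_eq_mul, nsmul_eq_mul, mul_one_div_cancel N0.ne', mul_one_div] at a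
  have b : (3 / 4 : ℝ) ≤ (univ.filter fun g => lawPow m t g ≠ 0).card / (2 * m).factorial := by
    rw [tvDist] at h; linarith
  rw [le_div_iff₀ N0] at b
  have c : (_ : ℝ) ≤ _ := Nat.cast_le.2 (card_supp m t)
  have f' : (_ : ℝ) ≤ _ := Nat.cast_le.2 f
  have g : m ^ m < 2 ^ (m * t) := by
    have : (0 : ℝ) < (m ^ m : ℕ) := by rw [← hm]; positivity
    exact_mod_cast (by push_cast at *; linarith : ((m ^ m : ℕ) : ℝ) < (2 ^ (m * t) : ℕ))
  nth_rw 1 [← hm] at g
  rw [← pow_mul, Nat.pow_lt_pow_iff_right one_lt_two, mul_comm] at g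
  exact Nat.lt_of_mul_lt_mul_left g

/-- Permuting the coordinates. -/
def rot {ι : Type*} : Perm ι →* Perm (ι → Bool) where
  toFun σ := σ.arrowCongr (Equiv.refl _)
  map_one' := rfl
  map_mul' _ _ := rfl

lemma rot_apply {ι : Type*} (σ : Perm ι) (p : ι → Bool) (i : ι) : rot σ p i = p (σ⁻¹ i) := rfl

lemma rot_lay {ι : Type*} [DecidableEq ι] (σ : Perm ι) (a : ι) (s : (ι → Bool) → Bool) :
    rot σ * lay a (s ∘ rot σ) = lay (σ a) s * rot σ := by
  have u : ∀ p b, rot σ (Function.update p a b) = Function.update (rot σ p) (σ a) b := fun p b => by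
    ext i; simp [rot_apply, Function.update_apply, symm_apply_eq]
  ext1 p
  simp only [Perm.mul_apply, lay_apply, Function.comp_apply, rp, fl_apply, ← u]
  by_cases h : s (rot σ (Function.update p a false)) = true <;>
    simp only [h, if_true, if_false, Bool.false_eq_true, rot_apply, Perm.coe_inv, symm_apply_apply]

lemma rot_Pop {ι : Type*} [DecidableEq ι] [Fintype ι] (σ : Perm ι) (a : ι) :
    rL (rot σ) * Pop rL a univ = Pop rL (σ a) univ * rL (rot σ) := by
  simp only [Pop, op_mul_av, av_mul_op, ← map_mul, mem_univ, decide_true, Bool.and_true, ← rot_lay]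
  exact (av_equiv ((rot σ).symm.arrowCongr (Equiv.refl Bool)) fun s => rL (rot σ * lay a s)).symm

lemma rotate_pow (e k : ℕ) (i : Fin (e + 1)) : ((finRotate (e + 1) ^ k) i).1 = (i + k) % (e + 1) := by
  induction k with
  | zero => simp [Nat.mod_eq_of_lt i.2]
  | succ k ih => rw [pow_succ', Perm.mul_apply, finRotate_apply, Fin.val_add, ih]; simp [add_assoc]

lemma step_pow (e k : ℕ) (hk : k ≤ e + 1) : ∃ l : List (Fin (e + 1)), l.Nodup ∧ l.length = k ∧
    (∀ a ∈ l, a.1 < k) ∧ (Pop rL 0 univ * rL (rot (finRotate (e + 1)))) ^ k =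
      Bl rL l univ * rL (rot (finRotate (e + 1) ^ k)) := by
  induction k with
  | zero => exact ⟨[], by simp [Bl]⟩
  | succ k ih =>
    obtain ⟨l, h1, h2, h3, h4⟩ := ih (by omega)
    have v : ((finRotate (e + 1) ^ k) 0).1 = k := by
      rw [rotate_pow]; simp; omega
    refine ⟨(finRotate (e + 1) ^ k) 0 :: l, List.nodup_cons.2 ⟨fun h => ?_, h1⟩, by simp [h2],
      fun a ha => ?_, ?_⟩
    · exact (h3 _ h).ne v
    · rcases List.mem_cons.1 ha with rfl | ha
      · omega
      · exact (h3 a ha).trans k.lt_succ_self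
    · rw [pow_succ, h4, Bl, mul_assoc, mul_assoc, ← mul_assoc (rL _), rot_Pop, mul_assoc,
        ← map_mul, ← map_mul, pow_succ]

/-- The averaged Thorp shuffle on binary positions. -/
noncomputable def Top (e : ℕ) : EuclideanSpace ℝ (Perm (Fin (e + 1) → Bool)) →L[ℝ]
    EuclideanSpace ℝ (Perm (Fin (e + 1) → Bool)) := Pop rL 0 univ * rL (rot (finRotate (e + 1)))

/-- Binary encoding of positions. -/
def bin (e : ℕ) : (Fin (e + 1) → Bool) ≃ Fin (2 * 2 ^ e) :=
  ((Equiv.refl _).arrowCongr finTwoEquiv.symm).trans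
    (finFunctionFinEquiv.trans (finCongr (pow_succ' 2 e)))

lemma bin_val (e : ℕ) (p : Fin (e + 1) → Bool) : (bin e p).1 = ∑ i, (p i).toNat * 2 ^ i.1 := by
  change (finFunctionFinEquiv _ : ℕ) = _
  rw [finFunctionFinEquiv_apply]
  refine sum_congr rfl fun i _ => ?_
  change (finTwoEquiv.symm (p i) : ℕ) * _ = _
  cases p i <;> rfl

lemma thorp_bin (e : ℕ) (s : (Fin (e + 1) → Bool) → Bool) :
    thorp (2 ^ e) (fun i => s ((bin e).symm (i.castLE (by omega)))) =
      (bin e).permCongrHom (rot (finRotate (e + 1)) * lay (Fin.last e) s) := by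
  refine Equiv.ext fun x => ?_
  obtain ⟨p, rfl⟩ := (bin e).surjective x
  have v1 : ∀ p, (bin e p).1 = ∑ i : Fin e, (p i.castSucc).toNat * 2 ^ i.1 +
      (p (Fin.last e)).toNat * 2 ^ e := fun p => by simp [bin_val, Fin.sum_univ_castSucc]
  have v2 : ∀ p, (bin e (rot (finRotate (e + 1)) p)).1 = (p (Fin.last e)).toNat +
      2 * ∑ i : Fin e, (p i.castSucc).toNat * 2 ^ i.1 := fun p => by
    rw [bin_val, ← Equiv.sum_comp (finRotate (e + 1)), Fin.sum_univ_castSucc, add_comm, mul_sum]
    simp only [rot_apply, Perm.coe_inv, symm_apply_apply]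
    simp [pow_succ, mul_comm, mul_left_comm]
  have v3 := v1 (rp (Fin.last e) p)
  have v4 := (bin e (Function.update p (Fin.last e) true)).2
  have v5 := v1 p
  simp only [rp_ne (Fin.castSucc_ne_last _), rp_self, Bool.toNat_false, zero_mul, add_zero] at v3
  simp only [v1, Function.update_of_ne (Fin.castSucc_ne_last _), Function.update_self,
    Bool.toNat_true] at v4
  have r : ∀ i : Fin (2 ^ e), i.1 = (bin e (rp (Fin.last e) p)).1 →
      s ((bin e).symm (i.castLE (by omega))) = s (rp (Fin.last e) p) := fun i hi => by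
    congr 1; rw [symm_apply_eq]; exact Fin.ext hi
  ext
  simp only [permCongrHom_coe, permCongr_apply, symm_apply_apply, Perm.mul_apply, v2,
    lay_ne (Fin.castSucc_ne_last _), lay_self, thorp, ofBijective_apply, thorpFun]
  cases hp : p (Fin.last e) <;>
    simp only [hp, Bool.toNat_false, Bool.toNat_true, zero_mul, add_zero, one_mul] at v5
  · have := r ⟨(bin e p).1, by omega⟩ (by simp only; omega)
    rw [dif_pos (by omega)]
    cases hs : s (rp (Fin.last e) p) <;> simp only [this, hs] <;> simp <;> omega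
  · have := r ⟨(bin e p).1 - 2 ^ e, by omega⟩ (by simp only; omega)
    rw [dif_neg (by omega)]
    cases hs : s (rp (Fin.last e) p) <;> simp only [this, hs] <;> simp <;> omega

lemma av_comp {α κ : Type*} [Fintype α] [Fintype κ] [DecidableEq α] [DecidableEq κ] {j : α → κ}
    (hj : Function.Injective j) (F : (α → Bool) → ℝ) : av (fun s : κ → Bool => F (s ∘ j)) = av F := by
  rw [av_resample (fun s c => Function.extend j c s) (fun s _ => s ∘ j) (fun s c => by
    ext k
    by_cases h : ∃ a, j a = k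
    · obtain ⟨a, rfl⟩ := h; simp [hj.extend_apply]
    · simp [Function.extend_apply' _ _ _ h]) fun s c => Function.extend_comp hj _ _]
  simp only [Function.extend_comp hj, av_const]

lemma lawPow_eq (e t : ℕ) (g : Perm (Fin (e + 1) → Bool)) :
    lawPow (2 ^ e) t ((bin e).permCongrHom g) =
      (Top e ^ t) (EuclideanSpace.single 1 1) g := by
  induction t generalizing g with
  | zero => simp [lawPow, PiLp.single_apply, -permCongrHom_coe]
  | succ t ih =>
    rw [lawPow_succ, ← av_comp (j := fun i : Fin (2 ^ e) => (bin e).symm (i.castLE (by omega)))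
      ((bin e).symm.injective.comp (Fin.castLE_injective (by omega))), pow_succ', mul_apply_eq_comp]
    simp only [Function.comp_def, thorp_bin, ← map_inv, ← map_mul, ih]
    generalize (Top e ^ t) _ = v
    rw [Top, ← finRotate_last, ← rot_Pop, Pop, op_mul_av]
    simp [av, rL_apply, mul_assoc]

theorem upper : ∃ K : ℕ, ∀ e, tvDist (2 ^ e) ((e + 1) * K) ≤ 1 / 4 := by
  obtain ⟨K, hK⟩ := mix
  refine ⟨K, fun e => ?_⟩
  obtain ⟨l, h1, h2, -, h4⟩ := step_pow e (e + 1) le_rfl
  rw [show finRotate (e + 1) ^ (e + 1) = 1 from Equiv.ext fun i => Fin.ext (by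
    rw [rotate_pow]; simp [Nat.mod_eq_of_lt i.2]), map_one, map_one, mul_one] at h4
  have := hK _ l h1 (by simp [h2]) (by omega)
  rw [tvDist, ← Equiv.sum_comp (bin e).permCongrHom.toEquiv]
  simp only [MulEquiv.toEquiv_eq_coe, EquivLike.coe_coe, lawPow_eq, pow_mul, Top, h4]
  rw [Fintype.card_perm, Fintype.card_congr (bin e), Fintype.card_fin, ← one_div] at this
  linarith

theorem tmix_bounds : ∃ K : ℕ, ∀ e, e + 1 ≤ tmix (2 ^ e) ∧ tmix (2 ^ e) ≤ (e + 1) * K := by
  obtain ⟨K, hK⟩ := upper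
  exact ⟨K, fun e => ⟨lower (Nat.sInf_mem (s := {t | tvDist (2 ^ e) t ≤ 1 / 4}) ⟨_, hK e⟩),
    Nat.sInf_le (hK e)⟩⟩

end Vale.Agent.P162
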